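import Mathlib
import Crest.Prelude.Def_QState
import Crest.Prelude.Def_QChannel
import Crest.Prelude.Def_AmpDamp

/-!
Definitions for the entropy inequality behind the additivity of the generalized amplitude damping
channel (statements S0534, S0535).
-/

set_option autoImplicit false

open Crest.Quantum Crest.MathPhysics.AmpDamp Matrix
open scoped ComplexOrder

namespace Crest.Agent.H29

/-- `Ŝ(X) = S(X) - η(Tr X)`, the trace times the entropy of the normalised matrix. -/
noncomputable def Sh {n : Type*} [Fintype n] [DecidableEq n] (X : Matrix n n ℂ) : ℝ :=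
  vnEntropy X - Real.negMulLog X.trace.re

/-- Entropy of a `2 × 2` hermitian matrix with diagonal `p, q` and off-diagonal modulus `b`. -/
noncomputable def ent2 (p q b : ℝ) : ℝ :=
  Real.negMulLog ((p + q) / 2 + √(((p - q) / 2) ^ 2 + b ^ 2)) +
    Real.negMulLog ((p + q) / 2 - √(((p - q) / 2) ^ 2 + b ^ 2))

/-- The real symmetric `2 × 2` matrix with diagonal `p` (at `false`), `q` (at `true`) and
off-diagonal entry `b`. -/
def mat2 (p q b : ℝ) : Matrix Bool Bool ℂ :=
  Matrix.of fun s t => if s = t then (if s then (q : ℂ) else (p : ℂ)) else (b : ℂ)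

/-- `logTr X Y = Re Tr (Y log X)` for hermitian `X`, through the spectral decomposition of `X`. -/
noncomputable def logTr {n : Type*} [Fintype n] [DecidableEq n] (X Y : Matrix n n ℂ) : ℝ :=
  if h : X.IsHermitian then
    ∑ i, Real.log (h.eigenvalues i) *
      (((h.eigenvectorUnitary : Matrix n n ℂ)ᴴ * Y * (h.eigenvectorUnitary : Matrix n n ℂ)) i i).re
  else 0

/-- Denominator of the scalar resolvent. -/
def den (a c r t s : ℝ) : ℝ := (s + r) * (s + t) + a * (s + t) + c * (s + r)

/-- `z₀ = 1 / ((s+t)(1 + a/(s+r)) + c)`. -/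
noncomputable def z0 (a c r t s : ℝ) : ℝ := (s + r) / den a c r t s

/-- `y₀`, first component of the scalar resolvent applied to `(√a, √c)`. -/
noncomputable def y0 (a c r t s : ℝ) : ℝ := √a * (s + t) / den a c r t s

/-- the weight `z(s, x) = z₀ / (1 + (x - c) ω(s))`. -/
noncomputable def zz (a c r t : ℝ) (ω : ℝ → ℝ) (s x : ℝ) : ℝ :=
  z0 a c r t s / (1 + (x - c) * ω s)

/-- The properties of the auxiliary function `ω` on `[0, L]`. -/
structure OmegaData (a c r t L μ : ℝ) (ω : ℝ → ℝ) : Prop where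
  mu_pos : 0 < μ
  zero : ω 0 = 1 / c
  last : ω L = 0
  deriv : ∀ s, 0 ≤ s → HasDerivAt ω (-(z0 a c r t s) ^ 2 / μ) s
  nonneg : ∀ s ∈ Set.Icc 0 L, 0 ≤ ω s
  le_one : ∀ s ∈ Set.Icc 0 L, c * ω s ≤ 1
  key : ∀ s ∈ Set.Icc 0 L, μ * s * ω s ≤ 1 - c * ω s
  delta_nonneg : μ * (t + c) ≤ c

/-- Entropy of the output of the generalized amplitude damping map on the (unnormalised) pure
qubit state with populations `p` (ground) and `q` (excited). -/
noncomputable def gOut (γ ν p q : ℝ) : ℝ :=
  ent2 ((1 - γ * ν) * p + γ * (1 - ν) * q) (γ * ν * p + (1 - γ + γ * ν) * q)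
    (√(1 - γ) * √(p * q))

/-- Excited population of the output of the channel on input with excited population `p`. -/
def outPop (γ ν p : ℝ) : ℝ := (1 - γ) * p + γ * ν

/-- Excited population of a state of a qubit and a second system. -/
noncomputable def pt {d : Type*} [Fintype d] (ρ : Matrix (Bool × d) (Bool × d) ℂ) : ℝ :=
  (block ρ true true).trace.re

/-- The block matrix `V Vᴴ + R ⊕ T`. -/
def MM {K H₀ H₁ : Type*} [Fintype K] (V₀ : Matrix H₀ K ℂ) (V₁ : Matrix H₁ K ℂ)
    (R : Matrix H₀ H₀ ℂ) (T : Matrix H₁ H₁ ℂ) : Matrix (H₀ ⊕ H₁) (H₀ ⊕ H₁) ℂ :=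
  Matrix.fromBlocks (V₀ * V₀ᴴ + R) (V₀ * V₁ᴴ) (V₁ * V₀ᴴ) (V₁ * V₁ᴴ + T)

end Crest.Agent.H29
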