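import Mathlib
import Crest.Agent.H29.Defs

set_option autoImplicit false

open Crest.Quantum Crest.MathPhysics.AmpDamp Matrix Filter Topology
open scoped ComplexOrder Kronecker

namespace Crest.Agent.H29

variable {n m : Type*} [Fintype n] [DecidableEq n] [Fintype m] [DecidableEq m]

theorem vnEntropy_eq_sum {X : Matrix n n ℂ} (h : X.IsHermitian) :
    vnEntropy X = ∑ i, Real.negMulLog (h.eigenvalues i) := by
  unfold vnEntropy
  rw [dif_pos h, ← Finset.sum_neg_distrib]
  refine Finset.sum_congr rfl fun i _ => ?_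
  rw [Real.negMulLog]; ring

theorem vnEntropy_eq_roots {X : Matrix n n ℂ} (h : X.IsHermitian) :
    vnEntropy X = (X.charpoly.roots.map (fun z => Real.negMulLog z.re)).sum := by
  rw [vnEntropy_eq_sum h, h.roots_charpoly_eq_eigenvalues, Multiset.map_map]
  rfl

theorem vnEntropy_of_charpoly {ι : Type*} [Fintype ι] {X : Matrix n n ℂ} (h : X.IsHermitian)
    (d : ι → ℝ)
    (hc : X.charpoly = ∏ i, (Polynomial.X - Polynomial.C (d i : ℂ))) :
    vnEntropy X = ∑ i, Real.negMulLog (d i) := by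
  rw [vnEntropy_eq_roots h, hc, Polynomial.roots_prod _ _ (by
    simp [Finset.prod_ne_zero_iff, Polynomial.X_sub_C_ne_zero])]
  simp only [Polynomial.roots_X_sub_C, Multiset.bind_singleton, Multiset.map_map,
    Function.comp_def, Complex.ofReal_re]
  rfl

theorem vnEntropy_congr {X : Matrix n n ℂ} {Y : Matrix m m ℂ} (hX : X.IsHermitian)
    (hY : Y.IsHermitian) (hc : X.charpoly = Y.charpoly) : vnEntropy X = vnEntropy Y := by
  rw [vnEntropy_eq_roots hX, vnEntropy_eq_roots hY, hc]

theorem vnEntropy_conj (U : Matrix n n ℂ) (hU : U ∈ Matrix.unitaryGroup n ℂ) {X : Matrix n n ℂ}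
    (h : X.IsHermitian) : vnEntropy (U * X * Uᴴ) = vnEntropy X := by
  refine vnEntropy_congr (Matrix.isHermitian_mul_mul_conjTranspose U h) h ?_
  have h1 : Uᴴ * U = 1 := Matrix.mem_unitaryGroup_iff'.mp hU
  rw [Matrix.charpoly_mul_comm, ← Matrix.mul_assoc, h1, Matrix.one_mul]

omit [Fintype n] in
theorem isHermitian_diag (d : n → ℝ) :
    (Matrix.diagonal (fun i => (d i : ℂ))).IsHermitian := by
  rw [Matrix.isHermitian_diagonal_iff]
  intro i
  exact Complex.conj_ofReal _

theorem vnEntropy_diag (d : n → ℝ) :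
    vnEntropy (Matrix.diagonal (fun i => (d i : ℂ))) = ∑ i, Real.negMulLog (d i) :=
  vnEntropy_of_charpoly (isHermitian_diag d) d (Matrix.charpoly_diagonal _)

theorem vnEntropy_conj_diag (U : Matrix n n ℂ) (hU : U ∈ Matrix.unitaryGroup n ℂ) (d : n → ℝ) :
    vnEntropy (U * Matrix.diagonal (fun i => (d i : ℂ)) * Uᴴ) = ∑ i, Real.negMulLog (d i) := by
  rw [vnEntropy_conj U hU (isHermitian_diag d), vnEntropy_diag]

theorem vnEntropy_reindex (e : n ≃ m) {X : Matrix n n ℂ} (h : X.IsHermitian) :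
    vnEntropy (X.submatrix e.symm e.symm) = vnEntropy X := by
  refine vnEntropy_congr (h.submatrix _) h ?_
  exact Matrix.charpoly_reindex e X

theorem vnEntropy_mul_conjTranspose (V : Matrix m n ℂ) :
    vnEntropy (V * Vᴴ) = vnEntropy (Vᴴ * V) := by
  rw [vnEntropy_eq_roots (Matrix.isHermitian_mul_conjTranspose_self V),
    vnEntropy_eq_roots (Matrix.isHermitian_conjTranspose_mul_self V)]
  have h := Matrix.charpoly_mul_comm' V Vᴴ
  have h2 := congrArg (fun p : Polynomial ℂ =>
    (p.roots.map (fun z => Real.negMulLog z.re)).sum) h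
  beta_reduce at h2
  have key : ∀ (k : ℕ) (p : Polynomial ℂ), p ≠ 0 →
      (((Polynomial.X ^ k * p).roots).map (fun z : ℂ => Real.negMulLog z.re)).sum =
        (p.roots.map (fun z : ℂ => Real.negMulLog z.re)).sum := by
    intro k p hp
    rw [Polynomial.roots_mul (mul_ne_zero (pow_ne_zero _ Polynomial.X_ne_zero) hp),
      Multiset.map_add, Multiset.sum_add, Polynomial.roots_pow, Polynomial.roots_X,
      Multiset.map_nsmul, Multiset.sum_nsmul]
    simp
  rw [key _ _ (Matrix.charpoly_monic _).ne_zero, key _ _ (Matrix.charpoly_monic _).ne_zero] at h2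
  exact h2

theorem vnEntropy_blockDiag {A : Matrix n n ℂ} {D : Matrix m m ℂ} (hA : A.IsHermitian)
    (hD : D.IsHermitian) :
    vnEntropy (Matrix.fromBlocks A 0 0 D) = vnEntropy A + vnEntropy D := by
  have hbd : (Matrix.fromBlocks A 0 0 D).IsHermitian := by
    rw [Matrix.isHermitian_fromBlocks_iff]
    exact ⟨hA, by simp, by simp, hD⟩
  rw [vnEntropy_eq_roots hbd, vnEntropy_eq_roots hA, vnEntropy_eq_roots hD,
    Matrix.charpoly_fromBlocks_zero₁₂,
    Polynomial.roots_mul (mul_ne_zero (Matrix.charpoly_monic _).ne_zero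
      (Matrix.charpoly_monic _).ne_zero), Multiset.map_add, Multiset.sum_add]

theorem spectral_form {X : Matrix n n ℂ} (h : X.IsHermitian) :
    X = (h.eigenvectorUnitary : Matrix n n ℂ) *
      Matrix.diagonal (fun j => (h.eigenvalues j : ℂ)) *
      (h.eigenvectorUnitary : Matrix n n ℂ)ᴴ := by
  have h' := h.spectral_theorem
  rw [Unitary.conjStarAlgAut_apply] at h'
  exact h'

theorem trace_re_eq {X : Matrix n n ℂ} (h : X.IsHermitian) :
    X.trace.re = ∑ i, h.eigenvalues i := by
  rw [h.trace_eq_sum_eigenvalues, Complex.re_sum]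
  rfl

theorem vnEntropy_smul {X : Matrix n n ℂ} (hX : X.IsHermitian) (c : ℝ) :
    vnEntropy ((c : ℂ) • X) = c * vnEntropy X + Real.negMulLog c * X.trace.re := by
  set U : Matrix n n ℂ := (hX.eigenvectorUnitary : Matrix n n ℂ) with hU
  have e : (c : ℂ) • X = U * Matrix.diagonal (fun j => ((c * hX.eigenvalues j : ℝ) : ℂ)) * Uᴴ := by
    conv_lhs => rw [spectral_form hX]
    rw [← Matrix.smul_mul, ← Matrix.mul_smul, ← Matrix.diagonal_smul]
    congr 3
    funext j
    simp
  rw [e, vnEntropy_conj_diag U hX.eigenvectorUnitary.2, vnEntropy_eq_sum hX, trace_re_eq hX,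
    Finset.mul_sum, Finset.mul_sum, ← Finset.sum_add_distrib]
  refine Finset.sum_congr rfl fun i _ => ?_
  rw [Real.negMulLog_mul]; ring

theorem tendsto_vnEntropy_add_smul_one {X : Matrix n n ℂ} (h : X.IsHermitian) :
    Tendsto (fun ε : ℝ => vnEntropy (X + (ε : ℂ) • (1 : Matrix n n ℂ))) (𝓝 0)
      (𝓝 (vnEntropy X)) := by
  set U : Matrix n n ℂ := (h.eigenvectorUnitary : Matrix n n ℂ) with hU
  have hUU : U * Uᴴ = 1 := Unitary.coe_mul_star_self _
  have e : ∀ ε : ℝ, vnEntropy (X + (ε : ℂ) • (1 : Matrix n n ℂ)) =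
      ∑ i, Real.negMulLog (h.eigenvalues i + ε) := by
    intro ε
    have e1 : X + (ε : ℂ) • (1 : Matrix n n ℂ) =
        U * Matrix.diagonal (fun j => ((h.eigenvalues j + ε : ℝ) : ℂ)) * Uᴴ := by
      conv_lhs => rw [spectral_form h]
      have e2 : (ε : ℂ) • (1 : Matrix n n ℂ) =
          U * Matrix.diagonal (fun _ => (ε : ℂ)) * Uᴴ := by
        have : (Matrix.diagonal (fun _ : n => (ε : ℂ))) = (ε : ℂ) • (1 : Matrix n n ℂ) := by
          rw [← Matrix.diagonal_one, ← Matrix.diagonal_smul]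
          congr 1; funext j; simp
        rw [this, Matrix.mul_smul, Matrix.smul_mul, Matrix.mul_one, hUU]
      rw [e2, ← Matrix.add_mul, ← Matrix.mul_add, Matrix.diagonal_add]
      congr 3
      funext j
      push_cast
      rfl
    rw [e1, vnEntropy_conj_diag U h.eigenvectorUnitary.2]
  simp_rw [e]
  rw [vnEntropy_eq_sum h]
  refine tendsto_finsetSum _ fun i _ => ?_
  have hc : Continuous (fun ε : ℝ => Real.negMulLog (h.eigenvalues i + ε)) :=
    Real.continuous_negMulLog.comp (continuous_const.add continuous_id)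
  have := hc.tendsto 0
  simpa using this

theorem vnEntropy_kronecker {A : Matrix n n ℂ} {B : Matrix m m ℂ} (hA : A.IsHermitian)
    (hB : B.IsHermitian) :
    vnEntropy (A ⊗ₖ B) = B.trace.re * vnEntropy A + A.trace.re * vnEntropy B := by
  set U : Matrix n n ℂ := (hA.eigenvectorUnitary : Matrix n n ℂ) with hU
  set W : Matrix m m ℂ := (hB.eigenvectorUnitary : Matrix m m ℂ) with hW
  have hUU : U * Uᴴ = 1 := Unitary.coe_mul_star_self _
  have hWW : W * Wᴴ = 1 := Unitary.coe_mul_star_self _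
  have hKU : (U ⊗ₖ W) ∈ Matrix.unitaryGroup (n × m) ℂ := by
    rw [Matrix.mem_unitaryGroup_iff, Matrix.star_eq_conjTranspose,
      Matrix.conjTranspose_kronecker, ← Matrix.mul_kronecker_mul, hUU, hWW,
      Matrix.one_kronecker_one]
  have e : A ⊗ₖ B = (U ⊗ₖ W) *
      Matrix.diagonal (fun p : n × m => ((hA.eigenvalues p.1 * hB.eigenvalues p.2 : ℝ) : ℂ)) *
      (U ⊗ₖ W)ᴴ := by
    have hd : Matrix.diagonal (fun p : n × m =>
        ((hA.eigenvalues p.1 * hB.eigenvalues p.2 : ℝ) : ℂ)) =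
        Matrix.diagonal (fun j => (hA.eigenvalues j : ℂ)) ⊗ₖ
          Matrix.diagonal (fun j => (hB.eigenvalues j : ℂ)) := by
      rw [Matrix.diagonal_kronecker_diagonal]
      congr 1
      funext p
      push_cast
      rfl
    rw [hd, Matrix.conjTranspose_kronecker, ← Matrix.mul_kronecker_mul,
      ← Matrix.mul_kronecker_mul, ← spectral_form hA, ← spectral_form hB]
  rw [e, vnEntropy_conj_diag _ hKU, vnEntropy_eq_sum hA, vnEntropy_eq_sum hB, trace_re_eq hA,
    trace_re_eq hB, Fintype.sum_prod_type]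
  simp_rw [Real.negMulLog_mul, Finset.sum_add_distrib]
  congr 1
  · rw [Finset.sum_comm, Finset.sum_mul_sum]
  · rw [Finset.sum_mul_sum]

theorem vnEntropy_bool (p q : ℝ) (b : ℂ) :
    vnEntropy (Matrix.of fun s t : Bool =>
      if s = t then (if s then (q : ℂ) else (p : ℂ)) else if s then star b else b) =
      ent2 p q ‖b‖ := by
  set M : Matrix Bool Bool ℂ := Matrix.of fun s t : Bool =>
      if s = t then (if s then (q : ℂ) else (p : ℂ)) else if s then star b else b with hM
  have hh : M.IsHermitian := by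
    ext s t
    rw [Matrix.conjTranspose_apply]
    cases s <;> cases t <;> simp [hM]
  set D := √(((p - q) / 2) ^ 2 + ‖b‖ ^ 2) with hD
  have hD2 : D ^ 2 = ((p - q) / 2) ^ 2 + ‖b‖ ^ 2 := Real.sq_sqrt (by positivity)
  have hbb : b * star b = ((‖b‖ ^ 2 : ℝ) : ℂ) := by
    rw [Complex.star_def, Complex.mul_conj, Complex.normSq_eq_norm_sq]
  have hc : M.charpoly = ∏ i : Fin 2, (Polynomial.X -
      Polynomial.C ((![(p + q) / 2 + D, (p + q) / 2 - D] i : ℝ) : ℂ)) := by
    rw [← Matrix.charpoly_reindex finTwoEquiv.symm M, Matrix.charpoly_fin_two,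
      Fin.prod_univ_two]
    have ht : (Matrix.reindex finTwoEquiv.symm finTwoEquiv.symm M).trace = ((p + q : ℝ) : ℂ) := by
      rw [Matrix.trace_fin_two]
      simp [hM, finTwoEquiv]
    have hdet : (Matrix.reindex finTwoEquiv.symm finTwoEquiv.symm M).det =
        ((p * q - ‖b‖ ^ 2 : ℝ) : ℂ) := by
      rw [Matrix.det_fin_two]
      simp only [hM, finTwoEquiv, Matrix.reindex_apply, Matrix.submatrix_apply, Matrix.of_apply]
      simp
      rw [← Complex.star_def, hbb]
      push_cast
      ring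
    rw [ht, hdet]
    have e1 : ((p * q - ‖b‖ ^ 2 : ℝ) : ℂ) =
        (((p + q) / 2 + D : ℝ) : ℂ) * (((p + q) / 2 - D : ℝ) : ℂ) := by
      rw [← Complex.ofReal_mul]
      congr 1
      nlinarith
    have e2 : ((p + q : ℝ) : ℂ) = (((p + q) / 2 + D : ℝ) : ℂ) + (((p + q) / 2 - D : ℝ) : ℂ) := by
      rw [← Complex.ofReal_add]
      congr 1
      ring
    rw [e1, e2, Polynomial.C_mul, Polynomial.C_add]
    simp only [Matrix.cons_val_zero, Matrix.cons_val_one]
    ring
  rw [vnEntropy_of_charpoly hh _ hc, Fin.sum_univ_two, ent2]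
  simp [hD]

theorem vnEntropy_mat2 (p q b : ℝ) : vnEntropy (mat2 p q b) = ent2 p q b := by
  have h := vnEntropy_bool p q (b : ℂ)
  have e : (Matrix.of fun s t : Bool =>
      if s = t then (if s then (q : ℂ) else (p : ℂ)) else if s then star (b : ℂ) else (b : ℂ)) =
      mat2 p q b := by
    ext s t
    cases s <;> cases t <;> simp [mat2]
  rw [e] at h
  rw [h, ent2, ent2, Complex.norm_real, Real.norm_eq_abs, sq_abs]

theorem vnEntropy_unit (x : ℝ) : vnEntropy (Matrix.of fun _ _ : Unit => (x : ℂ)) =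
    Real.negMulLog x := by
  have e : (Matrix.of fun _ _ : Unit => (x : ℂ)) = Matrix.diagonal (fun _ : Unit => (x : ℂ)) := by
    ext s t
    simp
  have := vnEntropy_diag (fun _ : Unit => x)
  rw [e, this]
  simp

theorem Sh_smul {X : Matrix n n ℂ} (hX : X.IsHermitian) (c : ℝ) :
    Sh ((c : ℂ) • X) = c * Sh X := by
  unfold Sh
  rw [vnEntropy_smul hX, Matrix.trace_smul, smul_eq_mul, Complex.re_ofReal_mul,
    Real.negMulLog_mul]
  ring

end Crest.Agent.H29
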