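import Mathlib
import Crest.Agent.H29.Defs

/-!
Group GSC of row 341: scalar facts on `gOut` (helper28).
-/

set_option autoImplicit false

open Real

namespace Crest.Agent.H29

namespace GSC

/-- the determinant-like quantity. -/
noncomputable def vv (γ ν p : ℝ) : ℝ := γ * ν * (1 - ν) + γ * (1 - γ) * (p - ν) ^ 2

theorem radicand (γ ν p : ℝ) (hγ : γ ≤ 1) (hp : p ∈ Set.Icc (0 : ℝ) 1) :
    ((((1 - γ * ν) * (1 - p) + γ * (1 - ν) * p) - (γ * ν * (1 - p) + (1 - γ + γ * ν) * p)) / 2) ^ 2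
      + (√(1 - γ) * √((1 - p) * p)) ^ 2 = (1 - 4 * vv γ ν p) / 4 := by
  rw [mul_pow, Real.sq_sqrt (by linarith), Real.sq_sqrt (mul_nonneg (by linarith [hp.2]) hp.1)]
  unfold vv
  ring

theorem one_sub_nonneg (γ ν p : ℝ) (hγ : γ ≤ 1) (hp : p ∈ Set.Icc (0 : ℝ) 1) :
    0 ≤ 1 - 4 * vv γ ν p := by
  have h := radicand γ ν p hγ hp
  have : 0 ≤ (1 - 4 * vv γ ν p) / 4 := by
    rw [← h]; positivity
  linarith

/-- strict positivity in the interior -/
theorem one_sub_pos (γ ν p : ℝ) (hγ : γ < 1) (hp : p ∈ Set.Ioo (0 : ℝ) 1) :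
    0 < 1 - 4 * vv γ ν p := by
  have h := radicand γ ν p hγ.le ⟨hp.1.le, hp.2.le⟩
  have h1 : 0 < (√(1 - γ) * √((1 - p) * p)) ^ 2 := by
    rw [mul_pow, Real.sq_sqrt (by linarith), Real.sq_sqrt (mul_nonneg (by linarith [hp.2]) hp.1.le)]
    exact mul_pos (by linarith) (mul_pos (by linarith [hp.2]) hp.1)
  have : 0 < (1 - 4 * vv γ ν p) / 4 := by
    rw [← h]; positivity
  linarith

theorem vv_pos (γ ν p : ℝ) (hγ0 : 0 < γ) (hγ : γ < 1) (hν : ν ∈ Set.Icc (0 : ℝ) 1)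
    (hp : p ∈ Set.Ioo (0 : ℝ) 1) : 0 < vv γ ν p := by
  unfold vv
  have h1 : 0 ≤ ν * (1 - ν) := mul_nonneg hν.1 (by linarith [hν.2])
  have h2 : 0 < γ * (1 - γ) := mul_pos hγ0 (by linarith)
  by_cases h : p = ν
  · subst h
    have : 0 < γ * (p * (1 - p)) := mul_pos hγ0 (mul_pos hp.1 (by linarith [hp.2]))
    nlinarith
  · have h3 : 0 < (p - ν) ^ 2 := by
      have := sub_ne_zero.2 h
      positivity
    have h4 : 0 < γ * (1 - γ) * (p - ν) ^ 2 := mul_pos h2 h3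
    have h5 : 0 ≤ γ * (ν * (1 - ν)) := mul_nonneg hγ0.le h1
    nlinarith

end GSC

theorem gOut_eq (γ ν : ℝ) (hγ : γ ∈ Set.Icc (0 : ℝ) 1) (hν : ν ∈ Set.Icc (0 : ℝ) 1) (p : ℝ)
    (hp : p ∈ Set.Icc (0 : ℝ) 1) :
    gOut γ ν (1 - p) p = Real.binEntropy
      ((1 + √(1 - 4 * (γ * ν * (1 - ν) + γ * (1 - γ) * (p - ν) ^ 2))) / 2) := by
  unfold gOut ent2
  rw [GSC.radicand γ ν p hγ.2 hp]
  have h4 : √((1 - 4 * GSC.vv γ ν p) / 4) = √(1 - 4 * GSC.vv γ ν p) / 2 := by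
    rw [Real.sqrt_div (GSC.one_sub_nonneg γ ν p hγ.2 hp)]
    congr 1
    rw [show (4 : ℝ) = 2 ^ 2 by norm_num, Real.sqrt_sq (by norm_num)]
  rw [h4, Real.binEntropy_eq_negMulLog_add_negMulLog_one_sub]
  have e1 : ((1 - γ * ν) * (1 - p) + γ * (1 - ν) * p + (γ * ν * (1 - p) + (1 - γ + γ * ν) * p)) / 2
      = 1 / 2 := by ring
  rw [e1]
  have e2 : γ * ν * (1 - ν) + γ * (1 - γ) * (p - ν) ^ 2 = GSC.vv γ ν p := rfl
  rw [e2]
  congr 2 <;> ring

namespace GSC

/-- `log(1+x) - log(1-x) ≥ 2x`. -/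
theorem log_ge {x : ℝ} (h0 : 0 ≤ x) (h1 : x < 1) :
    2 * x ≤ Real.log (1 + x) - Real.log (1 - x) := by
  have h := Real.hasSum_log_sub_log_of_abs_lt_one (x := x) (by rw [abs_of_nonneg h0]; exact h1)
  have := sum_le_hasSum {0} (fun i _ => by positivity) h
  simpa using this

/-- the function `x(p)` -/
noncomputable def xx (γ ν p : ℝ) : ℝ := √(1 - 4 * vv γ ν p)

theorem hasDerivAt_vv (γ ν p : ℝ) : HasDerivAt (vv γ ν) (2 * (γ * (1 - γ)) * (p - ν)) p := by
  unfold vv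
  have h1 : HasDerivAt (fun p : ℝ => (p - ν) ^ 2) (2 * (p - ν)) p := by
    have := ((hasDerivAt_id p).sub_const ν).fun_pow 2
    simpa using this
  have h2 := (h1.const_mul (γ * (1 - γ))).const_add (γ * ν * (1 - ν))
  refine h2.congr_deriv ?_
  ring

theorem hasDerivAt_xx (γ ν p : ℝ) (h : 0 < 1 - 4 * vv γ ν p) :
    HasDerivAt (xx γ ν) (-(4 * (γ * (1 - γ)) * (p - ν)) / xx γ ν p) p := by
  unfold xx
  have h1 : HasDerivAt (fun p => 1 - 4 * vv γ ν p) (-(4 * (2 * (γ * (1 - γ)) * (p - ν)))) p :=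
    ((hasDerivAt_vv γ ν p).const_mul 4).const_sub 1
  have h2 := h1.sqrt h.ne'
  refine h2.congr_deriv ?_
  have : √(1 - 4 * vv γ ν p) ≠ 0 := (Real.sqrt_pos.2 h).ne'
  field_simp

theorem hasDerivAt_binEntropy {y : ℝ} (h0 : y ≠ 0) (h1 : y ≠ 1) :
    HasDerivAt Real.binEntropy (Real.log (1 - y) - Real.log y) y :=
  Real.hasDerivAt_binEntropy h0 h1

end GSC

open GSC in
theorem gOut_convex (γ ν : ℝ) (hγ : γ ∈ Set.Icc (0 : ℝ) 1) (hν : ν ∈ Set.Icc (0 : ℝ) 1) :
    ConvexOn ℝ (Set.Icc (0 : ℝ) 1) (fun p => gOut γ ν (1 - p) p) := by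
  -- reduce to binEntropy ((1 + xx) / 2)
  have hEq : Set.EqOn (fun p => Real.binEntropy ((1 + xx γ ν p) / 2))
      (fun p => gOut γ ν (1 - p) p) (Set.Icc (0 : ℝ) 1) := by
    intro p hp
    exact (gOut_eq γ ν hγ hν p hp).symm
  refine ConvexOn.congr ?_ hEq
  rcases eq_or_lt_of_le hγ.1 with h0 | hγ0
  · -- γ = 0
    subst h0
    have : (fun p => Real.binEntropy ((1 + xx 0 ν p) / 2)) = fun _ => Real.binEntropy ((1 + 1) / 2) := by
      funext p
      simp [xx, vv]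
    rw [this]
    exact convexOn_const _ (convex_Icc 0 1)
  rcases eq_or_lt_of_le hγ.2 with h1 | hγ1
  · subst h1
    have : (fun p => Real.binEntropy ((1 + xx 1 ν p) / 2)) =
        fun _ => Real.binEntropy ((1 + √(1 - 4 * (ν * (1 - ν)))) / 2) := by
      funext p
      simp [xx, vv]
    rw [this]
    exact convexOn_const _ (convex_Icc 0 1)
  set k := γ * (1 - γ) with hk
  have hk0 : 0 < k := mul_pos hγ0 (by linarith)
  -- derivative
  refine convexOn_of_hasDerivWithinAt2_nonneg (convex_Icc 0 1)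
    (f' := fun p => 2 * k * (p - ν) * ((Real.log (1 + xx γ ν p) - Real.log (1 - xx γ ν p)) / xx γ ν p))
    (f'' := fun p => 2 * k * ((Real.log (1 + xx γ ν p) - Real.log (1 - xx γ ν p)) / xx γ ν p)
      + 2 * k * (p - ν) * ((((-(4 * k * (p - ν)) / xx γ ν p) / (1 + xx γ ν p)
          - (-(-(4 * k * (p - ν)) / xx γ ν p)) / (1 - xx γ ν p)) * xx γ ν p
        - (Real.log (1 + xx γ ν p) - Real.log (1 - xx γ ν p)) * (-(4 * k * (p - ν)) / xx γ ν p))
          / xx γ ν p ^ 2)) ?_ ?_ ?_ ?_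
  · apply Continuous.continuousOn
    have : Continuous (xx γ ν) := by
      unfold xx vv; fun_prop
    exact Real.binEntropy_continuous.comp (by fun_prop)
  all_goals
    intro p hp
    rw [interior_Icc] at hp
    have hx0 : 0 < 1 - 4 * vv γ ν p := one_sub_pos γ ν p hγ1 hp
    have hv : 0 < vv γ ν p := vv_pos γ ν p hγ0 hγ1 hν hp
    have hxx0 : 0 < xx γ ν p := Real.sqrt_pos.2 hx0
    have hxsq : xx γ ν p ^ 2 = 1 - 4 * vv γ ν p := Real.sq_sqrt hx0.le
    have hxx1 : xx γ ν p < 1 := by nlinarith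
    have hD := hasDerivAt_xx γ ν p hx0
    rw [← hk] at hD
  · have h1 : HasDerivAt (fun p => (1 + xx γ ν p) / 2) ((-(4 * k * (p - ν)) / xx γ ν p) / 2) p :=
      (hD.const_add 1).div_const 2
    have h2 := (GSC.hasDerivAt_binEntropy (y := (1 + xx γ ν p) / 2) (by positivity)
      (by intro h; linarith)).comp p h1
    apply HasDerivAt.hasDerivWithinAt
    refine h2.congr_deriv ?_
    have e1 : (1 : ℝ) - (1 + xx γ ν p) / 2 = (1 - xx γ ν p) / 2 := by ring
    rw [e1, Real.log_div (by linarith) (by norm_num), Real.log_div (by linarith) (by norm_num)]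
    field_simp
    ring
  · apply HasDerivAt.hasDerivWithinAt
    have h1 : HasDerivAt (fun p => Real.log (1 + xx γ ν p)) ((-(4 * k * (p - ν)) / xx γ ν p) / (1 + xx γ ν p)) p :=
      (hD.const_add 1).log (by positivity)
    have h2 : HasDerivAt (fun p => Real.log (1 - xx γ ν p)) ((-(-(4 * k * (p - ν)) / xx γ ν p)) / (1 - xx γ ν p)) p :=
      (hD.const_sub 1).log (by linarith)
    have h3 := (h1.sub h2).div hD hxx0.ne'
    have h4 : HasDerivAt (fun p : ℝ => 2 * k * (p - ν)) (2 * k) p := by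
      have := ((hasDerivAt_id p).sub_const ν).const_mul (2 * k)
      simpa using this
    have h5 := h4.mul h3
    exact h5
  · set x := xx γ ν p with hxdef
    set L := Real.log (1 + x) - Real.log (1 - x) with hL
    have hLx : 2 * x ≤ L := log_ge hxx0.le hxx1
    -- C = x² + 4k(p-ν)² ≤ 1
    have hC : x ^ 2 + 4 * k * (p - ν) ^ 2 ≤ 1 := by
      rw [hxsq]
      unfold vv
      have : 0 ≤ γ * ν * (1 - ν) := mul_nonneg (mul_nonneg hγ0.le hν.1) (by linarith [hν.2])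
      rw [hk]
      nlinarith
    have h1x : 0 < 1 - x := by linarith
    have h1x' : 0 < 1 + x := by linarith
    have key : (2 * k * (L / x)
      + 2 * k * (p - ν) * ((((-(4 * k * (p - ν)) / x) / (1 + x)
          - (-(-(4 * k * (p - ν)) / x)) / (1 - x)) * x
        - L * (-(4 * k * (p - ν)) / x)) / x ^ 2))
        = 2 * k / x ^ 3 * (L * (x ^ 2 + 4 * k * (p - ν) ^ 2)
          - 2 * x * (4 * k * (p - ν) ^ 2) / ((1 + x) * (1 - x))) := by
      field_simp
      ring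
    rw [key]
    apply mul_nonneg (by positivity)
    have hW : 0 ≤ 4 * k * (p - ν) ^ 2 := by positivity
    set W := 4 * k * (p - ν) ^ 2 with hWdef
    rw [sub_nonneg, div_le_iff₀ (by positivity)]
    have h6 : 2 * x * (x ^ 2 + W) ≤ L * (x ^ 2 + W) :=
      mul_le_mul_of_nonneg_right hLx (by positivity)
    have h7 : W ≤ (x ^ 2 + W) * ((1 + x) * (1 - x)) := by nlinarith [sq_nonneg x]
    calc 2 * x * W ≤ 2 * x * ((x ^ 2 + W) * ((1 + x) * (1 - x))) :=
          mul_le_mul_of_nonneg_left h7 (by positivity)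
      _ = 2 * x * (x ^ 2 + W) * ((1 + x) * (1 - x)) := by ring
      _ ≤ L * (x ^ 2 + W) * ((1 + x) * (1 - x)) :=
          mul_le_mul_of_nonneg_right h6 (by positivity)

end Crest.Agent.H29
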