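import Mathlib
import Crest.Agent.H29.Defs

/-!
First part of group HOL: the map `gadMap` is a channel, tensor products.
-/

set_option autoImplicit false

open Crest.Quantum Crest.MathPhysics.AmpDamp Matrix Filter Topology
open scoped ComplexOrder Kronecker

namespace Crest.Agent.H29

/-! ### Kraus operators -/

section kraus

variable {k d e : Type*} [Fintype k] [DecidableEq k] [Fintype d] [DecidableEq d] [Fintype e]
  [DecidableEq e]

/-- `1 ⊗ K` -/
def ampl (k : Type*) [DecidableEq k] {d e : Type*} (K : Matrix e d ℂ) :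
    Matrix (k × e) (k × d) ℂ :=
  Matrix.of fun p q => if p.1 = q.1 then K p.2 q.2 else 0

theorem ampl_conj (K : Matrix e d ℂ) (M : Matrix (k × d) (k × d) ℂ) :
    ampl k K * M * (ampl k K)ᴴ = blockwise (k := k) (fun N => K * N * Kᴴ) M := by
  ext ⟨s, i⟩ ⟨t, j⟩
  simp only [Matrix.mul_apply, blockwise, block, ampl, Matrix.of_apply, Fintype.sum_prod_type,
    Matrix.conjTranspose_apply]
  rw [Finset.sum_eq_single t]
  · refine Finset.sum_congr rfl fun j' _ => ?_
    rw [Finset.sum_eq_single s]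
    · simp
    · intro b _ hb
      simp [Ne.symm hb]
    · simp
  · intro b _ hb
    simp [Ne.symm hb]
  · simp

theorem blockwise_kraus_posSemidef {ι : Type*} [Fintype ι] (K : ι → Matrix e d ℂ)
    (Φ : Matrix d d ℂ → Matrix e e ℂ) (hΦ : ∀ M, Φ M = ∑ j, K j * M * (K j)ᴴ)
    (M : Matrix (k × d) (k × d) ℂ) (hM : M.PosSemidef) :
    (blockwise (k := k) Φ M).PosSemidef := by
  have h : blockwise (k := k) Φ M = ∑ j, ampl k (K j) * M * (ampl k (K j))ᴴ := by
    simp only [ampl_conj]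
    ext p q
    rw [Matrix.sum_apply]
    simp only [blockwise, Matrix.of_apply, hΦ, Matrix.sum_apply]
  rw [h]
  exact Matrix.posSemidef_sum _ fun j _ => hM.mul_mul_conjTranspose_same _

end kraus

/-- Kraus operators of the generalized amplitude damping map. -/
noncomputable def gadK (γ ν : ℝ) : Fin 4 → Matrix Bool Bool ℂ
  | 0 => Matrix.of fun s t => if s = t then (if s then ((√(1 - ν) * √(1 - γ) : ℝ) : ℂ) else ((√(1 - ν) : ℝ) : ℂ)) else 0
  | 1 => Matrix.of fun s t => if s = false ∧ t = true then ((√(1 - ν) * √γ : ℝ) : ℂ) else 0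
  | 2 => Matrix.of fun s t => if s = t then (if s then ((√ν : ℝ) : ℂ) else ((√ν * √(1 - γ) : ℝ) : ℂ)) else 0
  | 3 => Matrix.of fun s t => if s = true ∧ t = false then ((√ν * √γ : ℝ) : ℂ) else 0

theorem gadMap_kraus (γ ν : ℝ) (hγ : γ ∈ Set.Icc (0 : ℝ) 1) (hν : ν ∈ Set.Icc (0 : ℝ) 1)
    (M : Matrix Bool Bool ℂ) : gadMap γ ν M = ∑ j, gadK γ ν j * M * (gadK γ ν j)ᴴ := by
  obtain ⟨hγ0, hγ1⟩ := hγ
  obtain ⟨hν0, hν1⟩ := hν
  have e1 : ((√(1 - ν) : ℝ) : ℂ) * ((√(1 - ν) : ℝ) : ℂ) = 1 - ν := by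
    rw [← Complex.ofReal_mul, Real.mul_self_sqrt (by linarith)]; push_cast; ring
  have e2 : ((√ν : ℝ) : ℂ) * ((√ν : ℝ) : ℂ) = ν := by
    rw [← Complex.ofReal_mul, Real.mul_self_sqrt (by linarith)]
  have e3 : ((√(1 - γ) : ℝ) : ℂ) * ((√(1 - γ) : ℝ) : ℂ) = 1 - γ := by
    rw [← Complex.ofReal_mul, Real.mul_self_sqrt (by linarith)]; push_cast; ring
  have e4 : ((√γ : ℝ) : ℂ) * ((√γ : ℝ) : ℂ) = γ := by
    rw [← Complex.ofReal_mul, Real.mul_self_sqrt (by linarith)]
  ext s t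
  rw [Fin.sum_univ_four]
  cases s <;> cases t <;>
    simp [gadMap, gadK, Matrix.mul_apply, Matrix.conjTranspose_apply]
  · linear_combination (-M false false) * e1
      - M true true * ((((√(1 - ν) : ℝ) : ℂ) * ((√(1 - ν) : ℝ) : ℂ)) * e4 + (γ : ℂ) * e1)
      - M false false * ((((√ν : ℝ) : ℂ) * ((√ν : ℝ) : ℂ)) * e3 + (1 - (γ : ℂ)) * e2)
  · linear_combination (-M false true * ((√(1 - γ) : ℝ) : ℂ)) * (e1 + e2)
  · linear_combination (-M true false * ((√(1 - γ) : ℝ) : ℂ)) * (e1 + e2)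
  · linear_combination (-M true true) * e2
      - M false false * ((((√ν : ℝ) : ℂ) * ((√ν : ℝ) : ℂ)) * e4 + (γ : ℂ) * e2)
      - M true true * ((((√(1 - ν) : ℝ) : ℂ) * ((√(1 - ν) : ℝ) : ℂ)) * e3 + (1 - (γ : ℂ)) * e1)

theorem gadMap_isLinear (γ ν : ℝ) : IsLinearMap ℂ (gadMap γ ν) := by
  constructor
  · intro x y
    ext s t
    cases s <;> cases t <;> simp [gadMap] <;> ring
  · intro c x
    ext s t
    cases s <;> cases t <;> simp [gadMap] <;> ring

theorem gadMap_isTP (γ ν : ℝ) : IsTracePreserving (gadMap γ ν) := by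
  intro M
  simp [Matrix.trace, gadMap]
  ring

theorem gadMap_isChannel (γ ν : ℝ) (hγ : γ ∈ Set.Icc (0 : ℝ) 1)
    (hν : ν ∈ Set.Icc (0 : ℝ) 1) : IsChannel (gadMap γ ν) := by
  refine ⟨gadMap_isLinear γ ν, ?_, gadMap_isTP γ ν⟩
  intro k M hM
  exact blockwise_kraus_posSemidef (gadK γ ν) _ (gadMap_kraus γ ν hγ hν) M hM

/-- complete positivity for `Bool`-indexed auxiliary system. -/
theorem blockwise_bool_posSemidef {d e : Type*} [Fintype d] [Fintype e] [DecidableEq d]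
    [DecidableEq e] (Ψ : Matrix d d ℂ → Matrix e e ℂ) (h : IsCompletelyPositive Ψ)
    (M : Matrix (Bool × d) (Bool × d) ℂ) (hM : M.PosSemidef) :
    (blockwise (k := Bool) Ψ M).PosSemidef := by
  have h1 := h 2 (M.submatrix (Prod.map finTwoEquiv id) (Prod.map finTwoEquiv id))
    (hM.submatrix _)
  have h2 := h1.submatrix (Prod.map finTwoEquiv.symm id : Bool × e → Fin 2 × e)
  have hb : ∀ s t : Bool, block (M.submatrix (Prod.map finTwoEquiv id : Fin 2 × d → Bool × d)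
      (Prod.map finTwoEquiv id)) (finTwoEquiv.symm s) (finTwoEquiv.symm t) = block M s t := by
    intro s t
    ext i j
    simp [block]
  convert h2 using 1
  ext ⟨s, i⟩ ⟨t, j⟩
  simp only [blockwise, Matrix.submatrix_apply, Matrix.of_apply, Prod.map, id]
  rw [← hb s t]

theorem posSemidef_of_cp {d e : Type*} [Fintype d] [Fintype e] [DecidableEq d]
    [DecidableEq e] (Ψ : Matrix d d ℂ → Matrix e e ℂ) (h : IsCompletelyPositive Ψ)
    (M : Matrix d d ℂ) (hM : M.PosSemidef) : (Ψ M).PosSemidef := by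
  have h1 := h 1 (M.submatrix (Prod.snd : Fin 1 × d → d) Prod.snd) (hM.submatrix _)
  have h2 := h1.submatrix (fun i : e => ((0 : Fin 1), i))
  exact h2

theorem qubitTensor_kronecker {d e : Type*} [Fintype d] [Fintype e] [DecidableEq d]
    [DecidableEq e] (Φ : Matrix Bool Bool ℂ → Matrix Bool Bool ℂ) (hΦ : IsLinearMap ℂ Φ)
    (Ψ : Matrix d d ℂ → Matrix e e ℂ) (hΨ : IsLinearMap ℂ Ψ)
    (A : Matrix Bool Bool ℂ) (B : Matrix d d ℂ) :
    qubitTensor Φ Ψ (A ⊗ₖ B) = Φ A ⊗ₖ Ψ B := by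
  have hblock : ∀ s t, block (A ⊗ₖ B) s t = A s t • B := by
    intro s t
    ext i j
    simp [block, Matrix.kroneckerMap_apply]
  have hA : Φ A = ∑ s' : Bool, ∑ t' : Bool, A s' t' • Φ (Matrix.single s' t' 1) := by
    conv_lhs => rw [Matrix.matrix_eq_sum_single A]
    have hs : ∀ f : Bool → Matrix Bool Bool ℂ, Φ (∑ s, f s) = ∑ s, Φ (f s) := by
      intro f
      exact map_sum (hΦ.mk' Φ) f Finset.univ
    rw [hs]
    refine Finset.sum_congr rfl fun s' _ => ?_
    rw [hs]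
    refine Finset.sum_congr rfl fun t' _ => ?_
    rw [← hΦ.map_smul]
    congr 1
    rw [Matrix.smul_single]
    simp
  ext ⟨s, i⟩ ⟨t, j⟩
  simp only [qubitTensor, Matrix.of_apply, hblock, hΨ.map_smul, Matrix.kroneckerMap_apply]
  rw [hA, Matrix.sum_apply, Finset.sum_mul]
  refine Finset.sum_congr rfl fun s' _ => ?_
  rw [Matrix.sum_apply, Finset.sum_mul]
  refine Finset.sum_congr rfl fun t' _ => ?_
  simp only [qubitCoeff, Matrix.smul_apply, smul_eq_mul]
  ring

/-- the qubit map tensored with the identity is positive. -/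
theorem qubitTensor_gad_posSemidef (γ ν : ℝ) (hγ : γ ∈ Set.Icc (0 : ℝ) 1)
    (hν : ν ∈ Set.Icc (0 : ℝ) 1) {d e : Type*} [Fintype d] [Fintype e] [DecidableEq d]
    [DecidableEq e] (Ψ : Matrix d d ℂ → Matrix e e ℂ) 
    (M : Matrix (Bool × d) (Bool × d) ℂ) (hM : (blockwise (k := Bool) Ψ M).PosSemidef) :
    (qubitTensor (gadMap γ ν) Ψ M).PosSemidef := by
  have h1 := hM.submatrix (Prod.swap : e × Bool → Bool × e)
  have h2 := blockwise_kraus_posSemidef (gadK γ ν) _ (gadMap_kraus γ ν hγ hν) _ h1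
  have h3 := h2.submatrix (Prod.swap : Bool × e → e × Bool)
  convert h3 using 1
  ext ⟨s, i⟩ ⟨t, j⟩
  simp only [qubitTensor, blockwise, Matrix.submatrix_apply, Matrix.of_apply, Prod.swap]
  cases s <;> cases t <;> simp [qubitCoeff, gadMap, block, Matrix.single, add_comm]

end Crest.Agent.H29
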