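import Mathlib
import Crest.Agent.H29.Defs
import Crest.Agent.H29.Ent

set_option autoImplicit false

open Crest.Quantum Crest.MathPhysics.AmpDamp Matrix Filter Topology
open scoped ComplexOrder Kronecker

namespace Crest.Agent.H29

variable {n m : Type*} [Fintype n] [DecidableEq n] [Fintype m] [DecidableEq m]

theorem logTr_add {X : Matrix n n ℂ} (Y Z : Matrix n n ℂ) :
    logTr X (Y + Z) = logTr X Y + logTr X Z := by
  unfold logTr
  split_ifs with h
  · rw [← Finset.sum_add_distrib]
    refine Finset.sum_congr rfl fun i _ => ?_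
    rw [Matrix.mul_add, Matrix.add_mul, Matrix.add_apply, Complex.add_re, mul_add]
  · simp

theorem logTr_smul {X : Matrix n n ℂ} (Y : Matrix n n ℂ) (c : ℝ) :
    logTr X ((c : ℂ) • Y) = c * logTr X Y := by
  unfold logTr
  split_ifs with h
  · rw [Finset.mul_sum]
    refine Finset.sum_congr rfl fun i _ => ?_
    rw [Matrix.mul_smul, Matrix.smul_mul, Matrix.smul_apply, smul_eq_mul, Complex.re_ofReal_mul]
    ring
  · simp

theorem conj_self_apply {X : Matrix n n ℂ} (hX : X.IsHermitian) (i : n) :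
    ((hX.eigenvectorUnitary : Matrix n n ℂ)ᴴ * X * (hX.eigenvectorUnitary : Matrix n n ℂ)) i i =
      (hX.eigenvalues i : ℂ) := by
  have h := hX.conjStarAlgAut_star_eigenvectorUnitary
  rw [Unitary.conjStarAlgAut_star_apply] at h
  rw [← Matrix.star_eq_conjTranspose, h, Matrix.diagonal_apply_eq]
  rfl

theorem logTr_self {X : Matrix n n ℂ} (hX : X.IsHermitian) : logTr X X = - vnEntropy X := by
  unfold logTr vnEntropy
  rw [dif_pos hX, dif_pos hX, neg_neg]
  refine Finset.sum_congr rfl fun i _ => ?_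
  rw [conj_self_apply, Complex.ofReal_re, mul_comm]

/-- the unistochastic weights. -/
theorem unitary_row_sum {U : Matrix n n ℂ} (hU : U * Uᴴ = 1) (i : n) : ∑ j, ‖U i j‖ ^ 2 = 1 := by
  have h : (U * Uᴴ) i i = 1 := by rw [hU]; simp
  rw [Matrix.mul_apply] at h
  have h2 := congrArg Complex.re h
  rw [Complex.re_sum, Complex.one_re] at h2
  rw [← h2]
  refine Finset.sum_congr rfl fun j _ => ?_
  rw [Matrix.conjTranspose_apply, Complex.star_def, Complex.mul_conj, Complex.ofReal_re,
    Complex.normSq_eq_norm_sq]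

theorem unitary_col_sum {U : Matrix n n ℂ} (hU : Uᴴ * U = 1) (j : n) : ∑ i, ‖U i j‖ ^ 2 = 1 := by
  have h := unitary_row_sum (U := Uᴴ) (by rw [Matrix.conjTranspose_conjTranspose, hU]) j
  rw [← h]
  refine Finset.sum_congr rfl fun i _ => ?_
  rw [Matrix.conjTranspose_apply, norm_star]

theorem diag_conj_apply {Y : Matrix n n ℂ} (hY : Y.IsHermitian) (U : Matrix n n ℂ) (i : n) :
    ((Uᴴ * Y * U) i i).re =
      ∑ j, ‖(Uᴴ * (hY.eigenvectorUnitary : Matrix n n ℂ)) i j‖ ^ 2 * hY.eigenvalues j := by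
  set W : Matrix n n ℂ := (hY.eigenvectorUnitary : Matrix n n ℂ) with hW
  have hs : Y = W * Matrix.diagonal (fun j => (hY.eigenvalues j : ℂ)) * Wᴴ := by
    have h := hY.spectral_theorem
    rw [Unitary.conjStarAlgAut_apply] at h
    exact h
  have e : Uᴴ * Y * U = (Uᴴ * W) * Matrix.diagonal (fun j => (hY.eigenvalues j : ℂ)) *
      (Uᴴ * W)ᴴ := by
    rw [Matrix.conjTranspose_mul, Matrix.conjTranspose_conjTranspose]
    conv_lhs => rw [hs]
    simp only [Matrix.mul_assoc]
  rw [e, Matrix.mul_apply, Complex.re_sum]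
  refine Finset.sum_congr rfl fun j _ => ?_
  rw [Matrix.mul_diagonal, Matrix.conjTranspose_apply, Complex.star_def]
  have : (Uᴴ * W) i j * (hY.eigenvalues j : ℂ) * (starRingEnd ℂ) ((Uᴴ * W) i j) =
      ((Complex.normSq ((Uᴴ * W) i j) * hY.eigenvalues j : ℝ) : ℂ) := by
    rw [Complex.ofReal_mul, ← Complex.mul_conj]; ring
  rw [this, Complex.ofReal_re, Complex.normSq_eq_norm_sq]

theorem klein_term {y x : ℝ} (l : ℝ) (hl : 0 < l) (hy : 0 ≤ y) (hx : 0 < x) :
    0 ≤ y * Real.log y - y * Real.log x - y * Real.log l - y + l * x := by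
  rcases hy.eq_or_lt with rfl | hy
  · simp; positivity
  · have h := Real.log_le_sub_one_of_pos (x := l * x / y) (by positivity)
    rw [Real.log_div (by positivity) (by positivity), Real.log_mul hl.ne' hx.ne'] at h
    have h2 := mul_le_mul_of_nonneg_left h hy.le
    have e : y * (l * x / y - 1) = l * x - y := by field_simp
    rw [e] at h2
    nlinarith

/-- Generalised Klein inequality: `X` positive semidefinite with `supp Y ⊆ supp X`. -/
theorem klein_gen {X Y : Matrix n n ℂ} (hX : X.PosSemidef) (hY : Y.PosSemidef)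
    (hsupp : ∀ i, hX.1.eigenvalues i = 0 →
      (((hX.1.eigenvectorUnitary : Matrix n n ℂ)ᴴ * Y *
        (hX.1.eigenvectorUnitary : Matrix n n ℂ)) i i).re = 0) {l : ℝ} (hl : 0 < l) :
    vnEntropy Y ≤ - logTr X Y - Y.trace.re * Real.log l - Y.trace.re + l * X.trace.re := by
  set U : Matrix n n ℂ := (hX.1.eigenvectorUnitary : Matrix n n ℂ) with hU
  set W : Matrix n n ℂ := (hY.1.eigenvectorUnitary : Matrix n n ℂ) with hW
  set x : n → ℝ := hX.1.eigenvalues with hx
  set y : n → ℝ := hY.1.eigenvalues with hy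
  have hUU : Uᴴ * U = 1 := Unitary.coe_star_mul_self _
  have hUU' : U * Uᴴ = 1 := Unitary.coe_mul_star_self _
  have hWW : Wᴴ * W = 1 := Unitary.coe_star_mul_self _
  have hWW' : W * Wᴴ = 1 := Unitary.coe_mul_star_self _
  set p : n → n → ℝ := fun i j => ‖(Uᴴ * W) i j‖ ^ 2 with hp
  have hrow : ∀ i, ∑ j, p i j = 1 := fun i => unitary_row_sum (by
    rw [Matrix.conjTranspose_mul, Matrix.conjTranspose_conjTranspose, Matrix.mul_assoc,
      ← Matrix.mul_assoc W, hWW', Matrix.one_mul, hUU]) i
  have hcol : ∀ j, ∑ i, p i j = 1 := fun j => unitary_col_sum (by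
    rw [Matrix.conjTranspose_mul, Matrix.conjTranspose_conjTranspose, Matrix.mul_assoc,
      ← Matrix.mul_assoc U, hUU', Matrix.one_mul, hWW]) j
  have hp0 : ∀ i j, 0 ≤ p i j := fun i j => by positivity
  have hx0 : ∀ i, 0 ≤ x i := hX.eigenvalues_nonneg
  have hy0 : ∀ i, 0 ≤ y i := hY.eigenvalues_nonneg
  have hd : ∀ i, ((Uᴴ * Y * U) i i).re = ∑ j, p i j * y j := fun i => diag_conj_apply hY.1 U i
  have hterm : ∀ i j, 0 ≤ p i j * (y j * Real.log (y j) - y j * Real.log (x i)
      - y j * Real.log l - y j + l * x i) := by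
    intro i j
    rcases (hx0 i).eq_or_lt with h0 | h0
    · have hs : ∑ j, p i j * y j = 0 := by rw [← hd]; exact hsupp i h0.symm
      have hz := (Finset.sum_eq_zero_iff_of_nonneg (fun j _ => mul_nonneg (hp0 i j) (hy0 j))).mp hs
        j (Finset.mem_univ j)
      have e : p i j * (y j * Real.log (y j) - y j * Real.log (x i)
          - y j * Real.log l - y j + l * x i) =
          (p i j * y j) * (Real.log (y j) - Real.log (x i) - Real.log l - 1)
          + p i j * (l * x i) := by ring
      rw [e, hz, ← h0]; simp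
    · exact mul_nonneg (hp0 i j) (klein_term l hl (hy0 j) h0)
  have hsum : 0 ≤ ∑ i, ∑ j, p i j * (y j * Real.log (y j) - y j * Real.log (x i)
      - y j * Real.log l - y j + l * x i) :=
    Finset.sum_nonneg fun i _ => Finset.sum_nonneg fun j _ => hterm i j
  have e1 : ∑ i, ∑ j, p i j * (y j * Real.log (y j)) = ∑ j, y j * Real.log (y j) := by
    rw [Finset.sum_comm]
    refine Finset.sum_congr rfl fun j _ => ?_
    rw [← Finset.sum_mul, hcol, one_mul]
  have e2 : ∑ i, ∑ j, p i j * (y j * Real.log (x i)) = logTr X Y := by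
    unfold logTr
    rw [dif_pos hX.1]
    refine Finset.sum_congr rfl fun i _ => ?_
    rw [hd i, Finset.mul_sum]
    refine Finset.sum_congr rfl fun j _ => ?_
    ring
  have e3 : ∑ i, ∑ j, p i j * y j = Y.trace.re := by
    rw [Finset.sum_comm, hY.1.trace_eq_sum_eigenvalues, Complex.re_sum]
    refine Finset.sum_congr rfl fun j _ => ?_
    rw [← Finset.sum_mul, hcol, one_mul]
    rfl
  have e4 : ∑ i, ∑ j, p i j * x i = X.trace.re := by
    rw [hX.1.trace_eq_sum_eigenvalues, Complex.re_sum]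
    refine Finset.sum_congr rfl fun i _ => ?_
    rw [← Finset.sum_mul, hrow, one_mul]
    rfl
  have e5 : ∑ i, ∑ j, p i j * (y j * Real.log (y j) - y j * Real.log (x i)
      - y j * Real.log l - y j + l * x i) =
      (∑ i, ∑ j, p i j * (y j * Real.log (y j))) - (∑ i, ∑ j, p i j * (y j * Real.log (x i)))
      - (∑ i, ∑ j, p i j * y j) * Real.log l - (∑ i, ∑ j, p i j * y j)
      + l * (∑ i, ∑ j, p i j * x i) := by
    rw [Finset.sum_mul, Finset.mul_sum, ← Finset.sum_sub_distrib, ← Finset.sum_sub_distrib,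
      ← Finset.sum_sub_distrib, ← Finset.sum_add_distrib]
    refine Finset.sum_congr rfl fun i _ => ?_
    rw [Finset.sum_mul, Finset.mul_sum, ← Finset.sum_sub_distrib, ← Finset.sum_sub_distrib,
      ← Finset.sum_sub_distrib, ← Finset.sum_add_distrib]
    refine Finset.sum_congr rfl fun j _ => ?_
    ring
  rw [e5, e1, e2, e3, e4] at hsum
  have e6 : vnEntropy Y = - ∑ j, y j * Real.log (y j) := by
    unfold vnEntropy
    rw [dif_pos hY.1]
  rw [e6]
  linarith

/-- Klein's inequality. -/
theorem klein {X Y : Matrix n n ℂ} (hX : X.PosDef) (hY : Y.PosSemidef) :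
    vnEntropy Y ≤ - logTr X Y - Y.trace.re + X.trace.re := by
  have h := klein_gen (X := X) (Y := Y) hX.posSemidef hY
    (fun i hi => absurd hi (hX.eigenvalues_pos i).ne') (l := 1) one_pos
  simpa using h

theorem supp_of_le {X Y : Matrix n n ℂ} (hX : X.PosSemidef) (hY : Y.PosSemidef)
    (hXY : (X - Y).PosSemidef) (i : n) (hi : hX.1.eigenvalues i = 0) :
    (((hX.1.eigenvectorUnitary : Matrix n n ℂ)ᴴ * Y *
        (hX.1.eigenvectorUnitary : Matrix n n ℂ)) i i).re = 0 := by
  set U : Matrix n n ℂ := (hX.1.eigenvectorUnitary : Matrix n n ℂ) with hU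
  have h1 : 0 ≤ ((Uᴴ * Y * U) i i).re :=
    (RCLike.nonneg_iff.mp (hY.conjTranspose_mul_mul_same U).diag_nonneg).1
  have h2 : 0 ≤ ((Uᴴ * (X - Y) * U) i i).re :=
    (RCLike.nonneg_iff.mp (hXY.conjTranspose_mul_mul_same U).diag_nonneg).1
  have h3 : ((Uᴴ * X * U) i i).re = 0 := by
    rw [hU, conj_self_apply, hi]; simp
  rw [Matrix.mul_sub, Matrix.sub_mul, Matrix.sub_apply, Complex.sub_re, h3] at h2
  linarith

/-- concavity of the entropy: superadditivity of `Sh`. -/
theorem Sh_add_le {X Y : Matrix n n ℂ} (hX : X.PosSemidef) (hY : Y.PosSemidef) :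
    Sh X + Sh Y ≤ Sh (X + Y) := by
  have hz : Sh (0 : Matrix n n ℂ) = 0 := by
    unfold Sh
    have h : (0 : Matrix n n ℂ).PosSemidef := Matrix.PosSemidef.zero
    have he : vnEntropy (0 : Matrix n n ℂ) = 0 := by
      unfold vnEntropy
      rw [dif_pos h.1]
      have : ∀ i, h.1.eigenvalues i = 0 := by
        have := h.1.eigenvalues_eq_zero_iff.mpr rfl
        intro i; exact congrFun this i
      simp [this]
    rw [he]; simp
  have hZ : (X + Y).PosSemidef := hX.add hY
  have hreX : X.trace.re = 0 → X = 0 := fun h => by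
    rw [← hX.trace_eq_zero_iff]
    have := (RCLike.nonneg_iff.mp hX.trace_nonneg).2
    exact Complex.ext h this
  have hreY : Y.trace.re = 0 → Y = 0 := fun h => by
    rw [← hY.trace_eq_zero_iff]
    have := (RCLike.nonneg_iff.mp hY.trace_nonneg).2
    exact Complex.ext h this
  have tx0 : 0 ≤ X.trace.re := (RCLike.nonneg_iff.mp hX.trace_nonneg).1
  have ty0 : 0 ≤ Y.trace.re := (RCLike.nonneg_iff.mp hY.trace_nonneg).1
  rcases tx0.eq_or_lt with h | htx
  · rw [hreX h.symm, hz, zero_add, zero_add]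
  rcases ty0.eq_or_lt with h | hty
  · rw [hreY h.symm, hz, add_zero, add_zero]
  set tx := X.trace.re with htxd
  set ty := Y.trace.re with htyd
  have k1 := klein_gen hZ hX (supp_of_le hZ hX (by simpa using hY)) (l := tx / (tx + ty))
    (by positivity)
  have k2 := klein_gen hZ hY (supp_of_le hZ hY (by simpa using hX)) (l := ty / (tx + ty))
    (by positivity)
  have htr : (X + Y).trace.re = tx + ty := by rw [Matrix.trace_add, Complex.add_re]
  have hlt := logTr_self hZ.1
  rw [logTr_add] at hlt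
  rw [htr, Real.log_div (by positivity) (by positivity), div_mul_cancel₀ _ (by positivity)]
    at k1 k2
  unfold Sh
  rw [htr, Real.negMulLog, Real.negMulLog, Real.negMulLog]
  rw [← htxd] at k1 ⊢
  rw [← htyd] at k2 ⊢
  nlinarith

/-- finite sums -/
theorem Sh_sum_le {ι : Type*} (s : Finset ι) (X : ι → Matrix n n ℂ)
    (hX : ∀ i ∈ s, (X i).PosSemidef) : ∑ i ∈ s, Sh (X i) ≤ Sh (∑ i ∈ s, X i) := by
  classical
  induction s using Finset.induction_on with
  | empty =>
    have h : (0 : Matrix n n ℂ).PosSemidef := Matrix.PosSemidef.zero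
    have := Sh_add_le h h
    simp only [add_zero] at this
    simp only [Finset.sum_empty]
    have he : vnEntropy (0 : Matrix n n ℂ) = 0 := by
      unfold vnEntropy
      rw [dif_pos h.1]
      have : ∀ i, h.1.eigenvalues i = 0 := by
        have := h.1.eigenvalues_eq_zero_iff.mpr rfl
        intro i; exact congrFun this i
      simp [this]
    unfold Sh; rw [he]; simp
  | insert a s ha ih =>
    rw [Finset.sum_insert ha, Finset.sum_insert ha]
    have h1 := ih (fun i hi => hX i (Finset.mem_insert_of_mem hi))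
    have h2 := Sh_add_le (hX a (Finset.mem_insert_self a s))
      (Matrix.posSemidef_sum s (fun i hi => hX i (Finset.mem_insert_of_mem hi)))
    linarith

/-- pinching inequality for `2 × 2` block matrices. -/
theorem vnEntropy_le_blocks {A : Matrix n n ℂ} {B : Matrix n m ℂ} {D : Matrix m m ℂ}
    (h : (Matrix.fromBlocks A B Bᴴ D).PosSemidef) :
    vnEntropy (Matrix.fromBlocks A B Bᴴ D) ≤ vnEntropy A + vnEntropy D := by
  set M := Matrix.fromBlocks A B Bᴴ D with hM
  have hA : A.IsHermitian := (Matrix.isHermitian_fromBlocks_iff.mp h.1).1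
  have hD : D.IsHermitian := (Matrix.isHermitian_fromBlocks_iff.mp h.1).2.2.2
  set J : Matrix (n ⊕ m) (n ⊕ m) ℂ := Matrix.fromBlocks 1 0 0 (-1) with hJ
  have hJh : Jᴴ = J := by
    rw [hJ, Matrix.fromBlocks_conjTranspose]; simp
  have hJJ : J * Jᴴ = 1 := by
    rw [hJh, hJ, Matrix.fromBlocks_multiply]; simp
  have hJu : J ∈ Matrix.unitaryGroup (n ⊕ m) ℂ := Matrix.mem_unitaryGroup_iff.mpr hJJ
  have hconj : vnEntropy (J * M * Jᴴ) = vnEntropy M := vnEntropy_conj J hJu h.1
  have hP : (J * M * Jᴴ).PosSemidef := h.mul_mul_conjTranspose_same J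
  have hsum : M + J * M * Jᴴ = ((2 : ℝ) : ℂ) • Matrix.fromBlocks A 0 0 D := by
    rw [hJh, hJ, hM, Matrix.fromBlocks_multiply, Matrix.fromBlocks_multiply,
      Matrix.fromBlocks_add, Matrix.fromBlocks_smul]
    congr 1 <;> simp [two_smul]
  have hbd : (Matrix.fromBlocks A 0 0 D).IsHermitian := by
    rw [Matrix.isHermitian_fromBlocks_iff]
    exact ⟨hA, by simp, by simp, hD⟩
  have h1 := Sh_add_le h hP
  rw [hsum, Sh_smul hbd] at h1
  have htr : (J * M * Jᴴ).trace = M.trace := by
    rw [Matrix.trace_mul_cycle, hJh]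
    have : J * J = 1 := by rw [← hJJ, hJh]
    rw [this, Matrix.one_mul]
  have htr2 : (Matrix.fromBlocks A 0 0 D).trace = M.trace := by
    rw [hM]; simp [Matrix.trace, Fintype.sum_sum_type]
  unfold Sh at h1
  rw [hconj, htr, htr2, vnEntropy_blockDiag hA hD] at h1
  linarith

end Crest.Agent.H29
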