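import Mathlib
import Crest.Agent.H29.Defs

set_option autoImplicit false

open MeasureTheory Filter Topology

namespace Crest.Agent.H29

/-! ### scalar positivity and continuity -/

lemma den_pos {a c r t s : ℝ} (ha : 0 < a) (hc : 0 < c) (ht : 0 < t) (hrt : t ≤ r)
    (hs : 0 ≤ s) : 0 < den a c r t s := by
  unfold den
  have hr : 0 < r := lt_of_lt_of_le ht hrt
  positivity

lemma z0_pos {a c r t s : ℝ} (ha : 0 < a) (hc : 0 < c) (ht : 0 < t) (hrt : t ≤ r)
    (hs : 0 ≤ s) : 0 < z0 a c r t s := by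
  unfold z0
  have hr : 0 < r := lt_of_lt_of_le ht hrt
  have := den_pos ha hc ht hrt hs
  positivity

lemma y0_nonneg {a c r t s : ℝ} (ha : 0 < a) (hc : 0 < c) (ht : 0 < t) (hrt : t ≤ r)
    (hs : 0 ≤ s) : 0 ≤ y0 a c r t s := by
  unfold y0
  have hr : 0 < r := lt_of_lt_of_le ht hrt
  have := den_pos ha hc ht hrt hs
  positivity

lemma continuousOn_z0 {a c r t : ℝ} (ha : 0 < a) (hc : 0 < c) (ht : 0 < t) (hrt : t ≤ r) :
    ContinuousOn (z0 a c r t) (Set.Ici 0) := by
  unfold z0 den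
  apply ContinuousOn.div
  · fun_prop
  · fun_prop
  · intro s hs
    exact (den_pos ha hc ht hrt hs).ne'

lemma continuousOn_y0 {a c r t : ℝ} (ha : 0 < a) (hc : 0 < c) (ht : 0 < t) (hrt : t ≤ r) :
    ContinuousOn (y0 a c r t) (Set.Ici 0) := by
  unfold y0 den
  apply ContinuousOn.div
  · fun_prop
  · fun_prop
  · intro s hs
    exact (den_pos ha hc ht hrt hs).ne'

lemma one_sub_sqrt_mul_y0 {a c r t s : ℝ} (ha : 0 < a) (hc : 0 < c) (ht : 0 < t)
    (hrt : t ≤ r) (hs : 0 ≤ s) :
    1 - √a * y0 a c r t s = (s + t + c) * z0 a c r t s := by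
  have hd := den_pos ha hc ht hrt hs
  unfold y0 z0
  have hsq : √a * √a = a := Real.mul_self_sqrt ha.le
  field_simp
  rw [show √a ^ 2 = a by rw [sq, hsq]]
  unfold den
  ring

lemma scalar_identity {a c r t s : ℝ} (ha : 0 < a) (hc : 0 < c) (ht : 0 < t)
    (hrt : t ≤ r) (hs : 0 ≤ s) :
    2 * √a * y0 a c r t s - (a + s + r) * y0 a c r t s ^ 2
      + c * (s + t + c) * z0 a c r t s ^ 2 =
    (a * (s + t) + c * (s + r)) / den a c r t s := by
  have hd := den_pos ha hc ht hrt hs
  unfold y0 z0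
  have hsq : √a * √a = a := Real.mul_self_sqrt ha.le
  field_simp
  rw [show √a ^ 2 = a by rw [sq, hsq]]
  unfold den
  ring

lemma zz_den_pos {a c r t L μ : ℝ} {ω : ℝ → ℝ} (h : OmegaData a c r t L μ ω) {s x : ℝ}
    (hs : s ∈ Set.Icc 0 L) (hx : 0 < x) : 0 < 1 + (x - c) * ω s := by
  have h1 := h.nonneg s hs
  have h2 := h.le_one s hs
  rcases h1.eq_or_lt with h0 | h0
  · rw [← h0]; simp
  · nlinarith [mul_pos hx h0]

lemma OmegaData.continuousOn {a c r t L μ : ℝ} {ω : ℝ → ℝ} (h : OmegaData a c r t L μ ω) :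
    ContinuousOn ω (Set.Ici 0) := fun s hs => (h.deriv s hs).continuousAt.continuousWithinAt

lemma zz_nonneg {a c r t L μ : ℝ} {ω : ℝ → ℝ} (ha : 0 < a) (hc : 0 < c) (ht : 0 < t)
    (hrt : t ≤ r) (h : OmegaData a c r t L μ ω) {s x : ℝ}
    (hs : s ∈ Set.Icc 0 L) (hx : 0 < x) : 0 ≤ zz a c r t ω s x := by
  unfold zz
  exact div_nonneg (z0_pos ha hc ht hrt hs.1).le (zz_den_pos h hs hx).le

lemma continuousOn_zz {a c r t L μ : ℝ} {ω : ℝ → ℝ} (ha : 0 < a) (hc : 0 < c) (ht : 0 < t)
    (hrt : t ≤ r) (h : OmegaData a c r t L μ ω) {x : ℝ} (hx : 0 < x) :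
    ContinuousOn (fun s => zz a c r t ω s x) (Set.Icc 0 L) := by
  unfold zz
  apply ContinuousOn.div
  · exact (continuousOn_z0 ha hc ht hrt).mono (fun s hs => hs.1)
  · have := h.continuousOn.mono (fun s (hs : s ∈ Set.Icc 0 L) => hs.1)
    fun_prop
  · intro s hs
    exact (zz_den_pos h hs hx).ne'

lemma integral_z0_sq {a c r t L μ : ℝ} {ω : ℝ → ℝ} (ha : 0 < a) (hc : 0 < c) (ht : 0 < t)
    (hrt : t ≤ r) (hL : 0 < L) (h : OmegaData a c r t L μ ω) :
    ∫ s in (0:ℝ)..L, z0 a c r t s ^ 2 = μ / c := by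
  have key : ∫ s in (0:ℝ)..L, -(z0 a c r t s) ^ 2 / μ = ω L - ω 0 := by
    apply intervalIntegral.integral_eq_sub_of_hasDerivAt
    · intro s hs
      rw [Set.uIcc_of_le hL.le] at hs
      exact h.deriv s hs.1
    · apply ContinuousOn.intervalIntegrable
      rw [Set.uIcc_of_le hL.le]
      have := (continuousOn_z0 ha hc ht hrt).mono
        (fun s (hs : s ∈ Set.Icc 0 L) => (hs.1 : s ∈ Set.Ici 0))
      fun_prop
  rw [h.last, h.zero] at key
  have h2 : ∫ s in (0:ℝ)..L, -(z0 a c r t s) ^ 2 / μ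
      = (-1 / μ) * ∫ s in (0:ℝ)..L, z0 a c r t s ^ 2 := by
    rw [← intervalIntegral.integral_const_mul]
    congr 1; ext s; ring
  rw [h2] at key
  have hμ := h.mu_pos
  field_simp at key ⊢
  linarith


/-! ### existence of `ω` -/

lemma hasDerivAt_z0 {a c r t s : ℝ} (ha : 0 < a) (hc : 0 < c) (ht : 0 < t)
    (hrt : t ≤ r) (hs : 0 ≤ s) :
    HasDerivAt (z0 a c r t) (-((s + r) ^ 2 + a * (r - t)) / den a c r t s ^ 2) s := by
  have hd := den_pos ha hc ht hrt hs
  have h1 : HasDerivAt (fun s : ℝ => s + r) 1 s := (hasDerivAt_id s).add_const r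
  have h2 : HasDerivAt (fun s : ℝ => s + t) 1 s := (hasDerivAt_id s).add_const t
  have h3 : HasDerivAt (den a c r t) ((1 * (s + t) + (s + r) * 1) + a * 1 + c * 1) s :=
    ((h1.mul h2).add (h2.const_mul a)).add (h1.const_mul c)
  have h4 : HasDerivAt (z0 a c r t) _ s := h1.div h3 hd.ne'
  refine h4.congr_deriv ?_
  congr 1
  unfold den
  ring

lemma z0_deriv_le {a c r t s : ℝ} (ha : 0 < a) (hc : 0 < c) (ht : 0 < t)
    (hrt : t ≤ r) (hs : 0 ≤ s) :
    -((s + r) ^ 2 + a * (r - t)) / den a c r t s ^ 2 ≤ -(z0 a c r t s) ^ 2 := by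
  have hd := den_pos ha hc ht hrt hs
  unfold z0
  rw [div_pow, neg_div, neg_le_neg_iff]
  apply div_le_div_of_nonneg_right _ (by positivity)
  nlinarith [mul_nonneg ha.le (sub_nonneg.mpr hrt)]

lemma measurable_z0 (a c r t : ℝ) : Measurable (z0 a c r t) := by
  unfold z0 den
  fun_prop

lemma continuousAt_z0 {a c r t s : ℝ} (ha : 0 < a) (hc : 0 < c) (ht : 0 < t)
    (hrt : t ≤ r) (hs : 0 ≤ s) : ContinuousAt (z0 a c r t) s :=
  (hasDerivAt_z0 ha hc ht hrt hs).continuousAt

lemma intInt_z0_sq {a c r t : ℝ} (ha : 0 < a) (hc : 0 < c) (ht : 0 < t)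
    (hrt : t ≤ r) {u v : ℝ} (hu : 0 ≤ u) (huv : u ≤ v) :
    IntervalIntegrable (fun s => z0 a c r t s ^ 2) volume u v := by
  apply ContinuousOn.intervalIntegrable_of_Icc huv
  have := (continuousOn_z0 ha hc ht hrt).mono
        (fun s (hs : s ∈ Set.Icc u v) => (le_trans hu hs.1 : (0:ℝ) ≤ s))
  fun_prop

theorem exists_omega (a c r t L : ℝ) (ha : 0 < a) (hc : 0 < c) (ht : 0 < t) (hrt : t ≤ r)
    (hL : 0 < L) : ∃ (μ : ℝ) (ω : ℝ → ℝ), OmegaData a c r t L μ ω := by
  set I : ℝ → ℝ := fun s => ∫ u in (0:ℝ)..s, z0 a c r t u ^ 2 with hI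
  have hId : ∀ s, 0 ≤ s → HasDerivAt I (z0 a c r t s ^ 2) s := by
    intro s hs
    apply intervalIntegral.integral_hasDerivAt_right (intInt_z0_sq ha hc ht hrt le_rfl hs)
    · exact ((measurable_z0 a c r t).pow_const 2).stronglyMeasurable.stronglyMeasurableAtFilter
    · exact (continuousAt_z0 ha hc ht hrt hs).pow 2
  have hI0 : I 0 = 0 := by simp [hI]
  have hsub : ∀ s, 0 ≤ s → s ≤ L → I L - I s = ∫ u in s..L, z0 a c r t u ^ 2 := by
    intro s hs hsL
    have := intervalIntegral.integral_add_adjacent_intervals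
      (intInt_z0_sq ha hc ht hrt le_rfl hs) (intInt_z0_sq ha hc ht hrt hs hsL)
    simp only [hI]
    linarith
  have hpos : ∀ s, 0 ≤ s → s < L → 0 < I L - I s := by
    intro s hs hsL
    rw [hsub s hs hsL.le]
    apply intervalIntegral.intervalIntegral_pos_of_pos_on (intInt_z0_sq ha hc ht hrt hs hsL.le)
    · intro u hu
      have := z0_pos ha hc ht hrt (le_trans hs hu.1.le)
      positivity
    · exact hsL
  have hIL : 0 < I L := by have := hpos 0 le_rfl hL; rw [hI0] at this; linarith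
  have hInn : ∀ s, 0 ≤ s → 0 ≤ I s := by
    intro s hs
    exact intervalIntegral.integral_nonneg hs (fun u _ => sq_nonneg _)
  -- ν ≤ z0
  have hν : ∀ s ∈ Set.Icc 0 L, I L - I s ≤ z0 a c r t s := by
    have hanti : AntitoneOn (fun s => z0 a c r t s + I s) (Set.Icc 0 L) := by
      apply antitoneOn_of_deriv_nonpos (convex_Icc 0 L)
      · intro s hs
        exact ((continuousAt_z0 ha hc ht hrt hs.1).add
          (hId s hs.1).continuousAt).continuousWithinAt
      · intro s hs
        rw [interior_Icc] at hs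
        exact ((hasDerivAt_z0 ha hc ht hrt hs.1.le).add
          (hId s hs.1.le)).differentiableAt.differentiableWithinAt
      · intro s hs
        rw [interior_Icc] at hs
        have h0 : HasDerivAt (fun s => z0 a c r t s + I s) _ s :=
          (hasDerivAt_z0 ha hc ht hrt hs.1.le).add (hId s hs.1.le)
        rw [h0.deriv]
        have := z0_deriv_le ha hc ht hrt hs.1.le
        linarith
    intro s hs
    have := hanti hs (Set.right_mem_Icc.mpr hL.le) hs.2
    simp only at this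
    have h2 := z0_pos ha hc ht hrt hL.le (s := L)
    linarith
  refine ⟨c * I L, fun s => (I L - I s) / (c * I L), ?_⟩
  have hcI : 0 < c * I L := mul_pos hc hIL
  refine ⟨hcI, ?_, ?_, ?_, ?_, ?_, ?_, ?_⟩
  · simp only [hI0, sub_zero]; field_simp
  · simp
  · intro s hs
    have h0 : HasDerivAt (fun s => (I L - I s) / (c * I L)) _ s :=
      ((hasDerivAt_const s (I L)).sub (hId s hs)).div_const (c * I L)
    refine h0.congr_deriv ?_
    ring
  · intro s hs
    apply div_nonneg _ hcI.le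
    rcases hs.2.eq_or_lt with h | h
    · rw [h]; simp
    · exact (hpos s hs.1 h).le
  · intro s hs
    rw [mul_div_assoc', div_le_one hcI]
    have := hInn s hs.1
    nlinarith
  · intro s hs
    rcases hs.2.eq_or_lt with h | h
    · rw [h]; simp
    · have hmono : MonotoneOn (fun u => 1 / (I L - I u) - u) (Set.Icc 0 s) := by
        have hder : ∀ u ∈ Set.Icc 0 s, HasDerivAt (fun u => 1 / (I L - I u) - u)
            ((z0 a c r t u ^ 2) / (I L - I u) ^ 2 - 1) u := by
          intro u hu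
          have hu2 := hpos u hu.1 (lt_of_le_of_lt hu.2 h)
          have h1 : HasDerivAt (fun u => I L - I u) _ u :=
            (hasDerivAt_const u (I L)).sub (hId u hu.1)
          have h2 : HasDerivAt (fun u => (I L - I u)⁻¹ - u) _ u :=
            (h1.inv hu2.ne').sub (hasDerivAt_id u)
          simp only [one_div]
          refine h2.congr_deriv ?_
          ring
        apply monotoneOn_of_deriv_nonneg (convex_Icc 0 s)
        · intro u hu; exact (hder u hu).continuousAt.continuousWithinAt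
        · intro u hu
          exact (hder u (interior_subset hu)).differentiableAt.differentiableWithinAt
        · intro u hu
          have hu' := interior_subset hu
          rw [(hder u hu').deriv]
          have hu2 := hpos u hu'.1 (lt_of_le_of_lt hu'.2 h)
          have h3 := hν u ⟨hu'.1, le_trans hu'.2 hs.2⟩
          rw [sub_nonneg, one_le_div (by positivity)]
          exact pow_le_pow_left₀ hu2.le h3 2
      have h4 := hmono (Set.left_mem_Icc.mpr hs.1) (Set.right_mem_Icc.mpr hs.1) hs.1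
      simp only [hI0, sub_zero] at h4
      have h5 := hpos s hs.1 h
      have h6 : (I L - I s) * (s + 1 / I L) ≤ 1 := by
        have : s + 1 / I L ≤ 1 / (I L - I s) := by linarith
        calc (I L - I s) * (s + 1 / I L) ≤ (I L - I s) * (1 / (I L - I s)) :=
              mul_le_mul_of_nonneg_left this h5.le
          _ = 1 := by field_simp
      have h7 : c * I L * s * ((I L - I s) / (c * I L)) = (I L - I s) * s := by field_simp
      have h8 : c * ((I L - I s) / (c * I L)) = (I L - I s) * (1 / I L) := by field_simp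
      rw [h7, h8]
      linarith
  · have h1 := hν 0 (Set.left_mem_Icc.mpr hL.le)
    rw [hI0, sub_zero] at h1
    have h2 : z0 a c r t 0 ≤ 1 / (t + c) := by
      unfold z0 den
      have hr : 0 < r := lt_of_lt_of_le ht hrt
      rw [div_le_div_iff₀ (by positivity) (by positivity)]
      nlinarith [mul_pos ha ht]
    have h3 : I L * (t + c) ≤ 1 := by
      have := le_trans h1 h2
      rwa [le_div_iff₀ (by positivity)] at this
    nlinarith


/-- change of variables `w = ω s` -/
lemma integral_comp_omega {a c r t L μ : ℝ} {ω : ℝ → ℝ} (ha : 0 < a) (hc : 0 < c) (ht : 0 < t)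
    (hrt : t ≤ r) (hL : 0 < L) (h : OmegaData a c r t L μ ω) (H H' : ℝ → ℝ)
    (hH : ∀ s ∈ Set.Icc 0 L, HasDerivAt H (H' (ω s)) (ω s))
    (hc' : ContinuousOn (fun s => H' (ω s)) (Set.Icc 0 L)) :
    ∫ s in (0:ℝ)..L, z0 a c r t s ^ 2 * H' (ω s) = μ * (H (1 / c) - H 0) := by
  have hμ := h.mu_pos
  have key : ∫ s in (0:ℝ)..L, H' (ω s) * (-(z0 a c r t s) ^ 2 / μ) = H (ω L) - H (ω 0) := by
    apply intervalIntegral.integral_eq_sub_of_hasDerivAt (f := fun s => H (ω s))
    · intro s hs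
      rw [Set.uIcc_of_le hL.le] at hs
      exact (hH s hs).comp s (h.deriv s hs.1)
    · apply ContinuousOn.intervalIntegrable_of_Icc hL.le
      have := (continuousOn_z0 ha hc ht hrt).mono
        (fun s (hs : s ∈ Set.Icc 0 L) => (hs.1 : s ∈ Set.Ici 0))
      apply hc'.mul
      fun_prop
  rw [h.last, h.zero] at key
  have h2 : ∫ s in (0:ℝ)..L, H' (ω s) * (-(z0 a c r t s) ^ 2 / μ)
      = (-1 / μ) * ∫ s in (0:ℝ)..L, z0 a c r t s ^ 2 * H' (ω s) := by
    rw [← intervalIntegral.integral_const_mul]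
    congr 1; ext s; ring
  rw [h2] at key
  have h3 : μ * ((-1 / μ) * ∫ s in (0:ℝ)..L, z0 a c r t s ^ 2 * H' (ω s))
      = - ∫ s in (0:ℝ)..L, z0 a c r t s ^ 2 * H' (ω s) := by
    field_simp
  rw [key] at h3
  linarith

lemma hasDerivAt_q (d w : ℝ) : HasDerivAt (fun w : ℝ => 1 + d * w) d w := by
  have h1 : HasDerivAt (fun w : ℝ => 1 + d * w) _ w :=
    ((hasDerivAt_id w).const_mul d).const_add 1
  exact h1.congr_deriv (by ring)

theorem integral_zz_ne {a c r t L μ : ℝ} {ω : ℝ → ℝ} (ha : 0 < a) (hc : 0 < c) (ht : 0 < t)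
    (hrt : t ≤ r) (hL : 0 < L) (h : OmegaData a c r t L μ ω) {κ x x' : ℝ} (hκ : 0 < κ)
    (hx : 0 < x) (hx' : 0 < x') (hne : x ≠ x') :
    ∫ s in (0:ℝ)..L, zz a c r t ω s (x / κ) * zz a c r t ω s (x' / κ) =
      κ * μ * ((Real.log x - Real.log x') / (x - x')) := by
  set X := x / κ with hX
  set X' := x' / κ with hX'
  have hXp : 0 < X := div_pos hx hκ
  have hXp' : 0 < X' := div_pos hx' hκ
  have hXX : X - X' = (x - x') / κ := by rw [hX, hX']; ring
  have hne' : X - X' ≠ 0 := by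
    rw [hXX]; exact div_ne_zero (sub_ne_zero.mpr hne) hκ.ne'
  have hωc : ContinuousOn ω (Set.Icc 0 L) := h.continuousOn.mono (fun s hs => hs.1)
  have key := integral_comp_omega ha hc ht hrt hL h
    (fun w => (Real.log (1 + (X - c) * w) - Real.log (1 + (X' - c) * w)) / (X - X'))
    (fun w => 1 / ((1 + (X - c) * w) * (1 + (X' - c) * w))) (by
      intro s hs
      have q1 := zz_den_pos h hs hXp
      have q2 := zz_den_pos h hs hXp'
      have h1 : HasDerivAt (fun w : ℝ => (Real.log (1 + (X - c) * w)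
        - Real.log (1 + (X' - c) * w)) / (X - X')) _ (ω s) :=
        (((hasDerivAt_q (X - c) (ω s)).log q1.ne').sub
          ((hasDerivAt_q (X' - c) (ω s)).log q2.ne')).div_const (X - X')
      refine h1.congr_deriv ?_
      rw [div_sub_div _ _ q1.ne' q2.ne', div_div,
        div_eq_div_iff (mul_ne_zero (mul_ne_zero q1.ne' q2.ne') hne') (mul_ne_zero q1.ne' q2.ne')]
      ring) (by
      apply ContinuousOn.div continuousOn_const (by fun_prop)
      intro s hs
      exact (mul_pos (zz_den_pos h hs hXp) (zz_den_pos h hs hXp')).ne')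
  have h2 : ∫ s in (0:ℝ)..L, zz a c r t ω s X * zz a c r t ω s X' =
      ∫ s in (0:ℝ)..L, z0 a c r t s ^ 2 * (1 / ((1 + (X - c) * ω s) * (1 + (X' - c) * ω s))) := by
    congr 1; ext s
    unfold zz
    rw [div_mul_div_comm, mul_one_div, sq]
  rw [h2, key]
  have h3 : 1 + (X - c) * (1 / c) = X / c := by field_simp; ring
  have h4 : 1 + (X' - c) * (1 / c) = X' / c := by field_simp; ring
  simp only [h3, h4, mul_zero, add_zero, Real.log_one, sub_zero, zero_div]
  rw [Real.log_div hXp.ne' hc.ne', Real.log_div hXp'.ne' hc.ne', hXX, hX, hX',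
    Real.log_div hx.ne' hκ.ne', Real.log_div hx'.ne' hκ.ne']
  have h5 : x - x' ≠ 0 := sub_ne_zero.mpr hne
  field_simp
  ring

theorem integral_zz_self {a c r t L μ : ℝ} {ω : ℝ → ℝ} (ha : 0 < a) (hc : 0 < c) (ht : 0 < t)
    (hrt : t ≤ r) (hL : 0 < L) (h : OmegaData a c r t L μ ω) {κ x : ℝ} (hκ : 0 < κ)
    (hx : 0 < x) :
    ∫ s in (0:ℝ)..L, zz a c r t ω s (x / κ) ^ 2 = κ * μ / x := by
  set X := x / κ with hX
  have hXp : 0 < X := div_pos hx hκ
  have hωc : ContinuousOn ω (Set.Icc 0 L) := h.continuousOn.mono (fun s hs => hs.1)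
  have key := integral_comp_omega ha hc ht hrt hL h
    (fun w => w / (1 + (X - c) * w))
    (fun w => 1 / (1 + (X - c) * w) ^ 2) (by
      intro s hs
      have q1 := zz_den_pos h hs hXp
      have h1 : HasDerivAt (fun w : ℝ => w / (1 + (X - c) * w)) _ (ω s) :=
        (hasDerivAt_id (ω s)).div (hasDerivAt_q (X - c) (ω s)) q1.ne'
      refine h1.congr_deriv ?_
      congr 1
      simp only [id]; ring) (by
      apply ContinuousOn.div continuousOn_const (by fun_prop)
      intro s hs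
      exact (pow_pos (zz_den_pos h hs hXp) 2).ne')
  have h2 : ∫ s in (0:ℝ)..L, zz a c r t ω s X ^ 2 =
      ∫ s in (0:ℝ)..L, z0 a c r t s ^ 2 * (1 / (1 + (X - c) * ω s) ^ 2) := by
    congr 1; ext s
    unfold zz
    rw [div_pow, mul_one_div]
  rw [h2, key]
  have h3 : 1 + (X - c) * (1 / c) = X / c := by field_simp; ring
  simp only [h3, zero_div, sub_zero]
  rw [hX]
  field_simp

/-- the antiderivative used in `scalar_key`. -/
noncomputable def AA (c x m T δ : ℝ) (w : ℝ) : ℝ :=
  -Real.log (1 + (x - c) * w) + ((2 * c + (x - c)) * w + c * (x - c) * w ^ 2 - m * x * w)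
    / (1 + (x - c) * w) - 2 * m * T * w - c * m * w - 2 * δ * (w - (c * (x - c) / (2 * x)) * w ^ 2)

/-- its derivative. -/
noncomputable def AA' (c x m T δ : ℝ) (w : ℝ) : ℝ :=
  -((x - c) / (1 + (x - c) * w)) + (2 * c + (x - c) + 2 * c * (x - c) * w
    + c * (x - c) ^ 2 * w ^ 2 - m * x) / (1 + (x - c) * w) ^ 2
    - 2 * m * T - c * m - 2 * δ * (1 - (c * (x - c) / x) * w)

lemma hasDerivAt_AA (c x m T δ : ℝ) (w : ℝ) (hq : 0 < 1 + (x - c) * w) (hx : 0 < x) :
    HasDerivAt (AA c x m T δ) (AA' c x m T δ w) w := by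
  have hid := hasDerivAt_id w
  have hsq : HasDerivAt (fun w : ℝ => w ^ 2) (2 * w) w := by
    simpa using hasDerivAt_pow 2 w
  have h1 := ((hasDerivAt_q (x - c) w).log hq.ne').neg
  have h2 := (((hid.const_mul (2 * c + (x - c))).add (hsq.const_mul (c * (x - c)))).sub
    (hid.const_mul (m * x))).div (hasDerivAt_q (x - c) w) hq.ne'
  have h3 := hid.const_mul (2 * m * T)
  have h4 := hid.const_mul (c * m)
  have h5 := (hid.sub (hsq.const_mul (c * (x - c) / (2 * x)))).const_mul (2 * δ)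
  have h6 : HasDerivAt (AA c x m T δ) _ w := (((h1.add h2).sub h3).sub h4).sub h5
  refine h6.congr_deriv ?_
  unfold AA'
  simp only [id, Pi.add_apply, Pi.sub_apply]
  have hq' := hq.ne'
  field_simp
  ring

lemma AA_zero (c x m T δ : ℝ) : AA c x m T δ 0 = 0 := by
  unfold AA; simp

lemma AA_one_div (c x m T δ : ℝ) (hc : 0 < c) (hx : 0 < x) (hδ : δ = c - m * (T + c)) :
    AA c x m T δ (1 / c) = Real.log c - Real.log x + δ / c - δ / x := by
  unfold AA
  have h3 : 1 + (x - c) * (1 / c) = x / c := by field_simp; ring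
  rw [h3, Real.log_div hx.ne' hc.ne', hδ]
  field_simp
  ring

lemma scalar_pointwise {a c r t L μ : ℝ} {ω : ℝ → ℝ} (ha : 0 < a) (hc : 0 < c) (ht : 0 < t)
    (hrt : t ≤ r) (h : OmegaData a c r t L μ ω) {x : ℝ} (hx : 0 < x)
    {s : ℝ} (hs : s ∈ Set.Icc 0 L) :
    (s + 2 * t + c) * z0 a c r t s ^ 2
      + z0 a c r t s ^ 2 * AA' c x μ t (c - μ * (t + c)) (ω s) / μ ≤
    2 * (s + t + c) * z0 a c r t s * zz a c r t ω s x
      - (s + x) * zz a c r t ω s x ^ 2 := by
  have hq := zz_den_pos h hs hx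
  have hμ := h.mu_pos
  have h1 := h.key s hs
  have h2 := h.le_one s hs
  have h3 := h.nonneg s hs
  have h4 := h.delta_nonneg
  rw [← sub_nonneg]
  unfold zz
  set w := ω s with hw
  set z := z0 a c r t s with hz
  have key : 2 * (s + t + c) * z * (z / (1 + (x - c) * w))
      - (s + x) * (z / (1 + (x - c) * w)) ^ 2
      - ((s + 2 * t + c) * z ^ 2 + z ^ 2 * AA' c x μ t (c - μ * (t + c)) w / μ)
      = (z ^ 2 / (μ * (1 + (x - c) * w) ^ 2)) * ((x - c) ^ 2 * w * (1 - c * w - μ * s * w)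
        + 2 * (c - μ * (t + c)) * (1 + (x - c) * w) * ((x - c) ^ 2 * w * (1 - c * w) / x)) := by
    unfold AA'
    have hq' := hq.ne'
    field_simp
    ring
  rw [key]
  apply mul_nonneg (by positivity)
  apply add_nonneg
  · apply mul_nonneg (by positivity)
    linarith
  · apply mul_nonneg
    · apply mul_nonneg _ hq.le
      linarith
    · apply div_nonneg _ hx.le
      apply mul_nonneg (by positivity)
      linarith

theorem scalar_key {a c r t L μ : ℝ} {ω : ℝ → ℝ} (ha : 0 < a) (hc : 0 < c) (ht : 0 < t)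
    (hrt : t ≤ r) (hL : 0 < L) (h : OmegaData a c r t L μ ω) {x : ℝ} (hx : 0 < x) :
    (∫ s in (0:ℝ)..L, (s + 2 * t + c) * z0 a c r t s ^ 2) + Real.log c + (c - μ * (t + c)) / c ≤
    (∫ s in (0:ℝ)..L, (2 * (s + t + c) * z0 a c r t s * zz a c r t ω s x
      - (s + x) * zz a c r t ω s x ^ 2)) + Real.log x + (c - μ * (t + c)) / x := by
  have hμ := h.mu_pos
  have hωc : ContinuousOn ω (Set.Icc 0 L) := h.continuousOn.mono (fun s hs => hs.1)
  have hz0c : ContinuousOn (z0 a c r t) (Set.Icc 0 L) :=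
    (continuousOn_z0 ha hc ht hrt).mono (fun s hs => hs.1)
  have hzc := continuousOn_zz ha hc ht hrt h hx
  have hAc : ContinuousOn (fun s => AA' c x μ t (c - μ * (t + c)) (ω s)) (Set.Icc 0 L) := by
    unfold AA'
    have hne : ∀ s ∈ Set.Icc 0 L, 1 + (x - c) * ω s ≠ 0 := fun s hs => (zz_den_pos h hs hx).ne'
    have hne2 : ∀ s ∈ Set.Icc 0 L, (1 + (x - c) * ω s) ^ 2 ≠ 0 :=
      fun s hs => pow_ne_zero 2 (hne s hs)
    have c1 : ContinuousOn (fun s => (x - c) / (1 + (x - c) * ω s)) (Set.Icc 0 L) :=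
      ContinuousOn.div continuousOn_const (by fun_prop) hne
    have c2 : ContinuousOn (fun s => (2 * c + (x - c) + 2 * c * (x - c) * ω s
      + c * (x - c) ^ 2 * ω s ^ 2 - μ * x) / (1 + (x - c) * ω s) ^ 2) (Set.Icc 0 L) :=
      ContinuousOn.div (by fun_prop) (by fun_prop) hne2
    fun_prop
  have key := integral_comp_omega ha hc ht hrt hL h (AA c x μ t (c - μ * (t + c)))
    (AA' c x μ t (c - μ * (t + c)))
    (fun s hs => hasDerivAt_AA c x μ t _ (ω s) (zz_den_pos h hs hx) hx) hAc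
  rw [AA_zero, AA_one_div c x μ t _ hc hx rfl, sub_zero] at key
  have i1 : IntervalIntegrable (fun s => (s + 2 * t + c) * z0 a c r t s ^ 2) volume 0 L := by
    apply ContinuousOn.intervalIntegrable_of_Icc hL.le; fun_prop
  have i2 : IntervalIntegrable (fun s => z0 a c r t s ^ 2 *
      AA' c x μ t (c - μ * (t + c)) (ω s) / μ) volume 0 L := by
    apply ContinuousOn.intervalIntegrable_of_Icc hL.le; fun_prop
  have i3 : IntervalIntegrable (fun s => 2 * (s + t + c) * z0 a c r t s * zz a c r t ω s x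
      - (s + x) * zz a c r t ω s x ^ 2) volume 0 L := by
    apply ContinuousOn.intervalIntegrable_of_Icc hL.le; fun_prop
  have hmono := intervalIntegral.integral_mono_on hL.le (i1.add i2) i3
    (fun s hs => scalar_pointwise ha hc ht hrt h hx hs)
  rw [intervalIntegral.integral_add i1 i2, intervalIntegral.integral_div, key] at hmono
  have e : μ * (Real.log c - Real.log x + (c - μ * (t + c)) / c - (c - μ * (t + c)) / x) / μ
      = Real.log c - Real.log x + (c - μ * (t + c)) / c - (c - μ * (t + c)) / x := by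
    field_simp
  rw [e] at hmono
  linarith

end Crest.Agent.H29
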