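import Mathlib
import Crest.Agent.H29.Scal

set_option autoImplicit false
set_option linter.unusedSectionVars false

open Crest.Quantum Crest.MathPhysics.AmpDamp Matrix Filter Topology MeasureTheory
open scoped ComplexOrder

namespace Crest.Agent.H29

section mat
variable {K H₀ J : Type*} [Fintype K] [DecidableEq K] [Fintype H₀] [DecidableEq H₀]
    [Fintype J] [DecidableEq J]

/-- norm of `V₁ᴴ w` when `V₁ V₁ᴴ` is diagonal -/
lemma sum_norm_sq_star_dot {V₁ : Matrix J K ℂ} {x : J → ℝ}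
    (hV₁ : V₁ * V₁ᴴ = Matrix.diagonal (fun j => (x j : ℂ))) (w : J → ℂ) :
    ∑ l, ‖star w ⬝ᵥ (V₁ *ᵥ Pi.single l 1)‖ ^ 2 = ∑ j, ‖w j‖ ^ 2 * x j := by
  have h1 : ∀ l, star w ⬝ᵥ (V₁ *ᵥ Pi.single l 1) = (star w ᵥ* V₁) l := by
    intro l
    rw [Matrix.mulVec_single_one]
    rfl
  have h2 : ((∑ l, ‖star w ⬝ᵥ (V₁ *ᵥ Pi.single l 1)‖ ^ 2 : ℝ) : ℂ)
      = (star w ᵥ* V₁) ⬝ᵥ star (star w ᵥ* V₁) := by
    rw [dotProduct]
    push_cast
    apply Finset.sum_congr rfl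
    intro l _
    rw [h1, Pi.star_apply, Complex.star_def, Complex.mul_conj, Complex.normSq_eq_norm_sq]
    push_cast; rfl
  have h3 : (star w ᵥ* V₁) ⬝ᵥ star (star w ᵥ* V₁) = star w ⬝ᵥ ((V₁ * V₁ᴴ) *ᵥ w) := by
    rw [Matrix.star_vecMul, star_star, ← Matrix.mulVec_mulVec, Matrix.dotProduct_mulVec,
      Matrix.dotProduct_mulVec, Matrix.dotProduct_mulVec]
  have h4 : star w ⬝ᵥ ((V₁ * V₁ᴴ) *ᵥ w) = ((∑ j, ‖w j‖ ^ 2 * x j : ℝ) : ℂ) := by
    rw [hV₁]
    simp only [dotProduct, Matrix.mulVec_diagonal, Pi.star_apply, Complex.star_def]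
    push_cast
    apply Finset.sum_congr rfl
    intro j _
    rw [mul_left_comm, ← Complex.normSq_eq_conj_mul_self, Complex.normSq_eq_norm_sq]
    push_cast; ring
  rw [h3, h4] at h2
  exact_mod_cast h2

/-- Bessel: `∑ ⟨V₀ k, R V₀ k⟩/α k ≤ Tr R`. -/
lemma bessel_R {V₀ : Matrix H₀ K ℂ} {α : K → ℝ}
    (hV₀ : V₀ᴴ * V₀ = Matrix.diagonal (fun k => (α k : ℂ))) (hα : ∀ k, 0 ≤ α k)
    {R : Matrix H₀ H₀ ℂ} (hR : R.PosSemidef) :
    ∑ k, ((V₀ᴴ * R * V₀) k k).re / α k ≤ R.trace.re := by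
  set D : Matrix K K ℂ := Matrix.diagonal (fun k => ((√(α k))⁻¹ : ℂ)) with hD
  set E : Matrix H₀ K ℂ := V₀ * D with hE
  have hDD : Dᴴ = D := by
    rw [hD, Matrix.diagonal_conjTranspose]
    congr 1; ext k; simp
  have hEE : Eᴴ * E = Matrix.diagonal (fun k => (if α k = 0 then 0 else 1 : ℂ)) := by
    rw [hE, Matrix.conjTranspose_mul, hDD, Matrix.mul_assoc, ← Matrix.mul_assoc V₀ᴴ, hV₀, hD,
      Matrix.diagonal_mul_diagonal, Matrix.diagonal_mul_diagonal]
    congr 1; ext k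
    by_cases h : α k = 0
    · simp [h]
    · have : 0 < α k := lt_of_le_of_ne (hα k) (Ne.symm h)
      have h2 : √(α k) ≠ 0 := (Real.sqrt_pos.mpr this).ne'
      simp only [h, if_false]
      have h3 : ((α k : ℝ) : ℂ) = (√(α k) : ℂ) * (√(α k) : ℂ) := by
        rw [← Complex.ofReal_mul, Real.mul_self_sqrt (hα k)]
      have h4 : (√(α k) : ℂ) ≠ 0 := by exact_mod_cast h2
      rw [h3]; field_simp
  have hEz : E * Matrix.diagonal (fun k => (if α k = 0 then 0 else 1 : ℂ)) = E := by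
    ext i k
    rw [Matrix.mul_diagonal]
    by_cases h : α k = 0
    · simp [h, hE, hD, Matrix.mul_diagonal]
    · simp [h]
  set X : Matrix H₀ H₀ ℂ := 1 - E * Eᴴ with hX
  have hXh : Xᴴ = X := by
    rw [hX, Matrix.conjTranspose_sub, Matrix.conjTranspose_one, Matrix.conjTranspose_mul,
      Matrix.conjTranspose_conjTranspose]
  have hXX : X * X = X := by
    have : E * Eᴴ * (E * Eᴴ) = E * Eᴴ := by
      rw [Matrix.mul_assoc, ← Matrix.mul_assoc Eᴴ E, hEE, ← Matrix.mul_assoc, hEz]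
    rw [hX, Matrix.sub_mul, Matrix.mul_sub, Matrix.mul_sub, this]
    simp
  have hpos : 0 ≤ (X * R * Xᴴ).trace := (hR.mul_mul_conjTranspose_same X).trace_nonneg
  have htr : (X * R * Xᴴ).trace = R.trace - (E * Eᴴ * R).trace := by
    rw [Matrix.trace_mul_comm, hXh, ← Matrix.mul_assoc, hXX, hX, Matrix.sub_mul, Matrix.one_mul,
      Matrix.trace_sub]
  have htr2 : (E * Eᴴ * R).trace = ∑ k, ((V₀ᴴ * R * V₀) k k) / α k := by
    rw [Matrix.mul_assoc, Matrix.trace_mul_comm, hE, Matrix.conjTranspose_mul, hDD]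
    have : D * V₀ᴴ * R * (V₀ * D) = D * (V₀ᴴ * R * V₀) * D := by
      simp only [Matrix.mul_assoc]
    rw [this, Matrix.trace]
    apply Finset.sum_congr rfl
    intro k _
    rw [Matrix.diag_apply, hD, Matrix.mul_diagonal, Matrix.diagonal_mul]
    by_cases h : α k = 0
    · simp [h]
    · have : 0 < α k := lt_of_le_of_ne (hα k) (Ne.symm h)
      have h2 : √(α k) ≠ 0 := (Real.sqrt_pos.mpr this).ne'
      have h3 : ((α k : ℝ) : ℂ) = (√(α k) : ℂ) * (√(α k) : ℂ) := by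
        rw [← Complex.ofReal_mul, Real.mul_self_sqrt (hα k)]
      have h4 : (√(α k) : ℂ) ≠ 0 := by exact_mod_cast h2
      rw [h3]; field_simp
  rw [htr, htr2] at hpos
  have := (Complex.le_def.mp hpos).1
  simp only [Complex.zero_re, Complex.sub_re, Complex.re_sum] at this
  have h5 : ∑ k, ((V₀ᴴ * R * V₀) k k).re / α k = ∑ k, (((V₀ᴴ * R * V₀) k k) / α k).re := by
    apply Finset.sum_congr rfl
    intro k _
    rw [Complex.div_ofReal_re]
  rw [h5]; linarith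

/-- Bessel: `∑ j, |V₁ j k|²/x j ≤ 1`. -/
lemma bessel_W {V₁ : Matrix J K ℂ} {x : J → ℝ}
    (hV₁ : V₁ * V₁ᴴ = Matrix.diagonal (fun j => (x j : ℂ))) (hx : ∀ j, 0 < x j) (k : K) :
    ∑ j, ‖V₁ j k‖ ^ 2 / x j ≤ 1 := by
  set D : Matrix J J ℂ := Matrix.diagonal (fun j => ((√(x j))⁻¹ : ℂ)) with hD
  set F : Matrix J K ℂ := D * V₁ with hF
  have hDD : Dᴴ = D := by
    rw [hD, Matrix.diagonal_conjTranspose]
    congr 1; ext k; simp
  have hFF : F * Fᴴ = 1 := by
    rw [hF, Matrix.conjTranspose_mul, hDD, Matrix.mul_assoc, ← Matrix.mul_assoc V₁, hV₁, hD,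
      Matrix.diagonal_mul_diagonal, Matrix.diagonal_mul_diagonal, ← Matrix.diagonal_one]
    congr 1; ext j
    have h2 : √(x j) ≠ 0 := (Real.sqrt_pos.mpr (hx j)).ne'
    have h3 : ((x j : ℝ) : ℂ) = (√(x j) : ℂ) * (√(x j) : ℂ) := by
      rw [← Complex.ofReal_mul, Real.mul_self_sqrt (hx j).le]
    have h4 : (√(x j) : ℂ) ≠ 0 := by exact_mod_cast h2
    rw [h3]; field_simp
  set Y : Matrix K K ℂ := 1 - Fᴴ * F with hY
  have hYh : Yᴴ = Y := by
    rw [hY, Matrix.conjTranspose_sub, Matrix.conjTranspose_one, Matrix.conjTranspose_mul,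
      Matrix.conjTranspose_conjTranspose]
  have hYY : Yᴴ * Y = Y := by
    have : Fᴴ * F * (Fᴴ * F) = Fᴴ * F := by
      rw [Matrix.mul_assoc, ← Matrix.mul_assoc F Fᴴ, hFF, Matrix.one_mul]
    rw [hYh, hY, Matrix.sub_mul, Matrix.mul_sub, Matrix.mul_sub, this]
    simp
  have hps : (Yᴴ * Y).PosSemidef := Matrix.posSemidef_conjTranspose_mul_self Y
  rw [hYY] at hps
  have h1 : 0 ≤ Y k k := hps.diag_nonneg
  have h2 : (Fᴴ * F) k k = ((∑ j, ‖V₁ j k‖ ^ 2 / x j : ℝ) : ℂ) := by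
    rw [Matrix.mul_apply]
    push_cast
    apply Finset.sum_congr rfl
    intro j _
    rw [Matrix.conjTranspose_apply, hF, hD, Matrix.diagonal_mul]
    have h2 : √(x j) ≠ 0 := (Real.sqrt_pos.mpr (hx j)).ne'
    have h3 : ((x j : ℝ) : ℂ) = (√(x j) : ℂ) * (√(x j) : ℂ) := by
      rw [← Complex.ofReal_mul, Real.mul_self_sqrt (hx j).le]
    have h4 : (√(x j) : ℂ) ≠ 0 := by exact_mod_cast h2
    have h5 : star (V₁ j k) * V₁ j k = ((‖V₁ j k‖ ^ 2 : ℝ) : ℂ) := by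
      rw [Complex.star_def, ← Complex.normSq_eq_conj_mul_self, Complex.normSq_eq_norm_sq]
    rw [h3, star_mul']
    have h6 : star ((√(x j) : ℂ)⁻¹) = ((√(x j) : ℂ)⁻¹) := by simp
    rw [h6]
    have h7 : ((√(x j) : ℂ)⁻¹ * star (V₁ j k)) * ((√(x j) : ℂ)⁻¹ * V₁ j k)
      = (star (V₁ j k) * V₁ j k) * ((√(x j) : ℂ)⁻¹ * (√(x j) : ℂ)⁻¹) := by ring
    rw [h7, h5]
    push_cast
    field_simp
  rw [hY, Matrix.sub_apply, h2, Matrix.one_apply_eq] at h1
  have := (Complex.le_def.mp h1).1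
  simp only [Complex.zero_re, Complex.sub_re, Complex.one_re, Complex.ofReal_re] at this
  linarith

lemma test_A {V₀ : Matrix H₀ K ℂ} {α : K → ℝ}
    (hV₀ : V₀ᴴ * V₀ = Matrix.diagonal (fun k => (α k : ℂ))) (β : ℝ) (k l : K) :
    star (fun i => (β : ℂ) * V₀ i k) ⬝ᵥ (V₀ *ᵥ Pi.single l 1) =
      if l = k then ((β * α k : ℝ) : ℂ) else 0 := by
  have h := congrFun (congrFun hV₀ k) l
  rw [Matrix.mul_apply, Matrix.diagonal_apply] at h
  rw [Matrix.mulVec_single_one, dotProduct]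
  have h2 : ∑ i, star (fun i => (β : ℂ) * V₀ i k) i * V₀.col l i
      = (β : ℂ) * ∑ i, V₀ᴴ k i * V₀ i l := by
    rw [Finset.mul_sum]
    apply Finset.sum_congr rfl
    intro i _
    simp only [Pi.star_apply, Matrix.conjTranspose_apply, Matrix.col_apply, star_mul',
      Complex.star_def, Complex.conj_ofReal]
    ring
  rw [h2, h]
  by_cases hkl : l = k
  · subst hkl; simp
  · rw [if_neg hkl, if_neg (Ne.symm hkl), mul_zero]

lemma test_B (V₁ : Matrix J K ℂ) (z : J → ℝ) (k : K) :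
    star (fun j => (z j : ℂ) * V₁ j k) ⬝ᵥ (V₁ *ᵥ Pi.single k 1) =
      ((∑ j, z j * ‖V₁ j k‖ ^ 2 : ℝ) : ℂ) := by
  rw [Matrix.mulVec_single_one, dotProduct]
  push_cast
  apply Finset.sum_congr rfl
  intro j _
  simp only [Pi.star_apply, Matrix.col_apply, star_mul',
      Complex.star_def, Complex.conj_ofReal]
  rw [mul_assoc, ← Complex.normSq_eq_conj_mul_self, Complex.normSq_eq_norm_sq]
  push_cast; ring

lemma test_sum {V₀ : Matrix H₀ K ℂ} {V₁ : Matrix J K ℂ} {α : K → ℝ} {x : J → ℝ}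
    (hV₀ : V₀ᴴ * V₀ = Matrix.diagonal (fun k => (α k : ℂ)))
    (hV₁ : V₁ * V₁ᴴ = Matrix.diagonal (fun j => (x j : ℂ))) (β : ℝ) (z : J → ℝ) (k : K) :
    ∑ l, ‖star (fun i => (β : ℂ) * V₀ i k) ⬝ᵥ (V₀ *ᵥ Pi.single l 1)
      + star (fun j => (z j : ℂ) * V₁ j k) ⬝ᵥ (V₁ *ᵥ Pi.single l 1)‖ ^ 2
    = ∑ j, z j ^ 2 * ‖V₁ j k‖ ^ 2 * x j + (β * α k) ^ 2
      + 2 * (β * α k) * ∑ j, z j * ‖V₁ j k‖ ^ 2 := by
  have h1 := sum_norm_sq_star_dot hV₁ (fun j => (z j : ℂ) * V₁ j k)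
  have h2 : ∀ l, ‖star (fun i => (β : ℂ) * V₀ i k) ⬝ᵥ (V₀ *ᵥ Pi.single l 1)
      + star (fun j => (z j : ℂ) * V₁ j k) ⬝ᵥ (V₁ *ᵥ Pi.single l 1)‖ ^ 2
      = ‖star (fun j => (z j : ℂ) * V₁ j k) ⬝ᵥ (V₁ *ᵥ Pi.single l 1)‖ ^ 2
        + if l = k then (β * α k) ^ 2 + 2 * (β * α k) * ∑ j, z j * ‖V₁ j k‖ ^ 2 else 0 := by
    intro l
    rw [test_A hV₀]
    by_cases h : l = k
    · subst h
      rw [if_pos rfl, if_pos rfl, test_B, ← Complex.ofReal_add, Complex.norm_real,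
        Complex.norm_real, Real.norm_eq_abs, Real.norm_eq_abs, sq_abs, sq_abs]
      ring
    · rw [if_neg h, if_neg h, zero_add, add_zero]
  rw [Finset.sum_congr rfl (fun l _ => h2 l), Finset.sum_add_distrib, h1,
    Finset.sum_ite_eq' Finset.univ k, if_pos (Finset.mem_univ k), add_assoc]
  congr 1
  apply Finset.sum_congr rfl
  intro j _
  rw [norm_mul, Complex.norm_real, mul_pow, Real.norm_eq_abs, sq_abs]

lemma test_R (V₀ : Matrix H₀ K ℂ) (R : Matrix H₀ H₀ ℂ) (β : ℝ) (k : K) :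
    (star (fun i => (β : ℂ) * V₀ i k) ⬝ᵥ (R *ᵥ (fun i => (β : ℂ) * V₀ i k))).re =
      β ^ 2 * ((V₀ᴴ * R * V₀) k k).re := by
  have h1 : (fun i => (β : ℂ) * V₀ i k) = (β : ℂ) • V₀.col k := rfl
  have h2 : (V₀ᴴ * R * V₀) k k = star (V₀.col k) ⬝ᵥ (R *ᵥ V₀.col k) := by
    rw [Matrix.mul_assoc, Matrix.mul_apply, dotProduct]
    rfl
  rw [h1, h2, Matrix.mulVec_smul, star_smul, smul_dotProduct, dotProduct_smul, smul_smul,
    smul_eq_mul, Complex.star_def, Complex.conj_ofReal, ← Complex.ofReal_mul,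
    Complex.re_ofReal_mul]
  ring

lemma test_T (V₁ : Matrix J K ℂ) (T : Matrix J J ℂ) (z : J → ℝ) (k : K) :
    (star (fun j => (z j : ℂ) * V₁ j k) ⬝ᵥ (T *ᵥ (fun j => (z j : ℂ) * V₁ j k))).re =
      ∑ j, ∑ j', z j * z j' * (star (V₁ j k) * T j j' * V₁ j' k).re := by
  rw [dotProduct, Complex.re_sum]
  apply Finset.sum_congr rfl
  intro j _
  rw [Matrix.mulVec, dotProduct, Finset.mul_sum, Complex.re_sum]
  apply Finset.sum_congr rfl
  intro j' _
  rw [← Complex.re_ofReal_mul]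
  congr 1
  simp only [Pi.star_apply, star_mul', Complex.star_def, Complex.conj_ofReal]
  push_cast
  ring

lemma test_yy {V₀ : Matrix H₀ K ℂ} {α : K → ℝ}
    (hV₀ : V₀ᴴ * V₀ = Matrix.diagonal (fun k => (α k : ℂ))) (β : ℝ) (k : K) :
    (star (fun i => (β : ℂ) * V₀ i k) ⬝ᵥ (fun i => (β : ℂ) * V₀ i k)).re = β ^ 2 * α k := by
  have h := congrFun (congrFun hV₀ k) k
  rw [Matrix.mul_apply, Matrix.diagonal_apply_eq] at h
  have h2 : star (fun i => (β : ℂ) * V₀ i k) ⬝ᵥ (fun i => (β : ℂ) * V₀ i k)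
      = (β : ℂ) ^ 2 * ∑ i, V₀ᴴ k i * V₀ i k := by
    rw [Finset.mul_sum, dotProduct]
    apply Finset.sum_congr rfl
    intro i _
    simp only [Pi.star_apply, Matrix.conjTranspose_apply, star_mul',
      Complex.star_def, Complex.conj_ofReal]
    ring
  rw [h2, h]
  norm_cast

lemma test_ww (V₁ : Matrix J K ℂ) (z : J → ℝ) (k : K) :
    (star (fun j => (z j : ℂ) * V₁ j k) ⬝ᵥ (fun j => (z j : ℂ) * V₁ j k)).re =
      ∑ j, z j ^ 2 * ‖V₁ j k‖ ^ 2 := by
  rw [dotProduct, Complex.re_sum]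
  apply Finset.sum_congr rfl
  intro j _
  simp only [Pi.star_apply, star_mul', Complex.star_def, Complex.conj_ofReal]
  have : (z j : ℂ) * (starRingEnd ℂ) (V₁ j k) * ((z j : ℂ) * V₁ j k)
      = ((z j ^ 2 * ‖V₁ j k‖ ^ 2 : ℝ) : ℂ) := by
    have h := Complex.normSq_eq_conj_mul_self (z := V₁ j k)
    rw [Complex.normSq_eq_norm_sq] at h
    calc (z j : ℂ) * (starRingEnd ℂ) (V₁ j k) * ((z j : ℂ) * V₁ j k)
        = (z j : ℂ) ^ 2 * ((starRingEnd ℂ) (V₁ j k) * V₁ j k) := by ring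
      _ = _ := by rw [← h]; push_cast; ring
  rw [this, Complex.ofReal_re]


lemma R_eq_zero {V₀ : Matrix H₀ K ℂ} {α : K → ℝ}
    (hV₀ : V₀ᴴ * V₀ = Matrix.diagonal (fun k => (α k : ℂ))) (R : Matrix H₀ H₀ ℂ) {k : K}
    (hk : α k = 0) : ((V₀ᴴ * R * V₀) k k).re = 0 := by
  have h := congrFun (congrFun hV₀ k) k
  rw [Matrix.mul_apply, Matrix.diagonal_apply_eq, hk] at h
  have h2 : ∑ i, ‖V₀ i k‖ ^ 2 = 0 := by
    have : ((∑ i, ‖V₀ i k‖ ^ 2 : ℝ) : ℂ) = 0 := by
      rw [← Complex.ofReal_zero, ← h]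
      push_cast
      apply Finset.sum_congr rfl
      intro i _
      rw [Matrix.conjTranspose_apply, Complex.star_def, ← Complex.normSq_eq_conj_mul_self,
        Complex.normSq_eq_norm_sq]
      push_cast; rfl
    exact_mod_cast this
  have h3 : ∀ i, V₀ i k = 0 := by
    intro i
    have := (Finset.sum_eq_zero_iff_of_nonneg (fun i _ => by positivity)).mp h2 i
      (Finset.mem_univ i)
    simpa using this
  rw [Matrix.mul_apply]
  simp [h3]

lemma alpha_nonneg {V₀ : Matrix H₀ K ℂ} {α : K → ℝ}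
    (hV₀ : V₀ᴴ * V₀ = Matrix.diagonal (fun k => (α k : ℂ))) (k : K) : 0 ≤ α k := by
  have h := (Matrix.posSemidef_conjTranspose_mul_self V₀).diag_nonneg (i := k)
  rw [hV₀, Matrix.diagonal_apply_eq] at h
  exact_mod_cast h

lemma W_sum {V₁ : Matrix J K ℂ} {x : J → ℝ}
    (hV₁ : V₁ * V₁ᴴ = Matrix.diagonal (fun j => (x j : ℂ))) (j : J) :
    ∑ k, ‖V₁ j k‖ ^ 2 = x j := by
  have h := congrFun (congrFun hV₁ j) j
  rw [Matrix.mul_apply, Matrix.diagonal_apply_eq] at h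
  have : ((∑ k, ‖V₁ j k‖ ^ 2 : ℝ) : ℂ) = (x j : ℂ) := by
    rw [← h]
    push_cast
    apply Finset.sum_congr rfl
    intro i _
    rw [Matrix.conjTranspose_apply, Complex.star_def, Complex.mul_conj,
      Complex.normSq_eq_norm_sq]
    push_cast; rfl
  exact_mod_cast this

/-- the pointwise bound given by the certificate -/
lemma pointwise (V₀ : Matrix H₀ K ℂ) (V₁ : Matrix J K ℂ)
    (R : Matrix H₀ H₀ ℂ) (T : Matrix J J ℂ) (α : K → ℝ) (x : J → ℝ) (κ : K → ℝ)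
    (hV₀ : V₀ᴴ * V₀ = Matrix.diagonal (fun k => (α k : ℂ)))
    (hV₁ : V₁ * V₁ᴴ = Matrix.diagonal (fun j => (x j : ℂ)))
    (hx : ∀ j, 0 < x j)
    (a c r t L : ℝ) (ha0 : 0 < a) (hc0 : 0 < c) (ht0 : 0 < t) (hrt : t ≤ r)
    (μ : ℝ) (ω : ℝ → ℝ) (hω : OmegaData a c r t L μ ω)
    (hκ : ∀ k, 0 < κ k) (hκa : ∀ k, α k ≠ 0 → κ k * a = α k)
    (ρ : K → ℝ → ℝ)
    (hρ : ∀ k, ∀ s, 0 ≤ s → ∀ (y : H₀ → ℂ) (w : J → ℂ),
      2 * (star y ⬝ᵥ (V₀ *ᵥ Pi.single k 1) + star w ⬝ᵥ (V₁ *ᵥ Pi.single k 1)).re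
        - ∑ l, ‖star y ⬝ᵥ (V₀ *ᵥ Pi.single l 1) + star w ⬝ᵥ (V₁ *ᵥ Pi.single l 1)‖ ^ 2
        - (star y ⬝ᵥ (R *ᵥ y)).re - (star w ⬝ᵥ (T *ᵥ w)).re
        - s * ((star y ⬝ᵥ y).re + (star w ⬝ᵥ w).re) ≤ ρ k s)
    (k : K) (s : ℝ) (hs : s ∈ Set.Icc 0 L) :
    α k / a * (2 * √a * y0 a c r t s - (a + s) * y0 a c r t s ^ 2)
      - y0 a c r t s ^ 2 * (((V₀ᴴ * R * V₀) k k).re / α k)
      + ∑ j, ‖V₁ j k‖ ^ 2 * (2 * (s + t + c) * z0 a c r t s * zz a c r t ω s (x j / κ k)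
        - (s + x j / κ k) * zz a c r t ω s (x j / κ k) ^ 2)
      - ∑ j, ∑ j', zz a c r t ω s (x j / κ k) * zz a c r t ω s (x j' / κ k) *
        ((star (V₁ j k) * T j j' * V₁ j' k).re / κ k)
      ≤ κ k * ρ k (κ k * s) := by
  have hκk := hκ k
  have hs0 : 0 ≤ s := hs.1
  have hsa : 0 < √a := Real.sqrt_pos.mpr ha0
  have hsq : √a * √a = a := Real.mul_self_sqrt ha0.le
  set z : J → ℝ := fun j => zz a c r t ω s (x j / κ k) with hz
  have hznn : ∀ j, 0 ≤ z j := fun j => zz_nonneg ha0 hc0 ht0 hrt hω hs (div_pos (hx j) hκk)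
  set β : ℝ := y0 a c r t s / (κ k * √a) with hβ
  have h := hρ k (κ k * s) (by positivity) (fun i => (β : ℂ) * V₀ i k)
    (fun j => ((z j / κ k : ℝ) : ℂ) * V₁ j k)
  rw [test_sum hV₀ hV₁, test_R, test_T, test_yy hV₀, test_ww, test_A hV₀, if_pos rfl,
    test_B] at h
  set S1 : ℝ := ∑ j, z j * ‖V₁ j k‖ ^ 2 with hS1
  set S2 : ℝ := ∑ j, z j ^ 2 * ‖V₁ j k‖ ^ 2 * x j with hS2
  set S3 : ℝ := ∑ j, z j ^ 2 * ‖V₁ j k‖ ^ 2 with hS3
  set S4 : ℝ := ∑ j, ∑ j', z j * z j' * (star (V₁ j k) * T j j' * V₁ j' k).re with hS4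
  have e1 : ∑ j, z j / κ k * ‖V₁ j k‖ ^ 2 = S1 / κ k := by
    rw [hS1, Finset.sum_div]; apply Finset.sum_congr rfl; intro j _; ring
  have e2 : ∑ j, (z j / κ k) ^ 2 * ‖V₁ j k‖ ^ 2 * x j = S2 / κ k ^ 2 := by
    rw [hS2, Finset.sum_div]; apply Finset.sum_congr rfl; intro j _; ring
  have e3 : ∑ j, (z j / κ k) ^ 2 * ‖V₁ j k‖ ^ 2 = S3 / κ k ^ 2 := by
    rw [hS3, Finset.sum_div]; apply Finset.sum_congr rfl; intro j _; ring
  have e4 : ∑ j, ∑ j', z j / κ k * (z j' / κ k) * (star (V₁ j k) * T j j' * V₁ j' k).re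
      = S4 / κ k ^ 2 := by
    rw [hS4, Finset.sum_div]; apply Finset.sum_congr rfl; intro j _
    rw [Finset.sum_div]; apply Finset.sum_congr rfl; intro j' _
    ring
  rw [e1, e2, e3, e4] at h
  have f1 : ∑ j, ‖V₁ j k‖ ^ 2 * (2 * (s + t + c) * z0 a c r t s * z j
        - (s + x j / κ k) * z j ^ 2)
      = 2 * (s + t + c) * z0 a c r t s * S1 - s * S3 - S2 / κ k := by
    rw [hS1, hS2, hS3, Finset.mul_sum, Finset.mul_sum, Finset.sum_div, ← Finset.sum_sub_distrib,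
      ← Finset.sum_sub_distrib]
    apply Finset.sum_congr rfl; intro j _; ring
  have f2 : ∑ j, ∑ j', z j * z j' * ((star (V₁ j k) * T j j' * V₁ j' k).re / κ k)
      = S4 / κ k := by
    rw [hS4, Finset.sum_div]; apply Finset.sum_congr rfl; intro j _
    rw [Finset.sum_div]; apply Finset.sum_congr rfl; intro j' _
    ring
  have hgoal : ∀ A B : ℝ, A = B → B ≤ κ k * ρ k (κ k * s) → A ≤ κ k * ρ k (κ k * s) :=
    fun A B h1 h2 => h1 ▸ h2
  change α k / a * (2 * √a * y0 a c r t s - (a + s) * y0 a c r t s ^ 2)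
      - y0 a c r t s ^ 2 * (((V₀ᴴ * R * V₀) k k).re / α k)
      + ∑ j, ‖V₁ j k‖ ^ 2 * (2 * (s + t + c) * z0 a c r t s * z j
        - (s + x j / κ k) * z j ^ 2)
      - ∑ j, ∑ j', z j * z j' *
        ((star (V₁ j k) * T j j' * V₁ j' k).re / κ k) ≤ _
  rw [f1, f2]
  have h' := mul_le_mul_of_nonneg_left h hκk.le
  refine le_trans ?_ h'
  have hS1nn : 0 ≤ S1 := Finset.sum_nonneg (fun j _ => mul_nonneg (hznn j) (by positivity))
  have hid := one_sub_sqrt_mul_y0 ha0 hc0 ht0 hrt hs0 (s := s)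
  rw [← Complex.ofReal_add, Complex.ofReal_re]
  by_cases hα : α k = 0
  · rw [R_eq_zero hV₀ R hα, hα]
    have hy := y0_nonneg ha0 hc0 ht0 hrt hs0 (s := s)
    have h5 : (s + t + c) * z0 a c r t s ≤ 1 := by
      rw [← hid]; nlinarith [mul_nonneg hsa.le hy]
    have h6 : κ k * (2 * (β * 0 + S1 / κ k) - (S2 / κ k ^ 2 + (β * 0) ^ 2
        + 2 * (β * 0) * (S1 / κ k)) - β ^ 2 * 0 - S4 / κ k ^ 2
        - κ k * s * (β ^ 2 * 0 + S3 / κ k ^ 2)) = 2 * S1 - s * S3 - S2 / κ k - S4 / κ k := by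
      field_simp
      ring
    rw [h6]
    have h7 : (s + t + c) * z0 a c r t s * S1 ≤ 1 * S1 := mul_le_mul_of_nonneg_right h5 hS1nn
    simp only [zero_div, mul_zero, zero_mul, sub_zero, zero_add]
    linarith
  · have h8 := hκa k hα
    set Rk := ((V₀ᴴ * R * V₀) k k).re with hRk
    have h9 : β * α k = √a * y0 a c r t s := by
      rw [hβ, ← h8]
      field_simp
      rw [sq, hsq]
    have h10 : κ k * β ^ 2 * α k = y0 a c r t s ^ 2 := by
      rw [hβ, ← h8]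
      field_simp
      rw [show √a ^ 2 = a by rw [sq, hsq]]
    have h11 : κ k * (2 * (β * α k + S1 / κ k) - (S2 / κ k ^ 2 + (β * α k) ^ 2
        + 2 * (β * α k) * (S1 / κ k)) - β ^ 2 * Rk - S4 / κ k ^ 2
        - κ k * s * (β ^ 2 * α k + S3 / κ k ^ 2))
        = κ k * (2 * (β * α k) - (β * α k) ^ 2) - κ k * β ^ 2 * Rk
          + 2 * (1 - β * α k) * S1 - s * S3 - S2 / κ k - S4 / κ k
          - κ k * s * (κ k * β ^ 2 * α k) := by
      field_simp
      ring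
    rw [h11, h10, h9, hid]
    have h12 : κ k * β ^ 2 = y0 a c r t s ^ 2 / α k := by
      rw [← h10]; field_simp
    rw [h12]
    have h13 : α k / a = κ k := by rw [← h8]; field_simp
    rw [h13]
    have h14 : (√a * y0 a c r t s) ^ 2 = a * y0 a c r t s ^ 2 := by
      rw [mul_pow, sq √a, hsq]
    rw [h14]
    apply le_of_eq
    ring



/-- the `T` contribution of the certificate integrates to `μ Tr T` -/
lemma sum_tau (V₁ : Matrix J K ℂ) (T : Matrix J J ℂ) (x : J → ℝ) (κ : K → ℝ)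
    (hV₁ : V₁ * V₁ᴴ = Matrix.diagonal (fun j => (x j : ℂ)))
    (hx : ∀ j, 0 < x j)
    (a c r t L : ℝ) (ha0 : 0 < a) (hc0 : 0 < c) (ht : t = T.trace.re) (ht0 : 0 < t)
    (hrt : t ≤ r) (hL : 0 < L)
    (μ : ℝ) (ω : ℝ → ℝ) (hω : OmegaData a c r t L μ ω)
    (hκ : ∀ k, 0 < κ k) :
    ∑ k, ∑ j, ∑ j', (∫ s in (0:ℝ)..L, zz a c r t ω s (x j / κ k) * zz a c r t ω s (x j' / κ k)) *
        ((star (V₁ j k) * T j j' * V₁ j' k).re / κ k) = μ * t := by
  set ℓ : J → J → ℝ := fun j j' => if x j = x j' then 1 / x j else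
    (Real.log (x j) - Real.log (x j')) / (x j - x j') with hℓ
  have h1 : ∀ k j j', (∫ s in (0:ℝ)..L, zz a c r t ω s (x j / κ k) * zz a c r t ω s (x j' / κ k))
      = κ k * μ * ℓ j j' := by
    intro k j j'
    by_cases h : x j = x j'
    · rw [hℓ]
      simp only [if_pos h]
      rw [← h]
      have := integral_zz_self ha0 hc0 ht0 hrt hL hω (hκ k) (hx j)
      simp only [sq] at this
      rw [this]; ring
    · rw [hℓ]
      simp only [if_neg h]
      exact integral_zz_ne ha0 hc0 ht0 hrt hL hω (hκ k) (hx j) (hx j') h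
  have h2 : ∀ k j j', (∫ s in (0:ℝ)..L, zz a c r t ω s (x j / κ k) * zz a c r t ω s (x j' / κ k)) *
        ((star (V₁ j k) * T j j' * V₁ j' k).re / κ k)
      = μ * ℓ j j' * (star (V₁ j k) * T j j' * V₁ j' k).re := by
    intro k j j'
    rw [h1]
    have := (hκ k).ne'
    field_simp
  simp only [h2]
  rw [Finset.sum_comm]
  have h3 : ∀ j, ∑ k, ∑ j', μ * ℓ j j' * (star (V₁ j k) * T j j' * V₁ j' k).re
      = μ * (T j j).re := by
    intro j
    rw [Finset.sum_comm]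
    have h4 : ∀ j', ∑ k, μ * ℓ j j' * (star (V₁ j k) * T j j' * V₁ j' k).re
        = if j' = j then μ * (T j j).re else 0 := by
      intro j'
      rw [← Finset.mul_sum, ← Complex.re_sum]
      have h5 : ∑ k, star (V₁ j k) * T j j' * V₁ j' k = T j j' * (V₁ * V₁ᴴ) j' j := by
        rw [Matrix.mul_apply, Finset.mul_sum]
        apply Finset.sum_congr rfl
        intro k _
        rw [Matrix.conjTranspose_apply]; ring
      rw [h5, hV₁, Matrix.diagonal_apply]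
      by_cases h : j' = j
      · subst h
        have h6 : ℓ j' j' = 1 / x j' := by simp [hℓ]
        rw [if_pos rfl, if_pos rfl, h6]
        rw [Complex.re_mul_ofReal]
        have := (hx j').ne'
        field_simp
      · rw [if_neg h, if_neg h, mul_zero, Complex.zero_re, mul_zero]
    rw [Finset.sum_congr rfl (fun j' _ => h4 j'), Finset.sum_ite_eq' Finset.univ j,
      if_pos (Finset.mem_univ j)]
  rw [Finset.sum_congr rfl (fun j _ => h3 j), ← Finset.mul_sum, ht, Matrix.trace,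
    Complex.re_sum]
  rfl

theorem P1abs (V₀ : Matrix H₀ K ℂ) (V₁ : Matrix J K ℂ)
    (R : Matrix H₀ H₀ ℂ) (T : Matrix J J ℂ) (α : K → ℝ) (x : J → ℝ) (κ : K → ℝ)
    (hV₀ : V₀ᴴ * V₀ = Matrix.diagonal (fun k => (α k : ℂ)))
    (hV₁ : V₁ * V₁ᴴ = Matrix.diagonal (fun j => (x j : ℂ)))
    (hx : ∀ j, 0 < x j) (hR : R.PosSemidef) (hT : T.PosSemidef)
    (a c r t L : ℝ) (ha : a = ∑ k, α k) (ha0 : 0 < a) (hc : c = ∑ j, x j) (hc0 : 0 < c)
    (hr : r = R.trace.re) (ht : t = T.trace.re) (ht0 : 0 < t) (hrt : t ≤ r) (hL : 0 < L)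
    (hκ : ∀ k, 0 < κ k) (hκa : ∀ k, α k ≠ 0 → κ k * a = α k)
    (ρ : K → ℝ → ℝ) (hρc : ∀ k, ContinuousOn (ρ k) (Set.Ici 0))
    (hρ : ∀ k, ∀ s, 0 ≤ s → ∀ (y : H₀ → ℂ) (w : J → ℂ),
      2 * (star y ⬝ᵥ (V₀ *ᵥ Pi.single k 1) + star w ⬝ᵥ (V₁ *ᵥ Pi.single k 1)).re
        - ∑ l, ‖star y ⬝ᵥ (V₀ *ᵥ Pi.single l 1) + star w ⬝ᵥ (V₁ *ᵥ Pi.single l 1)‖ ^ 2
        - (star y ⬝ᵥ (R *ᵥ y)).re - (star w ⬝ᵥ (T *ᵥ w)).re
        - s * ((star y ⬝ᵥ y).re + (star w ⬝ᵥ w).re) ≤ ρ k s) :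
    (∫ s in (0:ℝ)..L, (a * (s + t) + c * (s + r)) / den a c r t s)
      + c * Real.log c - ∑ j, x j * Real.log (x j)
      + ∑ k, (∑ j, ‖V₁ j k‖ ^ 2) * Real.log (κ k)
      - c * ∑ k ∈ Finset.univ.filter (fun k => α k = 0), κ k
    ≤ ∑ k, ∫ s in (0:ℝ)..L, κ k * ρ k (κ k * s) := by
  obtain ⟨μ, ω, hω⟩ := exists_omega a c r t L ha0 hc0 ht0 hrt hL
  have hα := alpha_nonneg hV₀
  have hz0c : ContinuousOn (z0 a c r t) (Set.Icc 0 L) :=
    (continuousOn_z0 ha0 hc0 ht0 hrt).mono (fun s hs => hs.1)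
  have hy0c : ContinuousOn (y0 a c r t) (Set.Icc 0 L) :=
    (continuousOn_y0 ha0 hc0 ht0 hrt).mono (fun s hs => hs.1)
  have hzc : ∀ k j, ContinuousOn (fun s => zz a c r t ω s (x j / κ k)) (Set.Icc 0 L) :=
    fun k j => continuousOn_zz ha0 hc0 ht0 hrt hω (div_pos (hx j) (hκ k))
  set A : ℝ → ℝ := fun s => 2 * √a * y0 a c r t s - (a + s + r) * y0 a c r t s ^ 2 with hA
  set f : K → J → ℝ → ℝ := fun k j s =>
    2 * (s + t + c) * z0 a c r t s * zz a c r t ω s (x j / κ k)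
        - (s + x j / κ k) * zz a c r t ω s (x j / κ k) ^ 2 with hf
  set g : K → J → J → ℝ → ℝ := fun k j j' s =>
    zz a c r t ω s (x j / κ k) * zz a c r t ω s (x j' / κ k) with hg
  set τ : K → J → J → ℝ := fun k j j' => (star (V₁ j k) * T j j' * V₁ j' k).re / κ k with hτ
  have hAi : IntervalIntegrable A volume 0 L := by
    apply ContinuousOn.intervalIntegrable_of_Icc hL.le
    rw [hA]; fun_prop
  have hfi : ∀ k j, IntervalIntegrable (f k j) volume 0 L := by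
    intro k j
    apply ContinuousOn.intervalIntegrable_of_Icc hL.le
    have := hzc k j
    rw [hf]; fun_prop
  have hgi : ∀ k j j', IntervalIntegrable (g k j j') volume 0 L := by
    intro k j j'
    apply ContinuousOn.intervalIntegrable_of_Icc hL.le
    have := hzc k j
    have := hzc k j'
    rw [hg]; fun_prop
  have hGi : ∀ k, IntervalIntegrable (fun s => κ k * ρ k (κ k * s)) volume 0 L := by
    intro k
    apply ContinuousOn.intervalIntegrable_of_Icc hL.le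
    have h1 : ContinuousOn (fun s => ρ k (κ k * s)) (Set.Icc 0 L) := by
      apply (hρc k).comp (by fun_prop)
      intro s hs
      exact mul_nonneg (hκ k).le hs.1
    exact continuousOn_const.mul h1
  have hW : ∀ j, ∑ k, ‖V₁ j k‖ ^ 2 = x j := W_sum hV₁
  -- the lower bound, pointwise
  have hpt : ∀ s ∈ Set.Icc 0 L, A s + ∑ k, ∑ j, ‖V₁ j k‖ ^ 2 * f k j s
      - ∑ k, ∑ j, ∑ j', g k j j' s * τ k j j' ≤ ∑ k, κ k * ρ k (κ k * s) := by
    intro s hs
    have h1 : ∀ k ∈ Finset.univ, _ := fun k _ => pointwise V₀ V₁ R T α x κ hV₀ hV₁ hx a c r t L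
      ha0 hc0 ht0 hrt μ ω hω hκ hκa ρ hρ k s hs
    have h2 := Finset.sum_le_sum h1
    refine le_trans ?_ h2
    rw [Finset.sum_sub_distrib, Finset.sum_add_distrib, Finset.sum_sub_distrib,
      ← Finset.sum_mul, ← Finset.mul_sum, ← Finset.sum_div, ← ha, div_self ha0.ne', one_mul]
    have h3 := bessel_R hV₀ hα hR
    rw [← hr] at h3
    have h4 := mul_le_mul_of_nonneg_left h3 (sq_nonneg (y0 a c r t s))
    have h5 : A s = 2 * √a * y0 a c r t s - (a + s) * y0 a c r t s ^ 2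
      - y0 a c r t s ^ 2 * r := by rw [hA]; ring
    rw [h5]
    have h6 : ∑ k, ∑ j, ‖V₁ j k‖ ^ 2 * f k j s = ∑ k, ∑ j, ‖V₁ j k‖ ^ 2 *
      (2 * (s + t + c) * z0 a c r t s * zz a c r t ω s (x j / κ k)
        - (s + x j / κ k) * zz a c r t ω s (x j / κ k) ^ 2) := rfl
    have h7 : ∑ k, ∑ j, ∑ j', g k j j' s * τ k j j' = ∑ k, ∑ j, ∑ j',
      zz a c r t ω s (x j / κ k) * zz a c r t ω s (x j' / κ k) *
        ((star (V₁ j k) * T j j' * V₁ j' k).re / κ k) := rfl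
    rw [← h6, ← h7]
    linarith
  -- integrate
  have hfi2 : IntervalIntegrable (fun s => ∑ k, ∑ j, ‖V₁ j k‖ ^ 2 * f k j s) volume 0 L := by
    have := IntervalIntegrable.sum (μ := volume) (a := 0) (b := L) Finset.univ
      (f := fun k s => ∑ j, ‖V₁ j k‖ ^ 2 * f k j s) (fun k _ => by
        have := IntervalIntegrable.sum (μ := volume) (a := 0) (b := L) Finset.univ
          (f := fun j s => ‖V₁ j k‖ ^ 2 * f k j s) (fun j _ => (hfi k j).const_mul _)
        simpa [Finset.sum_fn] using this)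
    simpa [Finset.sum_fn] using this
  have hgi2 : IntervalIntegrable (fun s => ∑ k, ∑ j, ∑ j', g k j j' s * τ k j j') volume 0 L := by
    have := IntervalIntegrable.sum (μ := volume) (a := 0) (b := L) Finset.univ
      (f := fun k s => ∑ j, ∑ j', g k j j' s * τ k j j') (fun k _ => by
        have := IntervalIntegrable.sum (μ := volume) (a := 0) (b := L) Finset.univ
          (f := fun j s => ∑ j', g k j j' s * τ k j j') (fun j _ => by
            have := IntervalIntegrable.sum (μ := volume) (a := 0) (b := L) Finset.univ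
              (f := fun j' s => g k j j' s * τ k j j') (fun j' _ => (hgi k j j').mul_const _)
            simpa [Finset.sum_fn] using this)
        simpa [Finset.sum_fn] using this)
    simpa [Finset.sum_fn] using this
  have hint := intervalIntegral.integral_mono_on hL.le ((hAi.add hfi2).sub hgi2)
    (g := fun s => ∑ k, κ k * ρ k (κ k * s)) (by
      have := IntervalIntegrable.sum (μ := volume) (a := 0) (b := L) Finset.univ
        (f := fun k s => κ k * ρ k (κ k * s)) (fun k _ => hGi k)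
      simpa [Finset.sum_fn] using this) hpt
  rw [intervalIntegral.integral_finsetSum (fun k _ => hGi k)] at hint
  refine le_trans ?_ hint
  rw [intervalIntegral.integral_sub (hAi.add hfi2) hgi2, intervalIntegral.integral_add hAi hfi2]
  have e1 : ∫ s in (0:ℝ)..L, ∑ k, ∑ j, ‖V₁ j k‖ ^ 2 * f k j s
      = ∑ k, ∑ j, ‖V₁ j k‖ ^ 2 * ∫ s in (0:ℝ)..L, f k j s := by
    rw [intervalIntegral.integral_finsetSum]
    · apply Finset.sum_congr rfl; intro k _
      rw [intervalIntegral.integral_finsetSum]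
      · apply Finset.sum_congr rfl; intro j _
        rw [intervalIntegral.integral_const_mul]
      · intro j _; exact (hfi k j).const_mul _
    · intro k _
      have := IntervalIntegrable.sum (μ := volume) (a := 0) (b := L) Finset.univ
        (f := fun j s => ‖V₁ j k‖ ^ 2 * f k j s) (fun j _ => (hfi k j).const_mul _)
      simpa [Finset.sum_fn] using this
  have e2 : ∫ s in (0:ℝ)..L, ∑ k, ∑ j, ∑ j', g k j j' s * τ k j j' = μ * t := by
    rw [← sum_tau V₁ T x κ hV₁ hx a c r t L ha0 hc0 ht ht0 hrt hL μ ω hω hκ]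
    rw [intervalIntegral.integral_finsetSum]
    · apply Finset.sum_congr rfl; intro k _
      rw [intervalIntegral.integral_finsetSum]
      · apply Finset.sum_congr rfl; intro j _
        rw [intervalIntegral.integral_finsetSum]
        · apply Finset.sum_congr rfl; intro j' _
          rw [intervalIntegral.integral_mul_const]
        · intro j' _; exact (hgi k j j').mul_const _
      · intro j _
        have := IntervalIntegrable.sum (μ := volume) (a := 0) (b := L) Finset.univ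
          (f := fun j' s => g k j j' s * τ k j j') (fun j' _ => (hgi k j j').mul_const _)
        simpa [Finset.sum_fn] using this
    · intro k _
      have := IntervalIntegrable.sum (μ := volume) (a := 0) (b := L) Finset.univ
        (f := fun j s => ∑ j', g k j j' s * τ k j j') (fun j _ => by
          have := IntervalIntegrable.sum (μ := volume) (a := 0) (b := L) Finset.univ
            (f := fun j' s => g k j j' s * τ k j j') (fun j' _ => (hgi k j j').mul_const _)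
          simpa [Finset.sum_fn] using this)
      simpa [Finset.sum_fn] using this
  rw [e1, e2]
  set B : ℝ := ∫ s in (0:ℝ)..L, (s + 2 * t + c) * z0 a c r t s ^ 2 with hB
  set δ : ℝ := c - μ * (t + c) with hδ
  have hδ0 : 0 ≤ δ := by have := hω.delta_nonneg; rw [hδ]; linarith
  have hδc : δ ≤ c := by
    have := mul_pos hω.mu_pos (add_pos ht0 hc0); rw [hδ]; linarith
  have e4 : ∑ k, ∑ j, ‖V₁ j k‖ ^ 2 * (B + Real.log c + δ / c - Real.log (x j / κ k)
      - δ / (x j / κ k)) ≤ ∑ k, ∑ j, ‖V₁ j k‖ ^ 2 * ∫ s in (0:ℝ)..L, f k j s := by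
    apply Finset.sum_le_sum; intro k _
    apply Finset.sum_le_sum; intro j _
    apply mul_le_mul_of_nonneg_left _ (sq_nonneg _)
    have h1 := scalar_key ha0 hc0 ht0 hrt hL hω (div_pos (hx j) (hκ k))
    rw [← hB, ← hδ] at h1
    have h2 : ∫ s in (0:ℝ)..L, f k j s = ∫ s in (0:ℝ)..L,
      (2 * (s + t + c) * z0 a c r t s * zz a c r t ω s (x j / κ k)
        - (s + x j / κ k) * zz a c r t ω s (x j / κ k) ^ 2) := rfl
    rw [h2]; linarith
  have hWc : ∑ k, ∑ j, ‖V₁ j k‖ ^ 2 = c := by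
    rw [Finset.sum_comm, hc]; exact Finset.sum_congr rfl (fun j _ => hW j)
  have e5 : ∑ k, ∑ j, ‖V₁ j k‖ ^ 2 * (B + Real.log c + δ / c - Real.log (x j / κ k)
      - δ / (x j / κ k)) = (B + Real.log c + δ / c) * c - ∑ j, x j * Real.log (x j)
      + ∑ k, (∑ j, ‖V₁ j k‖ ^ 2) * Real.log (κ k)
      - δ * ∑ k, κ k * ∑ j, ‖V₁ j k‖ ^ 2 / x j := by
    have h1 : ∀ k j, ‖V₁ j k‖ ^ 2 * (B + Real.log c + δ / c - Real.log (x j / κ k)
      - δ / (x j / κ k)) = (B + Real.log c + δ / c) * ‖V₁ j k‖ ^ 2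
        - ‖V₁ j k‖ ^ 2 * Real.log (x j) + ‖V₁ j k‖ ^ 2 * Real.log (κ k)
        - δ * (κ k * (‖V₁ j k‖ ^ 2 / x j)) := by
      intro k j
      rw [Real.log_div (hx j).ne' (hκ k).ne']
      have := (hx j).ne'
      have := (hκ k).ne'
      field_simp
      ring
    simp only [h1, Finset.sum_sub_distrib, Finset.sum_add_distrib]
    have h2 : ∑ k, ∑ j, (B + Real.log c + δ / c) * ‖V₁ j k‖ ^ 2
        = (B + Real.log c + δ / c) * c := by
      simp only [← Finset.mul_sum]; rw [hWc]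
    have h3 : ∑ k, ∑ j, ‖V₁ j k‖ ^ 2 * Real.log (x j) = ∑ j, x j * Real.log (x j) := by
      rw [Finset.sum_comm]
      apply Finset.sum_congr rfl; intro j _
      rw [← Finset.sum_mul, hW]
    have h4 : ∑ k, ∑ j, ‖V₁ j k‖ ^ 2 * Real.log (κ k)
        = ∑ k, (∑ j, ‖V₁ j k‖ ^ 2) * Real.log (κ k) := by
      apply Finset.sum_congr rfl; intro k _; rw [Finset.sum_mul]
    have h5 : ∑ k, ∑ j, δ * (κ k * (‖V₁ j k‖ ^ 2 / x j))
        = δ * ∑ k, κ k * ∑ j, ‖V₁ j k‖ ^ 2 / x j := by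
      simp only [← Finset.mul_sum]
    rw [h2, h3, h4, h5]
  have e6 : ∑ k, κ k * ∑ j, ‖V₁ j k‖ ^ 2 / x j
      ≤ 1 + ∑ k ∈ Finset.univ.filter (fun k => α k = 0), κ k := by
    have h1 : ∑ k, κ k * ∑ j, ‖V₁ j k‖ ^ 2 / x j ≤ ∑ k, κ k := by
      apply Finset.sum_le_sum; intro k _
      have := mul_le_mul_of_nonneg_left (bessel_W hV₁ hx k) (hκ k).le
      linarith
    have h2 : ∑ k, κ k = ∑ k, (α k / a + if α k = 0 then κ k else 0) := by
      apply Finset.sum_congr rfl; intro k _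
      by_cases h : α k = 0
      · simp [h]
      · rw [if_neg h, add_zero, ← hκa k h]; field_simp
    have h3 : ∑ k, (α k / a + if α k = 0 then κ k else 0)
        = 1 + ∑ k ∈ Finset.univ.filter (fun k => α k = 0), κ k := by
      rw [Finset.sum_add_distrib, ← Finset.sum_div, ← ha, div_self ha0.ne', Finset.sum_filter]
    rw [← h3, ← h2]; exact h1
  have e7 : (∫ s in (0:ℝ)..L, (a * (s + t) + c * (s + r)) / den a c r t s)
      = (∫ s in (0:ℝ)..L, A s) + c * B - μ * t := by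
    have hz2 : IntervalIntegrable (fun s => z0 a c r t s ^ 2) volume 0 L := by
      apply ContinuousOn.intervalIntegrable_of_Icc hL.le; fun_prop
    have hz3 : IntervalIntegrable (fun s => (s + 2 * t + c) * z0 a c r t s ^ 2) volume 0 L := by
      apply ContinuousOn.intervalIntegrable_of_Icc hL.le; fun_prop
    have h1 := integral_z0_sq ha0 hc0 ht0 hrt hL hω
    have h2 : μ * t = ∫ s in (0:ℝ)..L, (c * t) * z0 a c r t s ^ 2 := by
      rw [intervalIntegral.integral_const_mul, h1]; field_simp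
    rw [h2, hB, ← intervalIntegral.integral_const_mul,
      ← intervalIntegral.integral_add hAi (hz3.const_mul _),
      ← intervalIntegral.integral_sub (hAi.add (hz3.const_mul _)) (hz2.const_mul _)]
    apply intervalIntegral.integral_congr
    intro s hs
    rw [Set.uIcc_of_le hL.le] at hs
    have h3 := scalar_identity ha0 hc0 ht0 hrt hs.1 (s := s)
    simp only [hA]
    rw [← h3]; ring
  rw [e7]
  have hfil : 0 ≤ ∑ k ∈ Finset.univ.filter (fun k => α k = 0), κ k :=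
    Finset.sum_nonneg (fun k _ => (hκ k).le)
  have e8 : (B + Real.log c + δ / c) * c = c * B + c * Real.log c + δ := by
    field_simp
  rw [e5, e8] at e4
  set F := ∑ k ∈ Finset.univ.filter (fun k => α k = 0), κ k with hF
  set G := ∑ k, κ k * ∑ j, ‖V₁ j k‖ ^ 2 / x j with hG
  have e9 : δ * G ≤ δ + c * F := by
    calc δ * G ≤ δ * (1 + F) := mul_le_mul_of_nonneg_left e6 hδ0
      _ = δ + δ * F := by ring
      _ ≤ δ + c * F := by
        have := mul_le_mul_of_nonneg_right hδc hfil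
        linarith
  linarith


end mat

end Crest.Agent.H29
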