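import Mathlib
import Crest.Agent.H29.Defs
import Crest.Agent.H29.Ent
import Crest.Agent.H29.Klein

set_option autoImplicit false
set_option linter.unusedSectionVars false

open Crest.Quantum Crest.MathPhysics.AmpDamp Matrix Filter Topology
open scoped ComplexOrder Kronecker

namespace Crest.Agent.H29.P1G

variable {n m : Type*} [Fintype n] [DecidableEq n] [Fintype m] [DecidableEq m]

/-- `star (U u) ⬝ᵥ v = star u ⬝ᵥ (Uᴴ v)`. -/
theorem star_mulVec_dot (U : Matrix m n ℂ) (u : n → ℂ) (v : m → ℂ) :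
    star (U *ᵥ u) ⬝ᵥ v = star u ⬝ᵥ (Uᴴ *ᵥ v) := by
  rw [Matrix.star_mulVec, ← Matrix.dotProduct_mulVec]

theorem dot_star_self_re (u : n → ℂ) : (star u ⬝ᵥ u).re = ∑ i, ‖u i‖ ^ 2 := by
  rw [dotProduct, Complex.re_sum]
  refine Finset.sum_congr rfl fun i _ => ?_
  rw [Pi.star_apply, Complex.star_def, mul_comm, Complex.mul_conj, Complex.ofReal_re,
    Complex.normSq_eq_norm_sq]

/-- termwise completion of squares. -/
theorem term_le (y v : ℂ) {l : ℝ} (hl : 0 < l) :
    2 * (star y * v).re - l * ‖y‖ ^ 2 ≤ ‖v‖ ^ 2 / l := by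
  rw [le_div_iff₀ hl]
  have h1 : (star y * v).re ≤ ‖y‖ * ‖v‖ := by
    calc (star y * v).re ≤ ‖star y * v‖ := Complex.re_le_norm _
      _ = ‖y‖ * ‖v‖ := by rw [norm_mul, norm_star]
  nlinarith [sq_nonneg (l * ‖y‖ - ‖v‖), mul_le_mul_of_nonneg_right h1 hl.le]

section
variable {X : Matrix n n ℂ} (hX : X.IsHermitian)

/-- coordinates of a vector in the eigenbasis. -/
noncomputable def co (v : n → ℂ) : n → ℂ := (hX.eigenvectorUnitary : Matrix n n ℂ)ᴴ *ᵥ v

theorem UU : (hX.eigenvectorUnitary : Matrix n n ℂ)ᴴ * (hX.eigenvectorUnitary : Matrix n n ℂ) = 1 :=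
  Unitary.coe_star_mul_self _

theorem UU' : (hX.eigenvectorUnitary : Matrix n n ℂ) * (hX.eigenvectorUnitary : Matrix n n ℂ)ᴴ = 1 :=
  Unitary.coe_mul_star_self _

theorem co_dot (u v : n → ℂ) : star u ⬝ᵥ v = star (co hX u) ⬝ᵥ co hX v := by
  unfold co
  rw [star_mulVec_dot, Matrix.conjTranspose_conjTranspose, Matrix.mulVec_mulVec, UU' hX,
    Matrix.one_mulVec]

theorem co_mulVec (u : n → ℂ) (i : n) : co hX (X *ᵥ u) i = (hX.eigenvalues i : ℂ) * co hX u i := by
  have h : (hX.eigenvectorUnitary : Matrix n n ℂ)ᴴ * X =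
      Matrix.diagonal (fun j => (hX.eigenvalues j : ℂ)) *
        (hX.eigenvectorUnitary : Matrix n n ℂ)ᴴ := by
    have h0 := congrArg (fun Z => (hX.eigenvectorUnitary : Matrix n n ℂ)ᴴ * Z) (spectral_form hX)
    refine h0.trans ?_
    simp only [← Matrix.mul_assoc]
    rw [UU hX, Matrix.one_mul]
  unfold co
  rw [Matrix.mulVec_mulVec, h, ← Matrix.mulVec_mulVec, Matrix.mulVec_diagonal]

theorem quad_eq (u : n → ℂ) :
    (star u ⬝ᵥ (X *ᵥ u)).re = ∑ i, hX.eigenvalues i * ‖co hX u i‖ ^ 2 := by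
  rw [co_dot hX, dotProduct, Complex.re_sum]
  refine Finset.sum_congr rfl fun i _ => ?_
  rw [co_mulVec, Pi.star_apply, Complex.star_def]
  have : (starRingEnd ℂ) (co hX u i) * ((hX.eigenvalues i : ℂ) * co hX u i) =
      ((hX.eigenvalues i * Complex.normSq (co hX u i) : ℝ) : ℂ) := by
    rw [Complex.ofReal_mul, ← Complex.mul_conj]; ring
  rw [this, Complex.ofReal_re, Complex.normSq_eq_norm_sq]

theorem sq_eq (u : n → ℂ) : (star u ⬝ᵥ u).re = ∑ i, ‖co hX u i‖ ^ 2 := by
  rw [co_dot hX, dot_star_self_re]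

/-- `ρ(s) = ⟨v, (X + s)⁻¹ v⟩`. -/
noncomputable def res (v : n → ℂ) (s : ℝ) : ℝ :=
  ∑ i, ‖co hX v i‖ ^ 2 / (hX.eigenvalues i + s)

theorem quad_bound (u v : n → ℂ) {s : ℝ} (hs : ∀ i, 0 < hX.eigenvalues i + s) :
    2 * (star u ⬝ᵥ v).re - (star u ⬝ᵥ (X *ᵥ u)).re - s * (star u ⬝ᵥ u).re ≤ res hX v s := by
  rw [quad_eq hX, sq_eq hX, co_dot hX u v, dotProduct, Complex.re_sum, Finset.mul_sum,
    Finset.mul_sum, ← Finset.sum_sub_distrib, ← Finset.sum_sub_distrib]
  unfold res
  refine Finset.sum_le_sum fun i _ => ?_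
  have := term_le (co hX u i) (co hX v i) (hs i)
  rw [Pi.star_apply]
  linarith

theorem res_continuous (v : n → ℂ) (hpos : ∀ i, 0 < hX.eigenvalues i) :
    ContinuousOn (res hX v) (Set.Ici 0) := by
  unfold res
  refine continuousOn_finsetSum _ fun i _ => ?_
  refine ContinuousOn.div continuousOn_const (by fun_prop) ?_
  intro s hs
  have := hpos i
  have h0 : (0:ℝ) ≤ s := hs
  positivity

theorem res_integral (v : n → ℂ) (hpos : ∀ i, 0 < hX.eigenvalues i) {κ L : ℝ} (hκ : 0 < κ)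
    (hL : 0 < L) :
    ∫ s in (0:ℝ)..L, κ * res hX v (κ * s) =
      ∑ i, ‖co hX v i‖ ^ 2 * (Real.log (hX.eigenvalues i + κ * L) -
        Real.log (hX.eigenvalues i)) := by
  have hd : ∀ s ∈ Set.uIcc (0:ℝ) L, HasDerivAt (fun s => ∑ i, ‖co hX v i‖ ^ 2 *
      (Real.log (hX.eigenvalues i + κ * s) - Real.log (hX.eigenvalues i)))
      (κ * res hX v (κ * s)) s := by
    intro s hs
    rw [Set.uIcc_of_le hL.le] at hs
    unfold res
    rw [Finset.mul_sum]
    have : ∀ i ∈ (Finset.univ : Finset n), HasDerivAt (fun s => ‖co hX v i‖ ^ 2 *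
      (Real.log (hX.eigenvalues i + κ * s) - Real.log (hX.eigenvalues i)))
      (κ * (‖co hX v i‖ ^ 2 / (hX.eigenvalues i + κ * s))) s := by
      intro i _
      have hp : 0 < hX.eigenvalues i + κ * s := by
        have := hpos i
        have := hs.1
        positivity
      have h1 : HasDerivAt (fun s => hX.eigenvalues i + κ * s) κ s := by
        simpa using ((hasDerivAt_id s).const_mul κ).const_add (hX.eigenvalues i)
      have h2 := (h1.log hp.ne').sub_const (Real.log (hX.eigenvalues i))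
      have h3 := h2.const_mul (‖co hX v i‖ ^ 2)
      refine h3.congr_deriv ?_
      field_simp
    have h4 := HasDerivAt.fun_sum this
    exact h4
  rw [intervalIntegral.integral_eq_sub_of_hasDerivAt hd]
  · simp
  · apply ContinuousOn.intervalIntegrable
    rw [Set.uIcc_of_le hL.le]
    refine ContinuousOn.mul continuousOn_const ?_
    refine (res_continuous hX v hpos).comp (by fun_prop) ?_
    intro s hs
    have := hs.1
    show (0:ℝ) ≤ κ * s
    positivity

/-- if `(X + s) y = v` then `ρ(s) = ⟨v, y⟩`. -/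
theorem res_eq_of_solve (v y : n → ℂ) {s : ℝ} (hs : ∀ i, 0 < hX.eigenvalues i + s)
    (h : X *ᵥ y + (s : ℂ) • y = v) : res hX v s = (star v ⬝ᵥ y).re := by
  rw [co_dot hX v y, dotProduct, Complex.re_sum]
  unfold res
  refine Finset.sum_congr rfl fun i _ => ?_
  have h1 : co hX v i = ((hX.eigenvalues i + s : ℝ) : ℂ) * co hX y i := by
    rw [← h]
    have : co hX (X *ᵥ y + (s : ℂ) • y) i = co hX (X *ᵥ y) i + (s : ℂ) * co hX y i := by
      unfold co
      rw [Matrix.mulVec_add, Matrix.mulVec_smul]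
      rfl
    rw [this, co_mulVec]
    push_cast; ring
  have hp := (hs i)
  rw [Pi.star_apply, h1, norm_mul, Complex.star_def, map_mul, Complex.conj_ofReal]
  have : ((hX.eigenvalues i + s : ℝ) : ℂ) * (starRingEnd ℂ) (co hX y i) * co hX y i =
      (((hX.eigenvalues i + s) * Complex.normSq (co hX y i) : ℝ) : ℂ) := by
    rw [Complex.ofReal_mul, ← Complex.mul_conj]; ring
  rw [this, Complex.ofReal_re, Complex.normSq_eq_norm_sq, Complex.norm_real, Real.norm_eq_abs,
    abs_of_pos hp]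
  field_simp

/-- sum over the columns of `V`. -/
theorem sum_co_sq {k : Type*} [Fintype k] [DecidableEq k] (V : Matrix n k ℂ) (i : n) :
    ∑ j, ‖co hX (V *ᵥ Pi.single j 1) i‖ ^ 2 =
      (((hX.eigenvectorUnitary : Matrix n n ℂ)ᴴ * (V * Vᴴ) *
        (hX.eigenvectorUnitary : Matrix n n ℂ)) i i).re := by
  have e : (hX.eigenvectorUnitary : Matrix n n ℂ)ᴴ * (V * Vᴴ) *
        (hX.eigenvectorUnitary : Matrix n n ℂ) =
      ((hX.eigenvectorUnitary : Matrix n n ℂ)ᴴ * V) *
      ((hX.eigenvectorUnitary : Matrix n n ℂ)ᴴ * V)ᴴ := by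
    rw [Matrix.conjTranspose_mul, Matrix.conjTranspose_conjTranspose]
    simp only [Matrix.mul_assoc]
  rw [e, Matrix.mul_apply, Complex.re_sum]
  refine Finset.sum_congr rfl fun j _ => ?_
  have h1 : co hX (V *ᵥ Pi.single j 1) i = ((hX.eigenvectorUnitary : Matrix n n ℂ)ᴴ * V) i j := by
    unfold co
    rw [Matrix.mulVec_mulVec, Matrix.mulVec_single_one]
    rfl
  rw [h1, Matrix.conjTranspose_apply, Complex.star_def, Complex.mul_conj, Complex.ofReal_re,
    Complex.normSq_eq_norm_sq]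

theorem logTr_cols {k : Type*} [Fintype k] [DecidableEq k] (V : Matrix n k ℂ) :
    logTr X (V * Vᴴ) = ∑ j, ∑ i, ‖co hX (V *ᵥ Pi.single j 1) i‖ ^ 2 *
      Real.log (hX.eigenvalues i) := by
  unfold logTr
  rw [dif_pos hX, Finset.sum_comm]
  refine Finset.sum_congr rfl fun i _ => ?_
  rw [← Finset.sum_mul, sum_co_sq hX V i, mul_comm]

theorem sum_co_norm (v : n → ℂ) : ∑ i, ‖co hX v i‖ ^ 2 = ∑ i, ‖v i‖ ^ 2 := by
  rw [← sq_eq hX, dot_star_self_re]

end

theorem tendsto_log_sub {l κ : ℝ} (hκ : 0 < κ) :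
    Tendsto (fun L : ℝ => Real.log (l + κ * L) - Real.log L) atTop (𝓝 (Real.log κ)) := by
  have h1 : Tendsto (fun L : ℝ => l / L + κ) atTop (𝓝 κ) := by
    have : Tendsto (fun L : ℝ => l / L) atTop (𝓝 0) := tendsto_const_nhds.div_atTop tendsto_id
    simpa using this.add_const κ
  have h2 := (Real.continuousAt_log hκ.ne').tendsto.comp h1
  refine h2.congr' ?_
  have h3 : ∀ᶠ L : ℝ in atTop, 0 < l / L + κ := h1.eventually (lt_mem_nhds hκ)
  filter_upwards [h3, eventually_gt_atTop (0:ℝ)] with L hL hL0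
  have e : l + κ * L = (l / L + κ) * L := by field_simp
  simp only [Function.comp]
  rw [e, Real.log_mul hL.ne' hL0.ne']
  ring

/-! ### the `2 × 2` matrix -/

/-- the vector `(√a, √c)`. -/
noncomputable def vv (a c : ℝ) : Matrix Bool Unit ℂ :=
  Matrix.of fun s _ => if s then (√c : ℂ) else (√a : ℂ)

theorem vv_mul {a c : ℝ} (ha : 0 ≤ a) (hc : 0 ≤ c) :
    vv a c * (vv a c)ᴴ = mat2 a c √(a * c) := by
  have h1 : ((√a : ℝ) : ℂ) * ((√a : ℝ) : ℂ) = (a : ℂ) := by
    rw [← Complex.ofReal_mul, Real.mul_self_sqrt ha]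
  have h2 : ((√c : ℝ) : ℂ) * ((√c : ℝ) : ℂ) = (c : ℂ) := by
    rw [← Complex.ofReal_mul, Real.mul_self_sqrt hc]
  have h3 : ((√a : ℝ) : ℂ) * ((√c : ℝ) : ℂ) = ((√(a * c) : ℝ) : ℂ) := by
    rw [← Complex.ofReal_mul, Real.sqrt_mul ha]
  ext i j
  rw [Matrix.mul_apply]
  cases i <;> cases j <;>
    simp [vv, mat2, Matrix.conjTranspose_apply, Complex.conj_ofReal, h1, h2, h3, mul_comm]

theorem mat2_eq {a c r t : ℝ} (ha : 0 ≤ a) (hc : 0 ≤ c) :
    mat2 (a + r) (c + t) √(a * c) = vv a c * (vv a c)ᴴ +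
      Matrix.diagonal (fun b : Bool => if b then (t : ℂ) else (r : ℂ)) := by
  rw [vv_mul ha hc]
  ext i j
  cases i <;> cases j <;> simp [mat2]

theorem mat2_posDef {a c r t : ℝ} (ha : 0 ≤ a) (hc : 0 ≤ c) (hr : 0 < r) (ht : 0 < t) :
    (mat2 (a + r) (c + t) √(a * c)).PosDef := by
  rw [mat2_eq ha hc]
  refine (Matrix.PosDef.diagonal ?_).posSemidef_add (Matrix.posSemidef_self_mul_conjTranspose _)
  intro b
  cases b
  · simpa using hr
  · simpa using ht

theorem res_mat2 {a c r t s : ℝ} (ha : 0 ≤ a) (hc : 0 ≤ c) (hr : 0 < r) (ht : 0 < t)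
    (hs : 0 ≤ s) :
    res (mat2_posDef (r := r) (t := t) ha hc hr ht).1 (vv a c *ᵥ Pi.single () 1) s =
      (a * (s + t) + c * (s + r)) / den a c r t s := by
  have hden : 0 < den a c r t s := by unfold den; positivity
  have hpos := (mat2_posDef (r := r) (t := t) ha hc hr ht).eigenvalues_pos
  rw [res_eq_of_solve _ _ (fun b : Bool => if b then ((√c * (s + r) / den a c r t s : ℝ) : ℂ)
    else ((√a * (s + t) / den a c r t s : ℝ) : ℂ)) (fun i => by
      have := hpos i
      positivity)]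
  · rw [Matrix.mulVec_single_one, dotProduct, Fintype.sum_bool]
    simp only [Pi.star_apply, Matrix.col_apply, vv, Matrix.of_apply, if_true, Bool.false_eq_true,
      if_false, Complex.star_def, Complex.conj_ofReal]
    rw [← Complex.ofReal_mul, ← Complex.ofReal_mul, ← Complex.ofReal_add, Complex.ofReal_re]
    have h1 := Real.mul_self_sqrt ha
    have h2 := Real.mul_self_sqrt hc
    field_simp
    rw [Real.sq_sqrt ha, Real.sq_sqrt hc]
    ring
  · have h1 := Real.mul_self_sqrt ha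
    have h2 := Real.mul_self_sqrt hc
    funext b
    rw [Matrix.mulVec_single_one]
    simp only [Pi.add_apply, Pi.smul_apply, smul_eq_mul, Matrix.mulVec, dotProduct,
      Fintype.sum_bool, mat2, Matrix.of_apply, Matrix.col_apply, vv]
    cases b
    · simp only [Bool.false_eq_true, if_false, if_true]
      rw [← Complex.ofReal_mul, ← Complex.ofReal_mul, ← Complex.ofReal_mul, ← Complex.ofReal_add,
        ← Complex.ofReal_add]
      congr 1
      rw [Real.sqrt_mul ha]
      field_simp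
      rw [Real.sq_sqrt hc]
      unfold den
      ring
    · simp only [if_true, Bool.true_eq_false, Bool.false_eq_true, if_false]
      rw [← Complex.ofReal_mul, ← Complex.ofReal_mul, ← Complex.ofReal_mul, ← Complex.ofReal_add,
        ← Complex.ofReal_add]
      congr 1
      rw [Real.sqrt_mul ha]
      field_simp
      rw [Real.sq_sqrt ha]
      unfold den
      ring

/-! ### more helper facts -/

theorem diag_form {X : Matrix n n ℂ} (hX : X.IsHermitian) :
    (hX.eigenvectorUnitary : Matrix n n ℂ)ᴴ * X * (hX.eigenvectorUnitary : Matrix n n ℂ) =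
      Matrix.diagonal (fun j => (hX.eigenvalues j : ℂ)) := by
  have h := hX.conjStarAlgAut_star_eigenvectorUnitary
  rw [Unitary.conjStarAlgAut_star_apply] at h
  rw [← Matrix.star_eq_conjTranspose, h]
  rfl

theorem colsq {p q : Type*} [Fintype p] (B : Matrix p q ℂ) (k : q) :
    ∑ i, ‖B i k‖ ^ 2 = ((Bᴴ * B) k k).re := by
  rw [Matrix.mul_apply, Complex.re_sum]
  refine Finset.sum_congr rfl fun i _ => ?_
  rw [Matrix.conjTranspose_apply, Complex.star_def, mul_comm, Complex.mul_conj, Complex.ofReal_re,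
    Complex.normSq_eq_norm_sq]

theorem fromBlocks_posDef {R : Matrix n n ℂ} {T : Matrix m m ℂ} (hR : R.PosDef) (hT : T.PosDef) :
    (Matrix.fromBlocks R 0 0 T).PosDef := by
  refine Matrix.PosDef.of_dotProduct_mulVec_pos ?_ ?_
  · exact Matrix.IsHermitian.fromBlocks hR.1 (by simp) hT.1
  · intro x hx
    have e : x = Sum.elim (x ∘ Sum.inl) (x ∘ Sum.inr) := (Sum.elim_comp_inl_inr x).symm
    have e2 : star x = Sum.elim (star (x ∘ Sum.inl)) (star (x ∘ Sum.inr)) := by
      funext i; cases i <;> rfl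
    rw [e2]
    conv_rhs => rw [e, Matrix.fromBlocks_mulVec]
    simp only [Matrix.zero_mulVec, add_zero, zero_add, sumElim_dotProduct_sumElim,
      Sum.elim_comp_inl, Sum.elim_comp_inr]
    by_cases h1 : x ∘ Sum.inl = 0
    · have h2 : x ∘ Sum.inr ≠ 0 := by
        intro h2
        apply hx
        rw [e, h1, h2]
        funext i; cases i <;> rfl
      have := hT.dotProduct_mulVec_pos h2
      rw [h1]
      simpa using this
    · exact add_pos_of_pos_of_nonneg (hR.dotProduct_mulVec_pos h1)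
        (hT.posSemidef.dotProduct_mulVec_nonneg _)

theorem quad_self_conj {k : Type*} [Fintype k] [DecidableEq k] (V : Matrix n k ℂ) (u : n → ℂ) :
    (star u ⬝ᵥ ((V * Vᴴ) *ᵥ u)).re = ∑ j, ‖(Vᴴ *ᵥ u) j‖ ^ 2 := by
  rw [← Matrix.mulVec_mulVec, Matrix.dotProduct_mulVec, ← dot_star_self_re, Matrix.star_mulVec,
    Matrix.conjTranspose_conjTranspose]

end Crest.Agent.H29.P1G
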