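import Mathlib
import Crest.Agent.H29.Defs
import Crest.Agent.H29.Ent
import Crest.Agent.H29.Klein
import Crest.Agent.H29.P1genAux

set_option autoImplicit false
set_option linter.unusedSectionVars false

open Crest.Quantum Crest.MathPhysics.AmpDamp Matrix Filter Topology
open scoped ComplexOrder Kronecker

namespace Crest.Agent.H29

open P1G

theorem P1G.MM_eq {K H₀ H₁ : Type*} [Fintype K] (V₀ : Matrix H₀ K ℂ) (V₁ : Matrix H₁ K ℂ)
    (R : Matrix H₀ H₀ ℂ) (T : Matrix H₁ H₁ ℂ) :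
    MM V₀ V₁ R T = fromRows V₀ V₁ * (fromRows V₀ V₁)ᴴ + fromBlocks R 0 0 T := by
  unfold MM
  rw [conjTranspose_fromRows_eq_fromCols_conjTranspose, fromRows_mul_fromCols, fromBlocks_add]
  simp

theorem P1G.MM_posDef {K H₀ H₁ : Type*} [Fintype K] [Fintype H₀] [DecidableEq H₀]
    [Fintype H₁] [DecidableEq H₁] (V₀ : Matrix H₀ K ℂ) (V₁ : Matrix H₁ K ℂ)
    {R : Matrix H₀ H₀ ℂ} {T : Matrix H₁ H₁ ℂ} (hR : R.PosDef) (hT : T.PosDef) :
    (MM V₀ V₁ R T).PosDef := by
  rw [P1G.MM_eq]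
  exact Matrix.PosDef.posSemidef_add (Matrix.posSemidef_self_mul_conjTranspose _)
    (fromBlocks_posDef hR hT)

/-- The statement of `P1abs` for fixed index types. -/
def P1absProp (K H₀ J : Type*) [Fintype K] [DecidableEq K] [Fintype H₀] [DecidableEq H₀]
    [Fintype J] [DecidableEq J] : Prop :=
  ∀ (V₀ : Matrix H₀ K ℂ) (V₁ : Matrix J K ℂ)
    (R : Matrix H₀ H₀ ℂ) (T : Matrix J J ℂ) (α : K → ℝ) (x : J → ℝ) (κ : K → ℝ)
    (_hV₀ : V₀ᴴ * V₀ = Matrix.diagonal (fun k => (α k : ℂ)))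
    (_hV₁ : V₁ * V₁ᴴ = Matrix.diagonal (fun j => (x j : ℂ)))
    (_hx : ∀ j, 0 < x j) (_hR : R.PosSemidef) (_hT : T.PosSemidef)
    (a c r t L : ℝ) (_ha : a = ∑ k, α k) (_ha0 : 0 < a) (_hc : c = ∑ j, x j) (_hc0 : 0 < c)
    (_hr : r = R.trace.re) (_ht : t = T.trace.re) (_ht0 : 0 < t) (_hrt : t ≤ r) (_hL : 0 < L)
    (_hκ : ∀ k, 0 < κ k) (_hκa : ∀ k, α k ≠ 0 → κ k * a = α k)
    (ρ : K → ℝ → ℝ) (_hρc : ∀ k, ContinuousOn (ρ k) (Set.Ici 0))
    (_hρ : ∀ k, ∀ s, 0 ≤ s → ∀ (y : H₀ → ℂ) (w : J → ℂ),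
      2 * (star y ⬝ᵥ (V₀ *ᵥ Pi.single k 1) + star w ⬝ᵥ (V₁ *ᵥ Pi.single k 1)).re
        - ∑ l, ‖star y ⬝ᵥ (V₀ *ᵥ Pi.single l 1) + star w ⬝ᵥ (V₁ *ᵥ Pi.single l 1)‖ ^ 2
        - (star y ⬝ᵥ (R *ᵥ y)).re - (star w ⬝ᵥ (T *ᵥ w)).re
        - s * ((star y ⬝ᵥ y).re + (star w ⬝ᵥ w).re) ≤ ρ k s),
    (∫ s in (0:ℝ)..L, (a * (s + t) + c * (s + r)) / den a c r t s)
      + c * Real.log c - ∑ j, x j * Real.log (x j)
      + ∑ k, (∑ j, ‖V₁ j k‖ ^ 2) * Real.log (κ k)
      - c * ∑ k ∈ Finset.univ.filter (fun k => α k = 0), κ k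
    ≤ ∑ k, ∫ s in (0:ℝ)..L, κ k * ρ k (κ k * s)

theorem P1gen_of {K H₀ H₁ : Type*} [Fintype K] [DecidableEq K] [Fintype H₀] [DecidableEq H₀]
    [Fintype H₁] [DecidableEq H₁] [Nonempty H₁] (V₀ : Matrix H₀ K ℂ) (V₁ : Matrix H₁ K ℂ)
    (R : Matrix H₀ H₀ ℂ) (T : Matrix H₁ H₁ ℂ) (hR : R.PosDef) (hT : T.PosDef)
    (hC : (V₁ * V₁ᴴ).PosDef) (ha : 0 < (V₀ * V₀ᴴ).trace.re)
    (hrt : T.trace.re ≤ R.trace.re) (hP1 : P1absProp K H₀ H₁) :
    Sh (V₀ * V₀ᴴ) + Sh (V₁ * V₁ᴴ)
      - logTr (mat2 ((V₀ * V₀ᴴ).trace.re + R.trace.re) ((V₁ * V₁ᴴ).trace.re + T.trace.re)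
          (√((V₀ * V₀ᴴ).trace.re * (V₁ * V₁ᴴ).trace.re)))
        (mat2 (V₀ * V₀ᴴ).trace.re (V₁ * V₁ᴴ).trace.re
          (√((V₀ * V₀ᴴ).trace.re * (V₁ * V₁ᴴ).trace.re)))
    ≤ - logTr (MM V₀ V₁ R T) (MM V₀ V₁ 0 0) := by
  classical
  -- diagonalisations
  have hA : (V₀ᴴ * V₀).IsHermitian := Matrix.isHermitian_conjTranspose_mul_self V₀
  set U : Matrix K K ℂ := (hA.eigenvectorUnitary : Matrix K K ℂ) with hU
  set α : K → ℝ := hA.eigenvalues with hα
  have hUU : Uᴴ * U = 1 := Unitary.coe_star_mul_self _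
  have hUU' : U * Uᴴ = 1 := Unitary.coe_mul_star_self _
  set W : Matrix H₁ H₁ ℂ := (hC.1.eigenvectorUnitary : Matrix H₁ H₁ ℂ) with hW
  set x : H₁ → ℝ := hC.1.eigenvalues with hx
  have hWW : Wᴴ * W = 1 := Unitary.coe_star_mul_self _
  have hWW' : W * Wᴴ = 1 := Unitary.coe_mul_star_self _
  set a : ℝ := (V₀ * V₀ᴴ).trace.re with hadef
  set c : ℝ := (V₁ * V₁ᴴ).trace.re with hcdef
  set r : ℝ := R.trace.re with hrdef
  set t : ℝ := T.trace.re with htdef
  have hα0 : ∀ k, 0 ≤ α k := (Matrix.posSemidef_conjTranspose_mul_self V₀).eigenvalues_nonneg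
  have hx0 : ∀ j, 0 < x j := hC.eigenvalues_pos
  have hasum : a = ∑ k, α k := by
    rw [hadef, Matrix.trace_mul_comm, trace_re_eq hA]
  have hcsum : c = ∑ j, x j := by rw [hcdef, trace_re_eq hC.1]
  have hc : 0 < c := by
    rw [hcsum]; exact Finset.sum_pos (fun j _ => hx0 j) Finset.univ_nonempty
  have ht : 0 < t := by
    rw [htdef, trace_re_eq hT.1]
    exact Finset.sum_pos (fun j _ => hT.eigenvalues_pos j) Finset.univ_nonempty
  have hr : 0 < r := lt_of_lt_of_le ht hrt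
  -- the big matrix
  set M := MM V₀ V₁ R T with hM
  have hMp : M.PosDef := P1G.MM_posDef V₀ V₁ hR hT
  set V : Matrix (H₀ ⊕ H₁) K ℂ := fromRows (V₀ * U) (V₁ * U) with hV
  have hVV : V * Vᴴ = MM V₀ V₁ 0 0 := by
    rw [P1G.MM_eq, hV, ← fromRows_mul, Matrix.conjTranspose_mul, Matrix.mul_assoc,
      ← Matrix.mul_assoc U, hUU', Matrix.one_mul, fromBlocks_zero, add_zero]
  set γ : K → ℝ := fun k => ∑ i, ‖V i k‖ ^ 2 with hγ
  set β : K → ℝ := fun k => ∑ j, ‖(Wᴴ * V₁ * U) j k‖ ^ 2 with hβ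
  have hV0U : (V₀ * U)ᴴ * (V₀ * U) = Matrix.diagonal (fun k => (α k : ℂ)) := by
    rw [Matrix.conjTranspose_mul, Matrix.mul_assoc, ← Matrix.mul_assoc V₀ᴴ, ← Matrix.mul_assoc]
    exact diag_form hA
  have hγβ : ∀ k, γ k = α k + β k := by
    intro k
    have h1 : ∑ i, ‖(V₀ * U) i k‖ ^ 2 = α k := by
      rw [colsq, hV0U, Matrix.diagonal_apply_eq, Complex.ofReal_re]
    have h2 : ∑ i, ‖(V₁ * U) i k‖ ^ 2 = β k := by
      simp only [hβ]
      rw [colsq, colsq]
      congr 2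
      rw [Matrix.mul_assoc Wᴴ, Matrix.conjTranspose_mul Wᴴ, Matrix.conjTranspose_conjTranspose,
        Matrix.mul_assoc (V₁ * U)ᴴ, ← Matrix.mul_assoc W, hWW', Matrix.one_mul]
    simp only [hγ, hV, Fintype.sum_sum_type, fromRows_apply_inl, fromRows_apply_inr]
    rw [h1, h2]
  set l := hMp.1.eigenvalues with hl
  have hl0 : ∀ i, 0 < l i := hMp.eigenvalues_pos
  set m2 := mat2_posDef (r := r) (t := t) ha.le hc.le hr ht with hm2
  set w : Bool → ℝ := fun i => ‖co m2.1 (vv a c *ᵥ Pi.single () 1) i‖ ^ 2 with hw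
  -- the inequality for each ε, L
  have key : ∀ ε : ℝ, 0 < ε → ∀ L : ℝ, 0 < L →
      (∑ i, w i * (Real.log (m2.1.eigenvalues i + 1 * L) - Real.log (m2.1.eigenvalues i)))
      + c * Real.log c - ∑ j, x j * Real.log (x j)
      + ∑ k, β k * Real.log (if α k = 0 then ε else α k / a)
      - c * ∑ k ∈ Finset.univ.filter (fun k => α k = 0), ε ≤
      ∑ k, ∑ i, ‖co hMp.1 (V *ᵥ Pi.single k 1) i‖ ^ 2 *
        (Real.log (l i + (if α k = 0 then ε else α k / a) * L) - Real.log (l i)) := by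
    intro ε hε L hL
    set κ : K → ℝ := fun k => if α k = 0 then ε else α k / a with hκ
    have hκ0 : ∀ k, 0 < κ k := by
      intro k
      simp only [hκ]
      split_ifs with h
      · exact hε
      · exact div_pos (lt_of_le_of_ne (hα0 k) (Ne.symm h)) ha
    have hmain := hP1 (V₀ * U) (Wᴴ * V₁ * U) R (Wᴴ * T * W) α x κ hV0U (by
        rw [Matrix.conjTranspose_mul, Matrix.conjTranspose_mul, Matrix.conjTranspose_conjTranspose,
          Matrix.mul_assoc (Wᴴ * V₁), ← Matrix.mul_assoc U, hUU', Matrix.one_mul,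
          ← Matrix.mul_assoc, Matrix.mul_assoc Wᴴ]
        exact diag_form hC.1) hx0 hR.posSemidef (hT.posSemidef.conjTranspose_mul_mul_same W)
      a c r t L hasum ha hcsum hc rfl (by
        rw [Matrix.trace_mul_comm, ← Matrix.mul_assoc, hWW', Matrix.one_mul]) ht hrt hL hκ0
      (by
        intro k hk
        simp only [hκ, if_neg hk]
        field_simp)
      (fun k => res hMp.1 (V *ᵥ Pi.single k 1)) (fun k => res_continuous _ _ hl0)
      (by
        intro k s hs y z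
        set u : H₀ ⊕ H₁ → ℂ := Sum.elim y (W *ᵥ z) with hu
        have hsu : star u = Sum.elim (star y) (star (W *ᵥ z)) := by
          funext i; cases i <;> rfl
        have e1 : ∀ q : K, star y ⬝ᵥ ((V₀ * U) *ᵥ Pi.single q 1) +
            star z ⬝ᵥ ((Wᴴ * V₁ * U) *ᵥ Pi.single q 1) = star u ⬝ᵥ (V *ᵥ Pi.single q 1) := by
          intro q
          rw [hsu, hV, fromRows_mulVec, sumElim_dotProduct_sumElim, star_mulVec_dot,
            Matrix.mulVec_mulVec, ← Matrix.mul_assoc]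
        have e2 : (star y ⬝ᵥ (R *ᵥ y)).re + (star z ⬝ᵥ ((Wᴴ * T * W) *ᵥ z)).re =
            (star u ⬝ᵥ (fromBlocks R 0 0 T *ᵥ u)).re := by
          rw [hsu, hu, Matrix.fromBlocks_mulVec]
          simp only [Sum.elim_comp_inl, Sum.elim_comp_inr, Matrix.zero_mulVec, add_zero, zero_add,
            sumElim_dotProduct_sumElim]
          rw [Complex.add_re, star_mulVec_dot]
          simp only [Matrix.mulVec_mulVec, Matrix.mul_assoc]
        have e3 : (star y ⬝ᵥ y).re + (star z ⬝ᵥ z).re = (star u ⬝ᵥ u).re := by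
          rw [hsu, hu, sumElim_dotProduct_sumElim, Complex.add_re, star_mulVec_dot,
            Matrix.mulVec_mulVec, hWW, Matrix.one_mulVec]
        have e4 : ∑ q, ‖star u ⬝ᵥ (V *ᵥ Pi.single q 1)‖ ^ 2 =
            (star u ⬝ᵥ ((V * Vᴴ) *ᵥ u)).re := by
          rw [quad_self_conj]
          refine Finset.sum_congr rfl fun q _ => ?_
          congr 1
          rw [← norm_star, Matrix.mulVec_single_one]
          congr 1
          rw [dotProduct, star_sum, Matrix.mulVec, dotProduct]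
          refine Finset.sum_congr rfl fun i _ => ?_
          rw [star_mul', Pi.star_apply, star_star, Matrix.conjTranspose_apply, Matrix.col_apply,
            mul_comm]
        have e5 : (star u ⬝ᵥ (M *ᵥ u)).re = (star u ⬝ᵥ ((V * Vᴴ) *ᵥ u)).re +
            (star u ⬝ᵥ (fromBlocks R 0 0 T *ᵥ u)).re := by
          rw [hVV, hM, P1G.MM_eq V₀ V₁ R T, P1G.MM_eq V₀ V₁ 0 0, fromBlocks_zero, add_zero,
            Matrix.add_mulVec, dotProduct_add, Complex.add_re]
        have hb := quad_bound hMp.1 u (V *ᵥ Pi.single k 1) (s := s)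
          (fun i => by have := hl0 i; positivity)
        simp only [e1]
        rw [e4, e3]
        linarith)
    have hI : (∫ s in (0:ℝ)..L, (a * (s + t) + c * (s + r)) / den a c r t s) =
        ∑ i, w i * (Real.log (m2.1.eigenvalues i + 1 * L) - Real.log (m2.1.eigenvalues i)) := by
      rw [← res_integral m2.1 (vv a c *ᵥ Pi.single () 1) m2.eigenvalues_pos one_pos hL]
      refine intervalIntegral.integral_congr fun s hs => ?_
      rw [Set.uIcc_of_le hL.le] at hs
      simp only [one_mul]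
      rw [res_mat2 ha.le hc.le hr ht hs.1]
    have hJ : ∀ k, (∫ s in (0:ℝ)..L, κ k * res hMp.1 (V *ᵥ Pi.single k 1) (κ k * s)) =
        ∑ i, ‖co hMp.1 (V *ᵥ Pi.single k 1) i‖ ^ 2 *
          (Real.log (l i + κ k * L) - Real.log (l i)) :=
      fun k => res_integral hMp.1 _ hl0 (hκ0 k) hL
    rw [hI] at hmain
    simp only [hJ] at hmain
    have hfil : ∑ k ∈ Finset.univ.filter (fun k => α k = 0), κ k =
        ∑ k ∈ Finset.univ.filter (fun k => α k = 0), ε := by
      refine Finset.sum_congr rfl fun k hk => ?_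
      simp only [hκ, if_pos (Finset.mem_filter.mp hk).2]
    rw [hfil] at hmain
    exact hmain
  -- the sums of weights
  have hwsum : ∑ i, w i = a + c := by
    simp only [hw]
    rw [sum_co_norm, Matrix.mulVec_single_one, Fintype.sum_bool]
    simp only [Matrix.col_apply, vv, Matrix.of_apply, if_true, Bool.false_eq_true, if_false,
      Complex.norm_real, Real.norm_eq_abs, sq_abs, Real.sq_sqrt ha.le, Real.sq_sqrt hc.le]
    ring
  have hpsum : ∀ k, ∑ i, ‖co hMp.1 (V *ᵥ Pi.single k 1) i‖ ^ 2 = γ k := by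
    intro k
    rw [sum_co_norm, Matrix.mulVec_single_one]
    rfl
  have hβsum : ∑ k, β k = c := by
    have h1 : ∀ j, ∑ k, ‖(Wᴴ * V₁ * U) j k‖ ^ 2 = x j := by
      intro j
      have h2 : (Wᴴ * V₁ * U) * (Wᴴ * V₁ * U)ᴴ = Matrix.diagonal (fun j => (x j : ℂ)) := by
        rw [Matrix.conjTranspose_mul, Matrix.conjTranspose_mul, Matrix.conjTranspose_conjTranspose,
          Matrix.mul_assoc (Wᴴ * V₁), ← Matrix.mul_assoc U, hUU', Matrix.one_mul,
          ← Matrix.mul_assoc, Matrix.mul_assoc Wᴴ]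
        exact diag_form hC.1
      have h3 := colsq (Wᴴ * V₁ * U)ᴴ j
      rw [Matrix.conjTranspose_conjTranspose, h2, Matrix.diagonal_apply_eq, Complex.ofReal_re] at h3
      rw [← h3]
      refine Finset.sum_congr rfl fun k _ => ?_
      rw [Matrix.conjTranspose_apply, norm_star]
    simp only [hβ]
    rw [Finset.sum_comm, hcsum]
    exact Finset.sum_congr rfl fun j _ => h1 j
  have hγsum : ∑ k, γ k = a + c := by
    rw [Finset.sum_congr rfl fun k _ => hγβ k, Finset.sum_add_distrib, ← hasum, hβsum]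
  -- let L → ∞
  have key2 : ∀ ε : ℝ, 0 < ε →
      (- ∑ i, w i * Real.log (m2.1.eigenvalues i))
      + c * Real.log c - ∑ j, x j * Real.log (x j)
      + ∑ k, β k * Real.log (if α k = 0 then ε else α k / a)
      - c * ∑ k ∈ Finset.univ.filter (fun k => α k = 0), ε ≤
      ∑ k, γ k * Real.log (if α k = 0 then ε else α k / a)
      - ∑ k, ∑ i, ‖co hMp.1 (V *ᵥ Pi.single k 1) i‖ ^ 2 * Real.log (l i) := by
    intro ε hε
    set κ : K → ℝ := fun k => if α k = 0 then ε else α k / a with hκ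
    have hκ0 : ∀ k, 0 < κ k := by
      intro k
      simp only [hκ]
      split_ifs with h
      · exact hε
      · exact div_pos (lt_of_le_of_ne (hα0 k) (Ne.symm h)) ha
    have hl1 : Tendsto (fun L : ℝ => (∑ i, w i * ((Real.log (m2.1.eigenvalues i + 1 * L) -
        Real.log L) - Real.log (m2.1.eigenvalues i)))
        + c * Real.log c - ∑ j, x j * Real.log (x j)
        + ∑ k, β k * Real.log (κ k)
        - c * ∑ k ∈ Finset.univ.filter (fun k => α k = 0), ε) atTop
        (𝓝 ((∑ i, w i * (Real.log 1 - Real.log (m2.1.eigenvalues i)))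
        + c * Real.log c - ∑ j, x j * Real.log (x j)
        + ∑ k, β k * Real.log (κ k)
        - c * ∑ k ∈ Finset.univ.filter (fun k => α k = 0), ε)) := by
      refine Tendsto.sub_const (Tendsto.add_const _ (Tendsto.sub_const (Tendsto.add_const _ ?_) _)) _
      exact tendsto_finsetSum _ fun i _ =>
        ((tendsto_log_sub one_pos).sub_const _).const_mul _
    have hl2 : Tendsto (fun L : ℝ => ∑ k, ∑ i, ‖co hMp.1 (V *ᵥ Pi.single k 1) i‖ ^ 2 *
        ((Real.log (l i + κ k * L) - Real.log L) - Real.log (l i))) atTop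
        (𝓝 (∑ k, ∑ i, ‖co hMp.1 (V *ᵥ Pi.single k 1) i‖ ^ 2 *
        (Real.log (κ k) - Real.log (l i)))) := by
      exact tendsto_finsetSum _ fun k _ => tendsto_finsetSum _ fun i _ =>
        ((tendsto_log_sub (hκ0 k)).sub_const _).const_mul _
    have hle := le_of_tendsto_of_tendsto hl1 hl2 (by
      filter_upwards [eventually_gt_atTop (0:ℝ)] with L hL
      have hk := key ε hε L hL
      have e1 : ∑ i, w i * ((Real.log (m2.1.eigenvalues i + 1 * L) -
          Real.log L) - Real.log (m2.1.eigenvalues i)) =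
          (∑ i, w i * (Real.log (m2.1.eigenvalues i + 1 * L) - Real.log (m2.1.eigenvalues i)))
          - (a + c) * Real.log L := by
        rw [← hwsum, Finset.sum_mul, ← Finset.sum_sub_distrib]
        refine Finset.sum_congr rfl fun i _ => ?_
        ring
      have e2 : ∑ k, ∑ i, ‖co hMp.1 (V *ᵥ Pi.single k 1) i‖ ^ 2 *
          ((Real.log (l i + κ k * L) - Real.log L) - Real.log (l i)) =
          (∑ k, ∑ i, ‖co hMp.1 (V *ᵥ Pi.single k 1) i‖ ^ 2 *
          (Real.log (l i + κ k * L) - Real.log (l i))) - (a + c) * Real.log L := by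
        rw [← hγsum, Finset.sum_mul, ← Finset.sum_sub_distrib]
        refine Finset.sum_congr rfl fun k _ => ?_
        rw [← hpsum k, Finset.sum_mul, ← Finset.sum_sub_distrib]
        refine Finset.sum_congr rfl fun i _ => ?_
        ring
      rw [e1, e2]
      simp only [hκ]
      linarith)
    have e3 : ∑ i, w i * (Real.log 1 - Real.log (m2.1.eigenvalues i)) =
        - ∑ i, w i * Real.log (m2.1.eigenvalues i) := by
      rw [← Finset.sum_neg_distrib]
      refine Finset.sum_congr rfl fun i _ => ?_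
      rw [Real.log_one]; ring
    have e4 : ∑ k, ∑ i, ‖co hMp.1 (V *ᵥ Pi.single k 1) i‖ ^ 2 *
        (Real.log (κ k) - Real.log (l i)) = ∑ k, γ k * Real.log (κ k)
        - ∑ k, ∑ i, ‖co hMp.1 (V *ᵥ Pi.single k 1) i‖ ^ 2 * Real.log (l i) := by
      rw [← Finset.sum_sub_distrib]
      refine Finset.sum_congr rfl fun k _ => ?_
      rw [← hpsum k, Finset.sum_mul, ← Finset.sum_sub_distrib]
      refine Finset.sum_congr rfl fun i _ => ?_
      ring
    rw [e3, e4] at hle
    exact hle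
  -- let ε → 0
  have hlogs : ∀ ε : ℝ, ∑ k, γ k * Real.log (if α k = 0 then ε else α k / a) -
      ∑ k, β k * Real.log (if α k = 0 then ε else α k / a) =
      ∑ k, α k * Real.log (α k) - a * Real.log a := by
    intro ε
    rw [← Finset.sum_sub_distrib]
    have : ∀ k ∈ (Finset.univ : Finset K), γ k * Real.log (if α k = 0 then ε else α k / a) -
        β k * Real.log (if α k = 0 then ε else α k / a) =
        α k * Real.log (α k) - α k * Real.log a := by
      intro k _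
      rw [hγβ k]
      split_ifs with h
      · rw [h]; ring
      · rw [Real.log_div h ha.ne']; ring
    rw [Finset.sum_congr rfl this, Finset.sum_sub_distrib, ← Finset.sum_mul, ← hasum]
  have hE0 : Sh (V₀ * V₀ᴴ) = a * Real.log a - ∑ k, α k * Real.log (α k) := by
    unfold Sh
    rw [vnEntropy_mul_conjTranspose, vnEntropy_eq_sum hA, ← hadef, Real.negMulLog]
    have : ∑ i, Real.negMulLog (hA.eigenvalues i) = - ∑ k, α k * Real.log (α k) := by
      rw [← Finset.sum_neg_distrib]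
      refine Finset.sum_congr rfl fun k _ => ?_
      rw [Real.negMulLog]; ring
    rw [this]; ring
  have hE1 : Sh (V₁ * V₁ᴴ) = c * Real.log c - ∑ j, x j * Real.log (x j) := by
    unfold Sh
    rw [vnEntropy_eq_sum hC.1, ← hcdef, Real.negMulLog]
    have : ∑ i, Real.negMulLog (hC.1.eigenvalues i) = - ∑ j, x j * Real.log (x j) := by
      rw [← Finset.sum_neg_distrib]
      refine Finset.sum_congr rfl fun k _ => ?_
      rw [Real.negMulLog]; ring
    rw [this]; ring
  have hT1 : logTr (mat2 (a + r) (c + t) √(a * c)) (mat2 a c √(a * c)) =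
      ∑ i, w i * Real.log (m2.1.eigenvalues i) := by
    rw [← vv_mul ha.le hc.le, logTr_cols m2.1]
    simp [hw]
  have hT2 : logTr M (MM V₀ V₁ 0 0) =
      ∑ k, ∑ i, ‖co hMp.1 (V *ᵥ Pi.single k 1) i‖ ^ 2 * Real.log (l i) := by
    rw [← hVV, logTr_cols hMp.1]
  rw [hE0, hE1, hT1, hT2]
  refine le_of_forall_pos_le_add fun δ hδ => ?_
  set N : ℝ := ((Finset.univ.filter (fun k => α k = 0)).card : ℝ) with hN
  have hN0 : 0 ≤ N := by positivity
  have hk := key2 (δ / (c * (N + 1))) (by positivity)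
  have hs := hlogs (δ / (c * (N + 1)))
  have hcard : c * ∑ k ∈ Finset.univ.filter (fun k => α k = 0), (δ / (c * (N + 1))) ≤ δ := by
    rw [Finset.sum_const, nsmul_eq_mul, ← hN]
    have : c * (N * (δ / (c * (N + 1)))) = δ * (N / (N + 1)) := by field_simp
    rw [this]
    have h1 : N / (N + 1) ≤ 1 := by rw [div_le_one (by positivity)]; linarith
    nlinarith
  linarith

end Crest.Agent.H29
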