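import Mathlib
import Crest.Agent.H29.Defs
import Crest.Agent.H29.P1genOf
import Crest.Agent.H29.P1abs

set_option autoImplicit false

open Crest.Quantum Crest.MathPhysics.AmpDamp Matrix Filter Topology
open scoped ComplexOrder Kronecker

namespace Crest.Agent.H29

/-- The key inequality, differential form, in the case `Tr T ≤ Tr R`. -/
theorem P1gen {K H₀ H₁ : Type*} [Fintype K] [DecidableEq K] [Fintype H₀] [DecidableEq H₀]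
    [Fintype H₁] [DecidableEq H₁] [Nonempty H₁] (V₀ : Matrix H₀ K ℂ) (V₁ : Matrix H₁ K ℂ)
    (R : Matrix H₀ H₀ ℂ) (T : Matrix H₁ H₁ ℂ) (hR : R.PosDef) (hT : T.PosDef)
    (hC : (V₁ * V₁ᴴ).PosDef) (ha : 0 < (V₀ * V₀ᴴ).trace.re)
    (hrt : T.trace.re ≤ R.trace.re) :
    Sh (V₀ * V₀ᴴ) + Sh (V₁ * V₁ᴴ)
      - logTr (mat2 ((V₀ * V₀ᴴ).trace.re + R.trace.re) ((V₁ * V₁ᴴ).trace.re + T.trace.re)
          (√((V₀ * V₀ᴴ).trace.re * (V₁ * V₁ᴴ).trace.re)))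
        (mat2 (V₀ * V₀ᴴ).trace.re (V₁ * V₁ᴴ).trace.re
          (√((V₀ * V₀ᴴ).trace.re * (V₁ * V₁ᴴ).trace.re)))
    ≤ - logTr (MM V₀ V₁ R T) (MM V₀ V₁ 0 0) :=
  P1gen_of V₀ V₁ R T hR hT hC ha hrt P1abs

end Crest.Agent.H29
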