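import Mathlib
import Crest.Agent.H29.Defs
import Crest.Agent.H29.Klein
import Crest.Agent.H29.P1gen

set_option autoImplicit false

open Crest.Quantum Crest.MathPhysics.AmpDamp Matrix Filter Topology
open scoped ComplexOrder Kronecker

namespace Crest.Agent.H29

section prelim

set_option linter.unusedSectionVars false

variable {K H₀ H₁ : Type*} [Fintype K] [DecidableEq K] [Fintype H₀] [DecidableEq H₀]
    [Fintype H₁] [DecidableEq H₁]

theorem MM_eq (V₀ : Matrix H₀ K ℂ) (V₁ : Matrix H₁ K ℂ)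
    (R : Matrix H₀ H₀ ℂ) (T : Matrix H₁ H₁ ℂ) :
    MM V₀ V₁ R T = MM V₀ V₁ 0 0 + Matrix.fromBlocks R 0 0 T := by
  simp [MM, Matrix.fromBlocks_add]

theorem MM_smul (V₀ : Matrix H₀ K ℂ) (V₁ : Matrix H₁ K ℂ) {θ : ℝ} (hθ : 0 ≤ θ) :
    MM (((√θ : ℝ) : ℂ) • V₀) (((√θ : ℝ) : ℂ) • V₁) 0 0 = (θ : ℂ) • MM V₀ V₁ 0 0 := by
  simp [MM, Matrix.fromBlocks_smul, Matrix.conjTranspose_smul, smul_smul,
    Real.mul_self_sqrt hθ]

theorem MM_psd (V₀ : Matrix H₀ K ℂ) (V₁ : Matrix H₁ K ℂ) : (MM V₀ V₁ 0 0).PosSemidef := by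
  have h : MM V₀ V₁ 0 0 = Matrix.fromRows V₀ V₁ * (Matrix.fromRows V₀ V₁)ᴴ := by
    ext i j
    rcases i with i | i <;> rcases j with j | j <;>
      simp [MM, Matrix.mul_apply, Matrix.conjTranspose_apply]
  rw [h]
  exact Matrix.posSemidef_self_mul_conjTranspose _

theorem posDef_blocks {R : Matrix H₀ H₀ ℂ} {T : Matrix H₁ H₁ ℂ} (hR : R.PosDef)
    (hT : T.PosDef) : (Matrix.fromBlocks R 0 0 T).PosDef := by
  refine Matrix.PosDef.of_dotProduct_mulVec_pos ?_ fun {x} hx => ?_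
  · rw [Matrix.isHermitian_fromBlocks_iff]
    exact ⟨hR.1, by simp, by simp, hT.1⟩
  · have e : star x ⬝ᵥ (Matrix.fromBlocks R 0 0 T *ᵥ x) =
        star (x ∘ Sum.inl) ⬝ᵥ (R *ᵥ (x ∘ Sum.inl)) + star (x ∘ Sum.inr) ⬝ᵥ (T *ᵥ (x ∘ Sum.inr)) := by
      rw [Matrix.fromBlocks_mulVec]
      simp [dotProduct, Fintype.sum_sum_type]
    rw [e]
    by_cases h0 : x ∘ Sum.inl = 0
    · have h1 : x ∘ Sum.inr ≠ 0 := by
        intro h1
        apply hx
        funext i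
        rcases i with i | i
        · exact congrFun h0 i
        · exact congrFun h1 i
      rw [h0]
      simpa using hT.dotProduct_mulVec_pos h1
    · exact add_pos_of_pos_of_nonneg (hR.dotProduct_mulVec_pos h0)
        (hT.posSemidef.dotProduct_mulVec_nonneg _)

theorem mat2_add (p q b p' q' b' : ℝ) :
    mat2 (p + p') (q + q') (b + b') = mat2 p q b + mat2 p' q' b' := by
  ext s t
  cases s <;> cases t <;> simp [mat2]

theorem mat2_smul (p q b θ : ℝ) : mat2 (θ * p) (θ * q) (θ * b) = (θ : ℂ) • mat2 p q b := by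
  ext s t
  cases s <;> cases t <;> simp [mat2]

theorem mat2_trace (p q b : ℝ) : (mat2 p q b).trace.re = p + q := by
  simp [mat2, Matrix.trace, add_comm]

theorem mat2_psd {a c : ℝ} (ha : 0 ≤ a) (hc : 0 ≤ c) : (mat2 a c (√(a * c))).PosSemidef := by
  have h : mat2 a c (√(a * c)) = Matrix.vecMulVec (fun s : Bool => if s then ((√c : ℝ) : ℂ) else ((√a : ℝ) : ℂ))
      (star (fun s : Bool => if s then ((√c : ℝ) : ℂ) else ((√a : ℝ) : ℂ))) := by
    have h1 : ((√a : ℝ) : ℂ) * ((√a : ℝ) : ℂ) = a := by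
      rw [← Complex.ofReal_mul, Real.mul_self_sqrt ha]
    have h2 : ((√c : ℝ) : ℂ) * ((√c : ℝ) : ℂ) = c := by
      rw [← Complex.ofReal_mul, Real.mul_self_sqrt hc]
    have h3 : ((√(a * c) : ℝ) : ℂ) = ((√a : ℝ) : ℂ) * ((√c : ℝ) : ℂ) := by
      rw [← Complex.ofReal_mul, Real.sqrt_mul ha]
    ext s t
    cases s <;> cases t <;> simp [mat2, Matrix.vecMulVec_apply, h1, h2, h3, mul_comm]
  rw [h]
  exact Matrix.posSemidef_vecMulVec_self_star _

theorem mat2_diag_posDef {r t : ℝ} (hr : 0 < r) (ht : 0 < t) : (mat2 r t 0).PosDef := by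
  have h : mat2 r t 0 = Matrix.diagonal (fun s : Bool => if s then (t : ℂ) else (r : ℂ)) := by
    ext s t
    cases s <;> cases t <;> simp [mat2]
  rw [h, Matrix.posDef_diagonal_iff]
  intro s
  cases s <;> simp [hr, ht]

theorem smul_psd {n : Type*} [Fintype n] {X : Matrix n n ℂ} (hX : X.PosSemidef) {θ : ℝ}
    (hθ : 0 ≤ θ) : ((θ : ℂ) • X).PosSemidef :=
  hX.smul (by exact_mod_cast hθ : (0 : ℂ) ≤ (θ : ℂ))

end prelim

/-- integrated form under positivity hypotheses, `Tr T ≤ Tr R`. -/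
theorem I4_pos {K H₀ H₁ : Type*} [Fintype K] [DecidableEq K] [Fintype H₀] [DecidableEq H₀]
    [Fintype H₁] [DecidableEq H₁] [Nonempty H₁] (V₀ : Matrix H₀ K ℂ) (V₁ : Matrix H₁ K ℂ)
    (R : Matrix H₀ H₀ ℂ) (T : Matrix H₁ H₁ ℂ) (hR : R.PosDef) (hT : T.PosDef)
    (hC : (V₁ * V₁ᴴ).PosDef) (ha : 0 < (V₀ * V₀ᴴ).trace.re)
    (hrt : T.trace.re ≤ R.trace.re) :
    ent2 ((V₀ * V₀ᴴ).trace.re + R.trace.re) ((V₁ * V₁ᴴ).trace.re + T.trace.re)
        (√((V₀ * V₀ᴴ).trace.re * (V₁ * V₁ᴴ).trace.re))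
      + Sh (V₀ * V₀ᴴ) + Sh (V₁ * V₁ᴴ) + Sh R + Sh T ≤ vnEntropy (MM V₀ V₁ R T) := by
  set a := (V₀ * V₀ᴴ).trace.re with had
  set c := (V₁ * V₁ᴴ).trace.re with hcd
  set r := R.trace.re with hrd
  set t := T.trace.re with htd
  have ht : 0 < t := (RCLike.pos_iff.mp hT.trace_pos).1
  have hr : 0 < r := ht.trans_le hrt
  have hc : 0 < c := (RCLike.pos_iff.mp hC.trace_pos).1
  set ρ := MM V₀ V₁ 0 0 with hρ
  set D := Matrix.fromBlocks R 0 0 T with hD
  have hDpos : D.PosDef := posDef_blocks hR hT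
  have hρpsd : ρ.PosSemidef := MM_psd V₀ V₁
  set vv := mat2 a c (√(a * c)) with hvv
  have hvvpsd : vv.PosSemidef := mat2_psd ha.le hc.le
  set M : ℝ → Matrix (H₀ ⊕ H₁) (H₀ ⊕ H₁) ℂ := fun θ => (θ : ℂ) • ρ + D with hM
  set m : ℝ → Matrix Bool Bool ℂ := fun θ => (θ : ℂ) • vv + mat2 r t 0 with hm
  have hMpos : ∀ θ : ℝ, 0 ≤ θ → (M θ).PosDef := fun θ hθ =>
    Matrix.PosDef.posSemidef_add (smul_psd hρpsd hθ) hDpos
  have hmpos : ∀ θ : ℝ, 0 ≤ θ → (m θ).PosDef := fun θ hθ =>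
    Matrix.PosDef.posSemidef_add (smul_psd hvvpsd hθ) (mat2_diag_posDef hr ht)
  have htrρ : ρ.trace.re = a + c := by
    rw [hρ, MM, Matrix.trace, Fintype.sum_sum_type, Complex.add_re, had, hcd]
    simp [Matrix.trace]
  have htrvv : vv.trace.re = a + c := mat2_trace _ _ _
  -- P1gen, normalised
  have key : ∀ θ : ℝ, 0 < θ → Sh (V₀ * V₀ᴴ) + Sh (V₁ * V₁ᴴ) - logTr (m θ) vv ≤
      - logTr (M θ) ρ := by
    intro θ hθ
    have eA : ((((√θ : ℝ) : ℂ) • V₀) * (((√θ : ℝ) : ℂ) • V₀)ᴴ) = (θ : ℂ) • (V₀ * V₀ᴴ) := by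
      simp [Matrix.conjTranspose_smul, smul_smul, Real.mul_self_sqrt hθ.le]
    have eC : ((((√θ : ℝ) : ℂ) • V₁) * (((√θ : ℝ) : ℂ) • V₁)ᴴ) = (θ : ℂ) • (V₁ * V₁ᴴ) := by
      simp [Matrix.conjTranspose_smul, smul_smul, Real.mul_self_sqrt hθ.le]
    have tA : ((θ : ℂ) • (V₀ * V₀ᴴ)).trace.re = θ * a := by
      rw [Matrix.trace_smul, smul_eq_mul, Complex.re_ofReal_mul]
    have tC : ((θ : ℂ) • (V₁ * V₁ᴴ)).trace.re = θ * c := by
      rw [Matrix.trace_smul, smul_eq_mul, Complex.re_ofReal_mul]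
    have h := P1gen (((√θ : ℝ) : ℂ) • V₀) (((√θ : ℝ) : ℂ) • V₁) R T hR hT
      (by rw [eC]; exact hC.smul (by exact_mod_cast hθ : (0 : ℂ) < (θ : ℂ)))
      (by rw [eA, tA]; positivity) hrt
    rw [MM_eq _ _ R T, MM_smul V₀ V₁ hθ.le, eA, eC, tA, tC,
      Sh_smul (Matrix.isHermitian_mul_conjTranspose_self _),
      Sh_smul (Matrix.isHermitian_mul_conjTranspose_self _)] at h
    have es : √(θ * a * (θ * c)) = θ * √(a * c) := by
      have : θ * a * (θ * c) = θ ^ 2 * (a * c) := by ring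
      rw [this, Real.sqrt_mul (by positivity), Real.sqrt_sq hθ.le]
    have em : mat2 (θ * a + r) (θ * c + t) (θ * √(a * c)) = m θ := by
      rw [hm]
      simp only
      rw [hvv, ← mat2_smul, ← mat2_add, add_zero]
    rw [es, ← hrd, ← htd, em, mat2_smul, ← hvv, logTr_smul, logTr_smul] at h
    have h' : θ * (Sh (V₀ * V₀ᴴ) + Sh (V₁ * V₁ᴴ) - logTr (m θ) vv) ≤
        θ * (- logTr (M θ) ρ) := by
      calc θ * (Sh (V₀ * V₀ᴴ) + Sh (V₁ * V₁ᴴ) - logTr (m θ) vv)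
          = θ * Sh (V₀ * V₀ᴴ) + θ * Sh (V₁ * V₁ᴴ) - θ * logTr (m θ) vv := by ring
        _ ≤ - (θ * logTr (M θ) ρ) := h
        _ = θ * (- logTr (M θ) ρ) := by ring
    exact le_of_mul_le_mul_left h' hθ
  -- step inequalities
  have step1 : ∀ θ δ : ℝ, 0 ≤ θ → 0 ≤ δ →
      - (δ * (logTr (M (θ + δ)) ρ + (a + c))) ≤ vnEntropy (M (θ + δ)) - vnEntropy (M θ) := by
    intro θ δ hθ hδ
    have h1 := klein (hMpos (θ + δ) (by positivity)) (hMpos θ hθ).posSemidef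
    have h2 := logTr_self (hMpos (θ + δ) (by positivity)).1
    have e : M (θ + δ) = M θ + (δ : ℂ) • ρ := by
      rw [hM]; simp only
      rw [Complex.ofReal_add, add_smul]; abel
    have h3 : logTr (M (θ + δ)) (M (θ + δ)) =
        logTr (M (θ + δ)) (M θ) + δ * logTr (M (θ + δ)) ρ := by
      conv_lhs => rw [show logTr (M (θ + δ)) (M (θ + δ)) =
        logTr (M (θ + δ)) (M θ + (δ : ℂ) • ρ) by rw [← e]]
      rw [logTr_add, logTr_smul]
    have h4 : (M (θ + δ)).trace.re = (M θ).trace.re + δ * (a + c) := by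
      rw [e, Matrix.trace_add, Complex.add_re, Matrix.trace_smul, smul_eq_mul,
        Complex.re_ofReal_mul, htrρ]
    nlinarith
  have step2 : ∀ θ δ : ℝ, 0 ≤ θ → 0 ≤ δ →
      vnEntropy (m (θ + δ)) - vnEntropy (m θ) ≤ - (δ * (logTr (m θ) vv + (a + c))) := by
    intro θ δ hθ hδ
    have h1 := klein (hmpos θ hθ) (hmpos (θ + δ) (by positivity)).posSemidef
    have h2 := logTr_self (hmpos θ hθ).1
    have e : m (θ + δ) = m θ + (δ : ℂ) • vv := by
      rw [hm]; simp only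
      rw [Complex.ofReal_add, add_smul]; abel
    have h3 : logTr (m θ) (m (θ + δ)) = logTr (m θ) (m θ) + δ * logTr (m θ) vv := by
      rw [e, logTr_add, logTr_smul]
    have h4 : (m (θ + δ)).trace.re = (m θ).trace.re + δ * (a + c) := by
      rw [e, Matrix.trace_add, Complex.add_re, Matrix.trace_smul, smul_eq_mul,
        Complex.re_ofReal_mul, htrvv]
    nlinarith
  -- telescoping
  have tele : ∀ N : ℕ, 0 < N →
      Sh (V₀ * V₀ᴴ) + Sh (V₁ * V₁ᴴ) + (logTr (m 0) vv - logTr (m 1) vv) * (1 / (N : ℝ)) ≤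
        (vnEntropy (M 1) - vnEntropy (m 1)) - (vnEntropy (M 0) - vnEntropy (m 0)) := by
    intro N hN
    have hN' : (0 : ℝ) < N := by exact_mod_cast hN
    set F : ℕ → ℝ := fun i => vnEntropy (M ((i : ℝ) / N)) - vnEntropy (m ((i : ℝ) / N)) with hF
    set L : ℕ → ℝ := fun i => logTr (m ((i : ℝ) / N)) vv with hL
    have hstep : ∀ i : ℕ, (1 / (N : ℝ)) * (Sh (V₀ * V₀ᴴ) + Sh (V₁ * V₁ᴴ)) +
        (1 / (N : ℝ)) * (L i - L (i + 1)) ≤ F (i + 1) - F i := by
      intro i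
      have e : (((i + 1 : ℕ) : ℝ)) / N = (i : ℝ) / N + 1 / N := by push_cast; ring
      have s1 := step1 ((i : ℝ) / N) (1 / N) (by positivity) (by positivity)
      have s2 := step2 ((i : ℝ) / N) (1 / N) (by positivity) (by positivity)
      have s3 := key ((i : ℝ) / N + 1 / N) (by positivity)
      have s4 := mul_le_mul_of_nonneg_left s3 (by positivity : (0 : ℝ) ≤ 1 / N)
      simp only [hF, hL]
      rw [e]
      nlinarith
    have hsum := Finset.sum_le_sum (fun i (_ : i ∈ Finset.range N) => hstep i)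
    rw [Finset.sum_range_sub F, Finset.sum_add_distrib, ← Finset.mul_sum (Finset.range N)
      (fun i => L i - L (i + 1)), Finset.sum_range_sub' L, Finset.sum_const, Finset.card_range,
      nsmul_eq_mul] at hsum
    have e0 : ((0 : ℕ) : ℝ) / (N : ℝ) = 0 := by simp
    have e1 : ((N : ℕ) : ℝ) / (N : ℝ) = 1 := by field_simp
    simp only [hF, hL, e0, e1] at hsum
    have e2 : (N : ℝ) * (1 / N * (Sh (V₀ * V₀ᴴ) + Sh (V₁ * V₁ᴴ))) =
        Sh (V₀ * V₀ᴴ) + Sh (V₁ * V₁ᴴ) := by field_simp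
    rw [e2] at hsum
    linarith
  have lim : Sh (V₀ * V₀ᴴ) + Sh (V₁ * V₁ᴴ) ≤
      (vnEntropy (M 1) - vnEntropy (m 1)) - (vnEntropy (M 0) - vnEntropy (m 0)) := by
    have ht : Tendsto (fun N : ℕ => Sh (V₀ * V₀ᴴ) + Sh (V₁ * V₁ᴴ) +
        (logTr (m 0) vv - logTr (m 1) vv) * (1 / (N : ℝ))) atTop
        (𝓝 (Sh (V₀ * V₀ᴴ) + Sh (V₁ * V₁ᴴ) + (logTr (m 0) vv - logTr (m 1) vv) * 0)) :=
      (tendsto_one_div_atTop_nhds_zero_nat.const_mul _).const_add _
    rw [mul_zero, add_zero] at ht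
    refine le_of_tendsto ht ?_
    filter_upwards [eventually_gt_atTop 0] with N hN
    exact tele N hN
  -- end points
  have eM1 : vnEntropy (M 1) = vnEntropy (MM V₀ V₁ R T) := by
    rw [MM_eq V₀ V₁ R T]
    simp only [hM]
    rw [Complex.ofReal_one, one_smul]
  have eM0 : vnEntropy (M 0) = vnEntropy R + vnEntropy T := by
    simp only [hM]
    rw [Complex.ofReal_zero, zero_smul, zero_add, hD, vnEntropy_blockDiag hR.1 hT.1]
  have em1 : vnEntropy (m 1) = ent2 (a + r) (c + t) (√(a * c)) := by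
    simp only [hm]
    rw [Complex.ofReal_one, one_smul, hvv, ← mat2_add, add_zero, vnEntropy_mat2]
  have em0 : vnEntropy (m 0) = Real.negMulLog r + Real.negMulLog t := by
    simp only [hm]
    have h : mat2 r t 0 = Matrix.diagonal (fun s : Bool => (((if s then t else r : ℝ)) : ℂ)) := by
      ext s t
      cases s <;> cases t <;> simp [mat2]
    rw [Complex.ofReal_zero, zero_smul, zero_add, h, vnEntropy_diag]
    simp [add_comm]
  rw [eM1, eM0, em1, em0] at lim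
  have hShR : Sh R = vnEntropy R - Real.negMulLog r := rfl
  have hShT : Sh T = vnEntropy T - Real.negMulLog t := rfl
  rw [hShR, hShT]
  linarith

theorem ent2_comm (p q b : ℝ) : ent2 p q b = ent2 q p b := by
  unfold ent2
  have e1 : (q + p) / 2 = (p + q) / 2 := by ring
  have e2 : ((q - p) / 2) ^ 2 = ((p - q) / 2) ^ 2 := by ring
  rw [e1, e2]

theorem MM_isHermitian {K H₀ H₁ : Type*} [Fintype K] [DecidableEq K] [Fintype H₀]
    [DecidableEq H₀] [Fintype H₁] [DecidableEq H₁] (V₀ : Matrix H₀ K ℂ) (V₁ : Matrix H₁ K ℂ)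
    {R : Matrix H₀ H₀ ℂ} {T : Matrix H₁ H₁ ℂ} (hR : R.IsHermitian) (hT : T.IsHermitian) :
    (MM V₀ V₁ R T).IsHermitian := by
  rw [MM, Matrix.isHermitian_fromBlocks_iff]
  refine ⟨(Matrix.isHermitian_mul_conjTranspose_self _).add hR, ?_, ?_,
    (Matrix.isHermitian_mul_conjTranspose_self _).add hT⟩ <;>
  simp [Matrix.conjTranspose_mul]

/-- symmetric version for positive definite data. -/
theorem I4_pos' {K H₀ H₁ : Type*} [Fintype K] [DecidableEq K] [Fintype H₀] [DecidableEq H₀]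
    [Fintype H₁] [DecidableEq H₁] [Nonempty H₀] [Nonempty H₁] (V₀ : Matrix H₀ K ℂ)
    (V₁ : Matrix H₁ K ℂ)
    (R : Matrix H₀ H₀ ℂ) (T : Matrix H₁ H₁ ℂ) (hR : R.PosDef) (hT : T.PosDef)
    (hA : (V₀ * V₀ᴴ).PosDef) (hC : (V₁ * V₁ᴴ).PosDef) :
    ent2 ((V₀ * V₀ᴴ).trace.re + R.trace.re) ((V₁ * V₁ᴴ).trace.re + T.trace.re)
        (√((V₀ * V₀ᴴ).trace.re * (V₁ * V₁ᴴ).trace.re))
      + Sh (V₀ * V₀ᴴ) + Sh (V₁ * V₁ᴴ) + Sh R + Sh T ≤ vnEntropy (MM V₀ V₁ R T) := by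
  rcases le_total T.trace.re R.trace.re with h | h
  · exact I4_pos V₀ V₁ R T hR hT hC (RCLike.pos_iff.mp hA.trace_pos).1 h
  · have h1 := I4_pos V₁ V₀ T R hT hR hA (RCLike.pos_iff.mp hC.trace_pos).1 h
    have e : MM V₀ V₁ R T = (MM V₁ V₀ T R).submatrix (Equiv.sumComm H₁ H₀).symm
        (Equiv.sumComm H₁ H₀).symm := by
      ext i j
      rcases i with i | i <;> rcases j with j | j <;> simp [MM]
    rw [e, vnEntropy_reindex _ (MM_isHermitian V₁ V₀ hT.1 hR.1), ent2_comm, mul_comm]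
    linarith

theorem trace_add_smul_one {n : Type*} [Fintype n] [DecidableEq n] (X : Matrix n n ℂ) (ε : ℝ) :
    (X + (ε : ℂ) • (1 : Matrix n n ℂ)).trace.re = X.trace.re + ε * (Fintype.card n : ℝ) := by
  rw [Matrix.trace_add, Complex.add_re, Matrix.trace_smul, smul_eq_mul, Matrix.trace_one,
    Complex.re_ofReal_mul, Complex.natCast_re]

theorem posDef_add_smul_one {n : Type*} [Fintype n] [DecidableEq n] {X : Matrix n n ℂ} {ε : ℝ}
    (hX : X.PosSemidef) (hε : 0 < ε) : (X + (ε : ℂ) • (1 : Matrix n n ℂ)).PosDef :=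
  Matrix.PosDef.posSemidef_add hX
    (Matrix.PosDef.one.smul (by exact_mod_cast hε : (0 : ℂ) < (ε : ℂ)))

theorem tendsto_Sh_add_smul_one {n : Type*} [Fintype n] [DecidableEq n] {X : Matrix n n ℂ}
    (hX : X.IsHermitian) :
    Tendsto (fun ε : ℝ => Sh (X + (ε : ℂ) • (1 : Matrix n n ℂ))) (𝓝 0) (𝓝 (Sh X)) := by
  unfold Sh
  refine (tendsto_vnEntropy_add_smul_one hX).sub ?_
  simp_rw [trace_add_smul_one]
  have hc : Continuous (fun ε : ℝ => Real.negMulLog (X.trace.re + ε * (Fintype.card n : ℝ))) :=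
    Real.continuous_negMulLog.comp (by fun_prop)
  have := hc.tendsto 0
  simpa using this

/-- the general inequality. -/
theorem I4 {K H₀ H₁ : Type*} [Fintype K] [DecidableEq K] [Fintype H₀] [DecidableEq H₀]
    [Fintype H₁] [DecidableEq H₁] (V₀ : Matrix H₀ K ℂ) (V₁ : Matrix H₁ K ℂ)
    (R : Matrix H₀ H₀ ℂ) (T : Matrix H₁ H₁ ℂ) (hR : R.PosSemidef) (hT : T.PosSemidef)
    (ha : 0 < (V₀ * V₀ᴴ).trace.re) (hc : 0 < (V₁ * V₁ᴴ).trace.re) :
    ent2 ((V₀ * V₀ᴴ).trace.re + R.trace.re) ((V₁ * V₁ᴴ).trace.re + T.trace.re)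
        (√((V₀ * V₀ᴴ).trace.re * (V₁ * V₁ᴴ).trace.re))
      + Sh (V₀ * V₀ᴴ) + Sh (V₁ * V₁ᴴ) + Sh R + Sh T ≤ vnEntropy (MM V₀ V₁ R T) := by
  have hn0 : Nonempty H₀ := by
    by_contra h
    rw [not_nonempty_iff] at h
    simp [Matrix.trace] at ha
  have hn1 : Nonempty H₁ := by
    by_contra h
    rw [not_nonempty_iff] at h
    simp [Matrix.trace] at hc
  set A := V₀ * V₀ᴴ with hA
  set C := V₁ * V₁ᴴ with hC
  have hApsd : A.PosSemidef := Matrix.posSemidef_self_mul_conjTranspose _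
  have hCpsd : C.PosSemidef := Matrix.posSemidef_self_mul_conjTranspose _
  set h0 : ℝ := (Fintype.card H₀ : ℝ) with hh0
  set h1 : ℝ := (Fintype.card H₁ : ℝ) with hh1
  have main : ∀ ε : ℝ, 0 < ε →
      ent2 (A.trace.re + ε * h0 + (R.trace.re + ε * h0)) (C.trace.re + ε * h1 +
          (T.trace.re + ε * h1)) (√((A.trace.re + ε * h0) * (C.trace.re + ε * h1)))
        + Sh (A + (ε : ℂ) • 1) + Sh (C + (ε : ℂ) • 1) + Sh (R + (ε : ℂ) • 1)
        + Sh (T + (ε : ℂ) • 1) ≤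
      vnEntropy (MM V₀ V₁ R T + ((2 * ε : ℝ) : ℂ) • 1) := by
    intro ε hε
    set W₀ : Matrix H₀ (K ⊕ (H₀ ⊕ H₁)) ℂ :=
      Matrix.fromCols V₀ (Matrix.fromCols (((√ε : ℝ) : ℂ) • (1 : Matrix H₀ H₀ ℂ)) 0) with hW₀
    set W₁ : Matrix H₁ (K ⊕ (H₀ ⊕ H₁)) ℂ :=
      Matrix.fromCols V₁ (Matrix.fromCols 0 (((√ε : ℝ) : ℂ) • (1 : Matrix H₁ H₁ ℂ))) with hW₁
    have hsq : ((√ε : ℝ) : ℂ) * ((√ε : ℝ) : ℂ) = (ε : ℂ) := by
      rw [← Complex.ofReal_mul, Real.mul_self_sqrt hε.le]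
    have e00 : W₀ * W₀ᴴ = A + (ε : ℂ) • 1 := by
      rw [hW₀, Matrix.conjTranspose_fromCols_eq_fromRows_conjTranspose,
        Matrix.conjTranspose_fromCols_eq_fromRows_conjTranspose, Matrix.fromCols_mul_fromRows,
        Matrix.fromCols_mul_fromRows]
      simp [Matrix.conjTranspose_smul, smul_smul, Real.mul_self_sqrt hε.le, hA]
    have e11 : W₁ * W₁ᴴ = C + (ε : ℂ) • 1 := by
      rw [hW₁, Matrix.conjTranspose_fromCols_eq_fromRows_conjTranspose,
        Matrix.conjTranspose_fromCols_eq_fromRows_conjTranspose, Matrix.fromCols_mul_fromRows,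
        Matrix.fromCols_mul_fromRows]
      simp [Matrix.conjTranspose_smul, smul_smul, Real.mul_self_sqrt hε.le, hC]
    have e01 : W₀ * W₁ᴴ = V₀ * V₁ᴴ := by
      rw [hW₀, hW₁, Matrix.conjTranspose_fromCols_eq_fromRows_conjTranspose,
        Matrix.conjTranspose_fromCols_eq_fromRows_conjTranspose, Matrix.fromCols_mul_fromRows,
        Matrix.fromCols_mul_fromRows]
      simp
    have e10 : W₁ * W₀ᴴ = V₁ * V₀ᴴ := by
      rw [hW₀, hW₁, Matrix.conjTranspose_fromCols_eq_fromRows_conjTranspose,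
        Matrix.conjTranspose_fromCols_eq_fromRows_conjTranspose, Matrix.fromCols_mul_fromRows,
        Matrix.fromCols_mul_fromRows]
      simp
    have h := I4_pos' W₀ W₁ (R + (ε : ℂ) • 1) (T + (ε : ℂ) • 1) (posDef_add_smul_one hR hε)
      (posDef_add_smul_one hT hε)
      (by rw [e00]; exact posDef_add_smul_one hApsd hε)
      (by rw [e11]; exact posDef_add_smul_one hCpsd hε)
    have eMM : MM W₀ W₁ (R + (ε : ℂ) • 1) (T + (ε : ℂ) • 1) =
        MM V₀ V₁ R T + ((2 * ε : ℝ) : ℂ) • 1 := by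
      rw [MM, e00, e11, e01, e10, MM, ← Matrix.fromBlocks_one, Matrix.fromBlocks_smul,
        Matrix.fromBlocks_add, ← hA, ← hC]
      congr 1
      · push_cast; rw [mul_smul, two_smul]; abel
      · simp
      · simp
      · push_cast; rw [mul_smul, two_smul]; abel
    rw [eMM, e00, e11, trace_add_smul_one, trace_add_smul_one, trace_add_smul_one,
      trace_add_smul_one] at h
    exact h
  -- limits
  have tent : Tendsto (fun ε : ℝ => ent2 (A.trace.re + ε * h0 + (R.trace.re + ε * h0))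
      (C.trace.re + ε * h1 + (T.trace.re + ε * h1))
      (√((A.trace.re + ε * h0) * (C.trace.re + ε * h1)))) (𝓝 0)
      (𝓝 (ent2 (A.trace.re + R.trace.re) (C.trace.re + T.trace.re)
        (√(A.trace.re * C.trace.re)))) := by
    have hc : Continuous (fun ε : ℝ => ent2 (A.trace.re + ε * h0 + (R.trace.re + ε * h0))
      (C.trace.re + ε * h1 + (T.trace.re + ε * h1))
      (√((A.trace.re + ε * h0) * (C.trace.re + ε * h1)))) := by
      unfold ent2
      refine (Real.continuous_negMulLog.comp ?_).add (Real.continuous_negMulLog.comp ?_)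
      · fun_prop
      · fun_prop
    have := hc.tendsto 0
    simpa using this
  have tR : Tendsto (fun ε : ℝ => vnEntropy (MM V₀ V₁ R T + ((2 * ε : ℝ) : ℂ) • 1)) (𝓝 0)
      (𝓝 (vnEntropy (MM V₀ V₁ R T))) := by
    have h2 : Tendsto (fun ε : ℝ => 2 * ε) (𝓝 0) (𝓝 0) := by
      have : Continuous (fun ε : ℝ => 2 * ε) := by fun_prop
      simpa using this.tendsto 0
    exact (tendsto_vnEntropy_add_smul_one (MM_isHermitian V₀ V₁ hR.1 hT.1)).comp h2
  have tL := (((tent.add (tendsto_Sh_add_smul_one hApsd.1)).add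
    (tendsto_Sh_add_smul_one hCpsd.1)).add (tendsto_Sh_add_smul_one hR.1)).add
    (tendsto_Sh_add_smul_one hT.1)
  refine le_of_tendsto_of_tendsto (tL.mono_left nhdsWithin_le_nhds)
    (tR.mono_left (nhdsWithin_le_nhds (s := Set.Ioi 0))) ?_
  filter_upwards [self_mem_nhdsWithin] with ε hε
  exact main ε hε

end Crest.Agent.H29
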