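import Mathlib
import Crest.Agent.H29.Defs
import Crest.Agent.H29.Ent
import Crest.Agent.H29.Klein
import Crest.Agent.H29.I4
import Crest.Agent.H29.Hol1

/-!
Group GKEY: the output entropy inequality for the generalized amplitude damping channel.
-/

set_option autoImplicit false

open Crest.Quantum Crest.MathPhysics.AmpDamp Matrix Filter Topology
open scoped ComplexOrder Kronecker

namespace Crest.Agent.H29

theorem smul_psd' {n : Type*} [Fintype n] {X : Matrix n n ℂ} (hX : X.PosSemidef) {θ : ℝ}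
    (hθ : 0 ≤ θ) : ((θ : ℂ) • X).PosSemidef := hX.smul (by exact_mod_cast hθ)

theorem ent2_zero (p q : ℝ) : ent2 p q 0 = Real.negMulLog p + Real.negMulLog q := by
  unfold ent2
  have h1 : ((p - q) / 2) ^ 2 + (0 : ℝ) ^ 2 = ((p - q) / 2) ^ 2 := by ring
  rw [h1, Real.sqrt_sq_eq_abs]
  rcases abs_cases ((p - q) / 2) with ⟨h, _⟩ | ⟨h, _⟩
  · rw [h]
    congr 2 <;> ring
  · rw [h, add_comm]
    congr 2 <;> ring

theorem Sh_smul_add_le {e : Type*} [Fintype e] [DecidableEq e] {A C : Matrix e e ℂ}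
    (hA : A.PosSemidef) (hC : C.PosSemidef) {x y : ℝ} (hx : 0 ≤ x) (hy : 0 ≤ y) :
    x * Sh A + y * Sh C ≤ Sh ((x : ℂ) • A + (y : ℂ) • C) := by
  rw [← Sh_smul hA.1, ← Sh_smul hC.1]
  exact Sh_add_le (smul_psd' hA hx) (smul_psd' hC hy)

theorem trace_smul_re {e : Type*} [Fintype e] (A : Matrix e e ℂ) (x : ℝ) :
    ((x : ℂ) • A).trace.re = x * A.trace.re := by
  rw [Matrix.trace_smul, smul_eq_mul, Complex.re_ofReal_mul]

theorem exists_factor {n : Type*} [Fintype n] [DecidableEq n] {X : Matrix n n ℂ}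
    (hX : X.PosSemidef) : ∃ V : Matrix n n ℂ, X = V * Vᴴ := by
  have h := spectral_form hX.1
  refine ⟨(hX.1.eigenvectorUnitary : Matrix n n ℂ) *
    Matrix.diagonal (fun j => ((√(hX.1.eigenvalues j) : ℝ) : ℂ)), ?_⟩
  have hd : Matrix.diagonal (fun j => (hX.1.eigenvalues j : ℂ)) =
      Matrix.diagonal (fun j => ((√(hX.1.eigenvalues j) : ℝ) : ℂ)) *
        (Matrix.diagonal (fun j => ((√(hX.1.eigenvalues j) : ℝ) : ℂ)))ᴴ := by
    rw [Matrix.diagonal_conjTranspose, Matrix.diagonal_mul_diagonal]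
    congr 1
    funext j
    simp only [Pi.star_apply, RCLike.star_def, Complex.conj_ofReal]
    rw [← Complex.ofReal_mul, Real.mul_self_sqrt (hX.eigenvalues_nonneg j)]
  rw [Matrix.conjTranspose_mul]
  rw [← Matrix.mul_assoc, Matrix.mul_assoc _ _ (Matrix.diagonal _)ᴴ, ← hd]
  exact h

theorem qubit_as_blocks {e : Type*} [Fintype e] [DecidableEq e] (γ ν : ℝ)
    {K : Type*} [Fintype K] (V : Matrix (Bool × e) K ℂ) (X : Matrix (Bool × e) (Bool × e) ℂ)
    (hX : X = V * Vᴴ) (V₀ V₁ : Matrix e K ℂ) (h0 : V₀ = Matrix.of fun i k => V (false, i) k)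
    (h1 : V₁ = Matrix.of fun i k => V (true, i) k) :
    (qubitTensor (gadMap γ ν) (fun M : Matrix e e ℂ => M) X).submatrix
      (Equiv.boolProdEquivSum e).symm (Equiv.boolProdEquivSum e).symm =
    Matrix.fromBlocks
      (((1 - γ * ν : ℝ) : ℂ) • (V₀ * V₀ᴴ) + ((γ * (1 - ν) : ℝ) : ℂ) • (V₁ * V₁ᴴ))
      (((√(1 - γ) : ℝ) : ℂ) • (V₀ * V₁ᴴ)) (((√(1 - γ) : ℝ) : ℂ) • (V₁ * V₀ᴴ))
      (((γ * ν : ℝ) : ℂ) • (V₀ * V₀ᴴ) + ((1 - γ + γ * ν : ℝ) : ℂ) • (V₁ * V₁ᴴ)) := by
  subst hX h0 h1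
  ext i j
  rcases i with i | i <;> rcases j with j | j <;>
    simp [qubitTensor, qubitCoeff, gadMap, Matrix.single, block, Matrix.mul_apply, add_comm]

theorem psd_eq_zero_of_trace {e : Type*} [Fintype e] {A : Matrix e e ℂ} (hA : A.PosSemidef)
    (h : A.trace.re = 0) : A = 0 := by
  apply hA.trace_eq_zero_iff.mp
  have h1 := hA.trace_nonneg
  rw [Complex.le_def] at h1
  apply Complex.ext
  · simpa using h
  · simpa using h1.2.symm

/-- The output entropy inequality for the generalized amplitude damping channel. -/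
theorem gad_key (γ ν : ℝ) (hγ : γ ∈ Set.Icc (0 : ℝ) 1) (hν : ν ∈ Set.Icc (0 : ℝ) 1)
    {e : Type*} [Fintype e] [DecidableEq e] (X : Matrix (Bool × e) (Bool × e) ℂ)
    (hX : X.PosSemidef) :
    gOut γ ν (block X false false).trace.re (block X true true).trace.re
      + Sh (block X false false) + Sh (block X true true)
      ≤ vnEntropy (qubitTensor (gadMap γ ν) (fun M : Matrix e e ℂ => M) X) := by
  classical
  obtain ⟨hγ0, hγ1⟩ := hγ
  obtain ⟨hν0, hν1⟩ := hν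
  have hYp : (qubitTensor (gadMap γ ν) (fun M : Matrix e e ℂ => M) X).PosSemidef :=
    qubitTensor_gad_posSemidef γ ν ⟨hγ0, hγ1⟩ ⟨hν0, hν1⟩ _ X
      (by rw [show blockwise (k := Bool) (fun M : Matrix e e ℂ => M) X = X from rfl]; exact hX)
  obtain ⟨V, hV⟩ := exists_factor hX
  set V₀ : Matrix e (Bool × e) ℂ := Matrix.of fun i k => V (false, i) k with h0
  set V₁ : Matrix e (Bool × e) ℂ := Matrix.of fun i k => V (true, i) k with h1
  have hA : block X false false = V₀ * V₀ᴴ := by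
    rw [hV]; ext i j; simp [block, Matrix.mul_apply, h0]
  have hC : block X true true = V₁ * V₁ᴴ := by
    rw [hV]; ext i j; simp [block, Matrix.mul_apply, h1]
  have hApsd : (V₀ * V₀ᴴ).PosSemidef := Matrix.posSemidef_self_mul_conjTranspose _
  have hCpsd : (V₁ * V₁ᴴ).PosSemidef := Matrix.posSemidef_self_mul_conjTranspose _
  have htA : 0 ≤ (V₀ * V₀ᴴ).trace.re := by
    have h := hApsd.trace_nonneg
    rw [Complex.le_def] at h
    simpa using h.1
  have htC : 0 ≤ (V₁ * V₁ᴴ).trace.re := by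
    have h := hCpsd.trace_nonneg
    rw [Complex.le_def] at h
    simpa using h.1
  rw [hA, hC, ← vnEntropy_reindex (Equiv.boolProdEquivSum e) hYp.1,
    qubit_as_blocks γ ν V X hV V₀ V₁ h0 h1]
  set A := V₀ * V₀ᴴ with hAdef
  set C := V₁ * V₁ᴴ with hCdef
  set a := γ * ν with ha
  set b := γ * (1 - ν) with hb
  have ha0 : 0 ≤ a := mul_nonneg hγ0 hν0
  have hb0 : 0 ≤ b := mul_nonneg hγ0 (by linarith)
  have hab : a + b = γ := by rw [ha, hb]; ring
  have hbeq : 1 - γ + a = 1 - b := by linarith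
  rw [hbeq]
  unfold gOut
  rw [← ha, ← hb, hbeq]
  -- the block diagonal case
  have hdiag : √(1 - γ) * √(A.trace.re * C.trace.re) = 0 →
      ((√(1 - γ) : ℝ) : ℂ) • (V₀ * V₁ᴴ) = 0 → ((√(1 - γ) : ℝ) : ℂ) • (V₁ * V₀ᴴ) = 0 →
      ent2 ((1 - a) * A.trace.re + b * C.trace.re) (a * A.trace.re + (1 - b) * C.trace.re)
        (√(1 - γ) * √(A.trace.re * C.trace.re)) + Sh A + Sh C ≤
      vnEntropy (Matrix.fromBlocks (((1 - a : ℝ) : ℂ) • A + (b : ℂ) • C)
        (((√(1 - γ) : ℝ) : ℂ) • (V₀ * V₁ᴴ)) (((√(1 - γ) : ℝ) : ℂ) • (V₁ * V₀ᴴ))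
        ((a : ℂ) • A + ((1 - b : ℝ) : ℂ) • C)) := by
    intro e1 e2 e3
    have hp0 : (((1 - a : ℝ) : ℂ) • A + (b : ℂ) • C).PosSemidef :=
      (smul_psd' hApsd (by nlinarith)).add (smul_psd' hCpsd hb0)
    have hp1 : ((a : ℂ) • A + ((1 - b : ℝ) : ℂ) • C).PosSemidef :=
      (smul_psd' hApsd ha0).add (smul_psd' hCpsd (by nlinarith))
    rw [e1, e2, e3, ent2_zero, vnEntropy_blockDiag hp0.1 hp1.1]
    have s0 := Sh_smul_add_le hApsd hCpsd (show 0 ≤ 1 - a by nlinarith) hb0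
    have s1 := Sh_smul_add_le hApsd hCpsd ha0 (show 0 ≤ 1 - b by nlinarith)
    unfold Sh at s0 s1 ⊢
    rw [Matrix.trace_add, Complex.add_re, trace_smul_re, trace_smul_re] at s0 s1
    nlinarith
  rcases eq_or_lt_of_le htA with hA0 | hA0
  · have hz : A = 0 := psd_eq_zero_of_trace hApsd hA0.symm
    have hV0 : V₀ = 0 := Matrix.self_mul_conjTranspose_eq_zero.mp hz
    apply hdiag
    · rw [← hA0]; simp
    · rw [hV0]; simp
    · rw [hV0]; simp
  rcases eq_or_lt_of_le htC with hC0 | hC0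
  · have hz : C = 0 := psd_eq_zero_of_trace hCpsd hC0.symm
    have hV1 : V₁ = 0 := Matrix.self_mul_conjTranspose_eq_zero.mp hz
    apply hdiag
    · rw [← hC0]; simp
    · rw [hV1]; simp
    · rw [hV1]; simp
  rcases eq_or_lt_of_le hγ1 with hγe | hγlt
  · apply hdiag
    · rw [hγe]; simp
    · rw [hγe]; simp
    · rw [hγe]; simp
  -- main case
  have hb1 : b < 1 := by linarith
  have hα : 0 < (1 - γ) / (1 - b) := div_pos (by linarith) (by linarith)
  have hβ : 0 < 1 - b := by linarith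
  set α := √((1 - γ) / (1 - b)) with hαdef
  set β := √(1 - b) with hβdef
  have hα2 : α * α = (1 - γ) / (1 - b) := Real.mul_self_sqrt hα.le
  have hβ2 : β * β = 1 - b := Real.mul_self_sqrt hβ.le
  have hαβ : α * β = √(1 - γ) := by
    rw [hαdef, hβdef, ← Real.sqrt_mul hα.le]
    congr 1
    field_simp
  have hy : 0 ≤ a * b / (1 - b) := div_nonneg (mul_nonneg ha0 hb0) hβ.le
  have hsum : (1 - γ) / (1 - b) + a * b / (1 - b) = 1 - a := by
    rw [← add_div, div_eq_iff hβ.ne']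
    rw [← hab]; ring
  have hRpsd : (((a * b / (1 - b) : ℝ) : ℂ) • A + (b : ℂ) • C).PosSemidef :=
    (smul_psd' hApsd hy).add (smul_psd' hCpsd hb0)
  have hTpsd : ((a : ℂ) • A).PosSemidef := smul_psd' hApsd ha0
  have hAα : ((α : ℂ) • V₀) * ((α : ℂ) • V₀)ᴴ = (((1 - γ) / (1 - b) : ℝ) : ℂ) • A := by
    rw [Matrix.conjTranspose_smul, Matrix.smul_mul, Matrix.mul_smul, smul_smul, ← hAdef]
    simp only [RCLike.star_def, Complex.conj_ofReal]
    rw [← Complex.ofReal_mul, hα2]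
  have hCβ : ((β : ℂ) • V₁) * ((β : ℂ) • V₁)ᴴ = ((1 - b : ℝ) : ℂ) • C := by
    rw [Matrix.conjTranspose_smul, Matrix.smul_mul, Matrix.mul_smul, smul_smul, ← hCdef]
    simp only [RCLike.star_def, Complex.conj_ofReal]
    rw [← Complex.ofReal_mul, hβ2]
  have key := I4 ((α : ℂ) • V₀) ((β : ℂ) • V₁) _ _ hRpsd hTpsd
    (by rw [hAα, trace_smul_re]; positivity) (by rw [hCβ, trace_smul_re]; positivity)
  have hM : MM ((α : ℂ) • V₀) ((β : ℂ) • V₁) (((a * b / (1 - b) : ℝ) : ℂ) • A + (b : ℂ) • C)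
      ((a : ℂ) • A) = Matrix.fromBlocks (((1 - a : ℝ) : ℂ) • A + (b : ℂ) • C)
        (((√(1 - γ) : ℝ) : ℂ) • (V₀ * V₁ᴴ)) (((√(1 - γ) : ℝ) : ℂ) • (V₁ * V₀ᴴ))
        ((a : ℂ) • A + ((1 - b : ℝ) : ℂ) • C) := by
    unfold MM
    rw [hAα, hCβ]
    congr 1
    · rw [← add_assoc, ← add_smul, ← Complex.ofReal_add, hsum]
    · rw [Matrix.conjTranspose_smul, Matrix.smul_mul, Matrix.mul_smul, smul_smul]
      simp only [RCLike.star_def, Complex.conj_ofReal]
      rw [← Complex.ofReal_mul, hαβ]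
    · rw [Matrix.conjTranspose_smul, Matrix.smul_mul, Matrix.mul_smul, smul_smul]
      simp only [RCLike.star_def, Complex.conj_ofReal]
      rw [← Complex.ofReal_mul, mul_comm β α, hαβ]
    · rw [add_comm]
  rw [hM, hAα, hCβ, Sh_smul hApsd.1, Sh_smul hApsd.1, Sh_smul hCpsd.1] at key
  simp only [trace_smul_re, Matrix.trace_add, Complex.add_re] at key
  have e1 : (1 - γ) / (1 - b) * A.trace.re + (a * b / (1 - b) * A.trace.re + b * C.trace.re) =
      (1 - a) * A.trace.re + b * C.trace.re := by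
    rw [← hsum]; ring
  have e2 : (1 - b) * C.trace.re + a * A.trace.re = a * A.trace.re + (1 - b) * C.trace.re :=
    add_comm _ _
  have e3 : √((1 - γ) / (1 - b) * A.trace.re * ((1 - b) * C.trace.re)) =
      √(1 - γ) * √(A.trace.re * C.trace.re) := by
    rw [← Real.sqrt_mul (by linarith)]
    congr 1
    field_simp
  rw [e1, e2, e3] at key
  have s0 := Sh_smul_add_le hApsd hCpsd hy hb0
  have e4 : (1 - γ) / (1 - b) * Sh A + a * b / (1 - b) * Sh A = (1 - a) * Sh A := by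
    rw [← add_mul, hsum]
  linarith

end Crest.Agent.H29
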