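import Mathlib
import Crest.Agent.H29.Defs
import Crest.Agent.H29.Hol1
import Crest.Agent.H29.Ent
import Crest.Agent.H29.Klein
import Crest.Agent.H29.GKey

/-!
Group HOL: Holevo information.
-/

set_option autoImplicit false

open Crest.Quantum Crest.MathPhysics.AmpDamp Matrix Filter Topology
open scoped ComplexOrder Kronecker

namespace Crest.Agent.H29

/-- product ensembles. -/
theorem product_ensemble {d e : Type*} [Fintype d] [Fintype e] [DecidableEq d]
    [DecidableEq e] (Φ : Matrix Bool Bool ℂ → Matrix Bool Bool ℂ) (hΦ : IsChannel Φ)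
    (Ψ : Matrix d d ℂ → Matrix e e ℂ) (hΨl : IsLinearMap ℂ Ψ)
    (hΨp : ∀ M : Matrix d d ℂ, M.PosSemidef → (Ψ M).PosSemidef) (hΨt : IsTracePreserving Ψ)
    {m₁ m₂ : ℕ} (q₁ : Fin m₁ → ℝ) (ρ₁ : Fin m₁ → Matrix Bool Bool ℂ) (q₂ : Fin m₂ → ℝ)
    (ρ₂ : Fin m₂ → Matrix d d ℂ) (h₁ : IsEnsemble q₁ ρ₁) (h₂ : IsEnsemble q₂ ρ₂) :
    ∃ (m : ℕ) (q : Fin m → ℝ) (ρ : Fin m → Matrix (Bool × d) (Bool × d) ℂ), IsEnsemble q ρ ∧
      holevoInfo (qubitTensor Φ Ψ) q ρ = holevoInfo Φ q₁ ρ₁ + holevoInfo Ψ q₂ ρ₂ := by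
  obtain ⟨hq1, hs1, hd1⟩ := h₁
  obtain ⟨hq2, hs2, hd2⟩ := h₂
  obtain ⟨hΦl, hΦcp, hΦt⟩ := hΦ
  have hΦp := posSemidef_of_cp Φ hΦcp
  have hΦt' : ∀ M, (Φ M).trace = M.trace := hΦt
  have hΨt' : ∀ M, (Ψ M).trace = M.trace := hΨt
  refine ⟨m₁ * m₂, fun a => q₁ (finProdFinEquiv.symm a).1 * q₂ (finProdFinEquiv.symm a).2,
    fun a => ρ₁ (finProdFinEquiv.symm a).1 ⊗ₖ ρ₂ (finProdFinEquiv.symm a).2, ⟨?_, ?_, ?_⟩, ?_⟩
  · intro a
    exact mul_nonneg (hq1 _) (hq2 _)
  · rw [← Equiv.sum_comp finProdFinEquiv]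
    simp only [Equiv.symm_apply_apply, Fintype.sum_prod_type]
    simp_rw [← Finset.mul_sum, hs2, mul_one]
    exact hs1
  · intro a
    refine ⟨(hd1 _).1.kronecker (hd2 _).1, ?_⟩
    rw [Matrix.trace_kronecker, (hd1 _).2, (hd2 _).2, one_mul]
  · unfold holevoInfo
    have hS1 : (∑ a, (q₁ a : ℂ) • Φ (ρ₁ a)).PosSemidef :=
      Matrix.posSemidef_sum _ fun a _ => (hΦp _ (hd1 a).1).smul (by exact_mod_cast hq1 a)
    have hS2 : (∑ a, (q₂ a : ℂ) • Ψ (ρ₂ a)).PosSemidef :=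
      Matrix.posSemidef_sum _ fun a _ => (hΨp _ (hd2 a).1).smul (by exact_mod_cast hq2 a)
    have ht1 : (∑ a, (q₁ a : ℂ) • Φ (ρ₁ a)).trace = 1 := by
      rw [Matrix.trace_sum]
      simp_rw [Matrix.trace_smul, hΦt', (hd1 _).2, smul_eq_mul, mul_one]
      exact_mod_cast hs1
    have ht2 : (∑ a, (q₂ a : ℂ) • Ψ (ρ₂ a)).trace = 1 := by
      rw [Matrix.trace_sum]
      simp_rw [Matrix.trace_smul, hΨt', (hd2 _).2, smul_eq_mul, mul_one]
      exact_mod_cast hs2
    have havg : (∑ a : Fin (m₁ * m₂), ((q₁ (finProdFinEquiv.symm a).1 *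
        q₂ (finProdFinEquiv.symm a).2 : ℝ) : ℂ) • qubitTensor Φ Ψ
          (ρ₁ (finProdFinEquiv.symm a).1 ⊗ₖ ρ₂ (finProdFinEquiv.symm a).2)) =
        (∑ a, (q₁ a : ℂ) • Φ (ρ₁ a)) ⊗ₖ (∑ a, (q₂ a : ℂ) • Ψ (ρ₂ a)) := by
      rw [← Equiv.sum_comp finProdFinEquiv]
      simp only [Equiv.symm_apply_apply, Fintype.sum_prod_type, qubitTensor_kronecker Φ hΦl Ψ hΨl]
      ext ⟨s, i⟩ ⟨t, j⟩
      simp only [Matrix.sum_apply, Matrix.smul_apply, Matrix.kroneckerMap_apply, smul_eq_mul,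
        Finset.sum_mul_sum]
      refine Finset.sum_congr rfl fun a _ => Finset.sum_congr rfl fun b _ => ?_
      push_cast
      ring
    rw [havg, vnEntropy_kronecker hS1.1 hS2.1, ht1, ht2]
    have hent : ∀ a b, vnEntropy (qubitTensor Φ Ψ (ρ₁ a ⊗ₖ ρ₂ b)) =
        vnEntropy (Φ (ρ₁ a)) + vnEntropy (Ψ (ρ₂ b)) := by
      intro a b
      rw [qubitTensor_kronecker Φ hΦl Ψ hΨl, vnEntropy_kronecker (hΦp _ (hd1 a).1).1
        (hΨp _ (hd2 b).1).1, hΦt, hΨt, (hd1 a).2, (hd2 b).2]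
      simp
    have hlow : ∑ a : Fin (m₁ * m₂), q₁ (finProdFinEquiv.symm a).1 *
        q₂ (finProdFinEquiv.symm a).2 * vnEntropy (qubitTensor Φ Ψ
          (ρ₁ (finProdFinEquiv.symm a).1 ⊗ₖ ρ₂ (finProdFinEquiv.symm a).2)) =
        ∑ a, q₁ a * vnEntropy (Φ (ρ₁ a)) + ∑ b, q₂ b * vnEntropy (Ψ (ρ₂ b)) := by
      rw [← Equiv.sum_comp finProdFinEquiv]
      simp only [Equiv.symm_apply_apply, Fintype.sum_prod_type, hent]
      have : ∀ a b, q₁ a * q₂ b * (vnEntropy (Φ (ρ₁ a)) + vnEntropy (Ψ (ρ₂ b))) =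
          q₁ a * vnEntropy (Φ (ρ₁ a)) * q₂ b + q₁ a * (q₂ b * vnEntropy (Ψ (ρ₂ b))) := by
        intro a b; ring
      simp_rw [this, Finset.sum_add_distrib, ← Finset.mul_sum, ← Finset.sum_mul, hs1, hs2]
      ring
    rw [hlow]
    simp
    ring

/-- The pure qubit state with real amplitudes `u, v`. -/
theorem pure_density (u v : ℝ) (h : u ^ 2 + v ^ 2 = 1) :
    IsDensity (mat2 (u ^ 2) (v ^ 2) (u * v)) := by
  constructor
  · have h1 : mat2 (u ^ 2) (v ^ 2) (u * v) =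
        Matrix.vecMulVec (fun s : Bool => if s then (v : ℂ) else (u : ℂ))
          (star (fun s : Bool => if s then (v : ℂ) else (u : ℂ))) := by
      ext s t
      cases s <;> cases t <;> simp [mat2, Matrix.vecMulVec_apply] <;> ring
    rw [h1]
    exact Matrix.posSemidef_vecMulVec_self_star _
  · simp only [Matrix.trace, mat2, Matrix.diag_apply, Matrix.of_apply, Fintype.sum_bool]
    simp only [if_true, if_false, Bool.false_eq_true]
    rw [← Complex.ofReal_add]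
    rw [show v ^ 2 + u ^ 2 = 1 by linarith]
    simp

theorem gadMap_mat2 (γ ν p q b : ℝ) :
    gadMap γ ν (mat2 p q b) = mat2 ((1 - γ * ν) * p + γ * (1 - ν) * q)
      (γ * ν * p + (1 - γ + γ * ν) * q) (√(1 - γ) * b) := by
  ext s t
  cases s <;> cases t <;> simp [gadMap, mat2]

theorem ent2_neg (p q b : ℝ) : ent2 p q (-b) = ent2 p q b := by
  unfold ent2
  rw [neg_sq]

theorem vnEntropy_gadMap_pure (γ ν p : ℝ) (hp : p ∈ Set.Icc (0 : ℝ) 1) (ε : ℝ)
    (hε : ε = 1 ∨ ε = -1) :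
    vnEntropy (gadMap γ ν (mat2 ((√(1 - p)) ^ 2) ((ε * √p) ^ 2) (√(1 - p) * (ε * √p)))) =
      gOut γ ν (1 - p) p := by
  obtain ⟨hp0, hp1⟩ := hp
  rw [gadMap_mat2, vnEntropy_mat2]
  have h1 : √(1 - p) ^ 2 = 1 - p := Real.sq_sqrt (by linarith)
  have h2 : √p ^ 2 = p := Real.sq_sqrt hp0
  have h3 : √((1 - p) * p) = √(1 - p) * √p := Real.sqrt_mul (by linarith) _
  unfold gOut
  rw [h3, mul_pow, h1, h2]
  rcases hε with rfl | rfl
  · simp
  · rw [show √(1 - γ) * (√(1 - p) * (-1 * √p)) = -(√(1 - γ) * (√(1 - p) * √p)) by ring,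
      ent2_neg]
    norm_num

/-- the entropy of a diagonal qubit state -/
theorem ent2_diag (x : ℝ) : ent2 (1 - x) x 0 = Real.binEntropy x := by
  have hb : Real.binEntropy x = Real.negMulLog x + Real.negMulLog (1 - x) :=
    Real.binEntropy_eq_negMulLog_add_negMulLog_one_sub x
  unfold ent2
  rw [hb]
  have h1 : ((1 - x - x) / 2) ^ 2 + (0 : ℝ) ^ 2 = ((1 - x - x) / 2) ^ 2 := by ring
  rw [h1, Real.sqrt_sq_eq_abs]
  rcases abs_cases ((1 - x - x) / 2) with ⟨h, _⟩ | ⟨h, _⟩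
  · rw [h, add_comm]
    congr 2 <;> ring
  · rw [h]
    congr 2 <;> ring

theorem single_ensemble (γ ν : ℝ) (hγ : γ ∈ Set.Icc (0 : ℝ) 1) (hν : ν ∈ Set.Icc (0 : ℝ) 1)
    {m : ℕ} (q p : Fin m → ℝ) (hq : ∀ a, 0 ≤ q a) (hq1 : ∑ a, q a = 1)
    (hp : ∀ a, p a ∈ Set.Icc (0 : ℝ) 1) :
    ∃ (m₁ : ℕ) (q₁ : Fin m₁ → ℝ) (ρ₁ : Fin m₁ → Matrix Bool Bool ℂ), IsEnsemble q₁ ρ₁ ∧
      holevoInfo (gadMap γ ν) q₁ ρ₁ = Real.binEntropy (outPop γ ν (∑ a, q a * p a))
        - ∑ a, q a * gOut γ ν (1 - p a) (p a) := by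
  classical
  have hsg : ∀ t : Fin 2, (if t = 0 then (1 : ℝ) else -1) = 1 ∨ (if t = 0 then (1 : ℝ) else -1) = -1 := by
    intro t
    split_ifs <;> simp
  refine ⟨m * 2, fun a => q (finProdFinEquiv.symm a).1 / 2, fun a =>
    mat2 ((√(1 - p (finProdFinEquiv.symm a).1)) ^ 2)
      (((if (finProdFinEquiv.symm a).2 = 0 then 1 else -1) * √(p (finProdFinEquiv.symm a).1)) ^ 2)
      (√(1 - p (finProdFinEquiv.symm a).1) *
        ((if (finProdFinEquiv.symm a).2 = 0 then 1 else -1) * √(p (finProdFinEquiv.symm a).1))),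
    ⟨?_, ?_, ?_⟩, ?_⟩
  · intro a
    have := hq (finProdFinEquiv.symm a).1
    positivity
  · rw [← Equiv.sum_comp finProdFinEquiv]
    simp only [Equiv.symm_apply_apply, Fintype.sum_prod_type, Finset.sum_const, Finset.card_univ,
      Fintype.card_fin, smul_eq_mul, nsmul_eq_mul]
    rw [← hq1]
    refine Finset.sum_congr rfl fun a _ => ?_
    push_cast; ring
  · intro a
    apply pure_density
    have h1 := hp (finProdFinEquiv.symm a).1
    rw [mul_pow, Real.sq_sqrt (by linarith [h1.2]), Real.sq_sqrt h1.1]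
    split_ifs <;> ring
  · unfold holevoInfo
    rw [← Equiv.sum_comp finProdFinEquiv, ← Equiv.sum_comp finProdFinEquiv]
    simp only [Equiv.symm_apply_apply, Fintype.sum_prod_type]
    have e1 : ∀ a : Fin m, ∀ t : Fin 2, vnEntropy (gadMap γ ν (mat2 ((√(1 - p a)) ^ 2)
        (((if t = 0 then 1 else -1) * √(p a)) ^ 2)
        (√(1 - p a) * ((if t = 0 then 1 else -1) * √(p a))))) = gOut γ ν (1 - p a) (p a) := by
      intro a t
      exact vnEntropy_gadMap_pure γ ν (p a) (hp a) _ (hsg t)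
    simp only [e1]
    have e2 : (∑ a : Fin m, ∑ t : Fin 2, ((q a / 2 : ℝ) : ℂ) • gadMap γ ν
        (mat2 ((√(1 - p a)) ^ 2) (((if t = 0 then 1 else -1) * √(p a)) ^ 2)
        (√(1 - p a) * ((if t = 0 then 1 else -1) * √(p a))))) =
        mat2 (1 - outPop γ ν (∑ a, q a * p a)) (outPop γ ν (∑ a, q a * p a)) 0 := by
      have e3 : ∀ a : Fin m, (∑ t : Fin 2, ((q a / 2 : ℝ) : ℂ) • gadMap γ ν
        (mat2 ((√(1 - p a)) ^ 2) (((if t = 0 then 1 else -1) * √(p a)) ^ 2)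
        (√(1 - p a) * ((if t = 0 then 1 else -1) * √(p a))))) =
        mat2 (q a * ((1 - γ * ν) * (1 - p a) + γ * (1 - ν) * p a))
          (q a * (γ * ν * (1 - p a) + (1 - γ + γ * ν) * p a)) 0 := by
        intro a
        have h1 := hp a
        have h2 : √(1 - p a) ^ 2 = 1 - p a := Real.sq_sqrt (by linarith [h1.2])
        have h3 : √(p a) ^ 2 = p a := Real.sq_sqrt h1.1
        simp only [Fin.sum_univ_two, gadMap_mat2, h2, mul_pow, h3]
        ext s t
        cases s <;> cases t <;> simp [mat2] <;> ring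
      simp only [e3]
      have e4 : ∑ a, q a * ((1 - γ * ν) * (1 - p a) + γ * (1 - ν) * p a) =
          1 - outPop γ ν (∑ a, q a * p a) := by
        have : ∀ a, q a * ((1 - γ * ν) * (1 - p a) + γ * (1 - ν) * p a) =
          (1 - γ * ν) * q a - (1 - γ) * (q a * p a) := by intro a; ring
        simp only [this, Finset.sum_sub_distrib, ← Finset.mul_sum, hq1, outPop]
        ring
      have e5 : ∑ a, q a * (γ * ν * (1 - p a) + (1 - γ + γ * ν) * p a) =
          outPop γ ν (∑ a, q a * p a) := by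
        have : ∀ a, q a * (γ * ν * (1 - p a) + (1 - γ + γ * ν) * p a) =
          (1 - γ) * (q a * p a) + γ * ν * q a := by intro a; ring
        simp only [this, Finset.sum_add_distrib, ← Finset.mul_sum, hq1, outPop]
        ring
      rw [← e4, ← e5]
      ext s t
      rw [Matrix.sum_apply]
      cases s <;> cases t <;> simp [mat2]
    rw [e2, vnEntropy_mat2, ent2_diag]
    congr 1
    refine Finset.sum_congr rfl fun a _ => ?_
    simp only [Finset.sum_const, Finset.card_univ, Fintype.card_fin, nsmul_eq_mul]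
    push_cast
    ring

theorem block_posSemidef {k e : Type*} [Fintype k] [Fintype e] {Y : Matrix (k × e) (k × e) ℂ}
    (hY : Y.PosSemidef) (s : k) : (block Y s s).PosSemidef :=
  hY.submatrix (fun i => (s, i))

theorem vnEntropy_le_block {e : Type*} [Fintype e] [DecidableEq e]
    {Y : Matrix (Bool × e) (Bool × e) ℂ} (hY : Y.PosSemidef) :
    vnEntropy Y ≤ vnEntropy (block Y false false) + vnEntropy (block Y true true) := by
  have h1 : Y.submatrix (Equiv.boolProdEquivSum e).symm (Equiv.boolProdEquivSum e).symm =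
      Matrix.fromBlocks (block Y false false) (block Y false true) (block Y false true)ᴴ
        (block Y true true) := by
    ext i j
    rcases i with i | i <;> rcases j with j | j <;>
      simp [block, Matrix.conjTranspose_apply]
    exact (hY.1.apply _ _).symm
  rw [← vnEntropy_reindex (Equiv.boolProdEquivSum e) hY.1, h1]
  apply vnEntropy_le_blocks
  rw [← h1]
  exact hY.submatrix _

theorem trace_eq_re {e : Type*} [Fintype e] {B : Matrix e e ℂ} (hB : B.PosSemidef) :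
    B.trace = (B.trace.re : ℂ) := by
  have h := hB.trace_nonneg
  rw [Complex.le_def] at h
  apply Complex.ext
  · simp
  · simpa using h.2.symm

theorem exists_density {e : Type*} [Fintype e] [DecidableEq e] [Nonempty e] {B : Matrix e e ℂ}
    (hB : B.PosSemidef) : ∃ σ : Matrix e e ℂ, IsDensity σ ∧ B = (B.trace.re : ℂ) • σ := by
  have h0 : 0 ≤ B.trace.re := by
    have h := hB.trace_nonneg
    rw [Complex.le_def] at h
    simpa using h.1
  by_cases hw : B.trace.re = 0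
  · obtain ⟨i⟩ := ‹Nonempty e›
    refine ⟨Matrix.diagonal (fun j => if j = i then 1 else 0), ⟨?_, ?_⟩, ?_⟩
    · apply Matrix.PosSemidef.diagonal
      intro j
      simp only [Pi.zero_apply]
      split_ifs <;> simp
    · simp [Matrix.trace_diagonal]
    · rw [hw]
      simp only [Complex.ofReal_zero, zero_smul]
      have : B.trace = 0 := by rw [trace_eq_re hB, hw]; simp
      exact hB.trace_eq_zero_iff.mp this
  · have hpos : 0 < B.trace.re := lt_of_le_of_ne h0 (Ne.symm hw)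
    refine ⟨((B.trace.re)⁻¹ : ℂ) • B, ⟨?_, ?_⟩, ?_⟩
    · apply hB.smul
      rw [← Complex.ofReal_inv]
      exact_mod_cast inv_nonneg.mpr h0
    · rw [Matrix.trace_smul, smul_eq_mul]
      nth_rewrite 2 [trace_eq_re hB]
      rw [inv_mul_cancel₀]
      exact_mod_cast hw
    · rw [smul_smul, mul_inv_cancel₀ (by exact_mod_cast hw), one_smul]

theorem Sh_of_trace_one {e : Type*} [Fintype e] [DecidableEq e] {B : Matrix e e ℂ}
    (h : B.trace = 1) : Sh B = vnEntropy B := by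
  unfold Sh
  rw [h]
  simp

theorem qubitTensor_eq_blockwise {d e : Type*} [Fintype d] [Fintype e] [DecidableEq d]
    [DecidableEq e] (Φ : Matrix Bool Bool ℂ → Matrix Bool Bool ℂ)
    (Ψ : Matrix d d ℂ → Matrix e e ℂ) (M : Matrix (Bool × d) (Bool × d) ℂ) :
    qubitTensor Φ Ψ M = qubitTensor Φ (fun M : Matrix e e ℂ => M) (blockwise (k := Bool) Ψ M) :=
  rfl

theorem block_gad_false {d e : Type*} [Fintype d] [Fintype e] [DecidableEq d]
    [DecidableEq e] (γ ν : ℝ) (Ψ : Matrix d d ℂ → Matrix e e ℂ)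
    (M : Matrix (Bool × d) (Bool × d) ℂ) :
    block (qubitTensor (gadMap γ ν) Ψ M) false false =
      ((1 - γ * ν : ℝ) : ℂ) • Ψ (block M false false) +
        ((γ * (1 - ν) : ℝ) : ℂ) • Ψ (block M true true) := by
  ext i j
  simp [block, qubitTensor, qubitCoeff, gadMap, Matrix.single, add_comm]

theorem block_gad_true {d e : Type*} [Fintype d] [Fintype e] [DecidableEq d]
    [DecidableEq e] (γ ν : ℝ) (Ψ : Matrix d d ℂ → Matrix e e ℂ)
    (M : Matrix (Bool × d) (Bool × d) ℂ) :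
    block (qubitTensor (gadMap γ ν) Ψ M) true true =
      ((γ * ν : ℝ) : ℂ) • Ψ (block M false false) +
        ((1 - γ + γ * ν : ℝ) : ℂ) • Ψ (block M true true) := by
  ext i j
  simp [block, qubitTensor, qubitCoeff, gadMap, Matrix.single, add_comm]

theorem trace_block_add {d : Type*} [Fintype d] (M : Matrix (Bool × d) (Bool × d) ℂ) :
    (block M false false).trace + (block M true true).trace = M.trace := by
  simp [Matrix.trace, block, Fintype.sum_prod_type, add_comm]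

/-- lower bound for the output entropy of one state -/
theorem entropy_lower (γ ν : ℝ) (hγ : γ ∈ Set.Icc (0 : ℝ) 1) (hν : ν ∈ Set.Icc (0 : ℝ) 1)
    {d e : Type*} [Fintype d] [Fintype e] [DecidableEq d] [DecidableEq e]
    (Ψ : Matrix d d ℂ → Matrix e e ℂ) (htp : IsTracePreserving Ψ)
    (ρ : Matrix (Bool × d) (Bool × d) ℂ) (hρ : IsDensity ρ)
    (hpos : (blockwise (k := Bool) Ψ ρ).PosSemidef) :
    gOut γ ν (1 - pt ρ) (pt ρ) + Sh (Ψ (block ρ false false)) + Sh (Ψ (block ρ true true)) ≤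
      vnEntropy (qubitTensor (gadMap γ ν) Ψ ρ) := by
  have htp' : ∀ M, (Ψ M).trace = M.trace := htp
  have h := gad_key γ ν hγ hν (blockwise (k := Bool) Ψ ρ) hpos
  have hb : ∀ s t, block (blockwise (k := Bool) Ψ ρ) s t = Ψ (block ρ s t) := fun _ _ => rfl
  rw [hb, hb, ← qubitTensor_eq_blockwise, htp', htp'] at h
  have h1 : (block ρ false false).trace.re = 1 - pt ρ := by
    have := congrArg Complex.re (trace_block_add ρ)
    rw [hρ.2] at this
    simp at this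
    unfold pt
    linarith
  rw [h1] at h
  exact h

theorem Sh_block {d e : Type*} [Fintype d] [Fintype e] [DecidableEq d] [DecidableEq e]
    (Ψ : Matrix d d ℂ → Matrix e e ℂ) (hlin : IsLinearMap ℂ Ψ)
    (hp : ∀ M : Matrix d d ℂ, M.PosSemidef → (Ψ M).PosSemidef)
    (htp : IsTracePreserving Ψ) (σ : Matrix d d ℂ) (hσ : IsDensity σ) (w : ℝ) :
    Sh (Ψ ((w : ℂ) • σ)) = w * vnEntropy (Ψ σ) := by
  rw [hlin.map_smul, Sh_smul (hp _ hσ.1).1, Sh_of_trace_one]
  rw [htp, hσ.2]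

theorem psd_of_bool {d e : Type*} [Fintype d] [Fintype e] [DecidableEq d] [DecidableEq e]
    (Ψ : Matrix d d ℂ → Matrix e e ℂ) 
    (hpos : ∀ M : Matrix (Bool × d) (Bool × d) ℂ, M.PosSemidef →
      (blockwise (k := Bool) Ψ M).PosSemidef) (M : Matrix d d ℂ) (hM : M.PosSemidef) :
    (Ψ M).PosSemidef := by
  have h1 := hpos (M.submatrix (Prod.snd : Bool × d → d) Prod.snd) (hM.submatrix _)
  have h2 := h1.submatrix (fun i : e => (false, i))
  exact h2

/-- one-step bound: removes one qubit. -/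
theorem holevo_step (γ ν : ℝ) (hγ : γ ∈ Set.Icc (0 : ℝ) 1) (hν : ν ∈ Set.Icc (0 : ℝ) 1)
    {d e : Type*} [Fintype d] [Fintype e] [DecidableEq d] [DecidableEq e] [Nonempty d]
    (Ψ : Matrix d d ℂ → Matrix e e ℂ) (hlin : IsLinearMap ℂ Ψ)
    (hpos : ∀ M : Matrix (Bool × d) (Bool × d) ℂ, M.PosSemidef →
      (blockwise (k := Bool) Ψ M).PosSemidef)
    (htp : IsTracePreserving Ψ) {m : ℕ} (q : Fin m → ℝ)
    (ρ : Fin m → Matrix (Bool × d) (Bool × d) ℂ) (hE : IsEnsemble q ρ) :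
    ∃ (m' : ℕ) (q' : Fin m' → ℝ) (ρ' : Fin m' → Matrix d d ℂ), IsEnsemble q' ρ' ∧
      holevoInfo (qubitTensor (gadMap γ ν) Ψ) q ρ ≤
        (Real.binEntropy (outPop γ ν (∑ a, q a * pt (ρ a)))
          - ∑ a, q a * gOut γ ν (1 - pt (ρ a)) (pt (ρ a))) + holevoInfo Ψ q' ρ' := by
  classical
  obtain ⟨hq, hq1, hρ⟩ := hE
  have htp' : ∀ M, (Ψ M).trace = M.trace := htp
  have hΨp := psd_of_bool Ψ hpos
  have hbp : ∀ a s, (block (ρ a) s s).PosSemidef := fun a s => block_posSemidef (hρ a).1 s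
  choose σ hσ hσe using fun (x : Fin m × Bool) => exists_density (hbp x.1 x.2)
  set w : Fin m × Bool → ℝ := fun x => (block (ρ x.1) x.2 x.2).trace.re with hw
  have hw0 : ∀ x, 0 ≤ w x := by
    intro x
    have h := (hbp x.1 x.2).trace_nonneg
    rw [Complex.le_def] at h
    simpa using h.1
  have hw1 : ∀ a, w (a, true) = pt (ρ a) := fun a => rfl
  have hwf : ∀ a, w (a, false) = 1 - pt (ρ a) := by
    intro a
    have := congrArg Complex.re (trace_block_add (ρ a))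
    rw [(hρ a).2] at this
    simp only [Complex.add_re, Complex.one_re] at this
    rw [hw]
    unfold pt
    simp only
    linarith
  let f := Fintype.equivFin (Fin m × Bool)
  refine ⟨Fintype.card (Fin m × Bool), fun x => q (f.symm x).1 * w (f.symm x),
    fun x => σ (f.symm x), ⟨?_, ?_, fun x => hσ _⟩, ?_⟩
  · intro x
    exact mul_nonneg (hq _) (hw0 _)
  · rw [← Equiv.sum_comp f]
    simp only [Equiv.symm_apply_apply, Fintype.sum_prod_type, Fintype.sum_bool, hw1, hwf]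
    refine Eq.trans (Finset.sum_congr rfl fun a _ => ?_) hq1
    ring
  · unfold holevoInfo
    rw [← Equiv.sum_comp f, ← Equiv.sum_comp f]
    simp only [Equiv.symm_apply_apply]
    -- the average
    have hYp : ∀ a, (qubitTensor (gadMap γ ν) Ψ (ρ a)).PosSemidef := fun a =>
      qubitTensor_gad_posSemidef γ ν hγ hν Ψ (ρ a) (hpos _ (hρ a).1)
    set Y := ∑ a, (q a : ℂ) • qubitTensor (gadMap γ ν) Ψ (ρ a) with hY
    have hYpsd : Y.PosSemidef :=
      Matrix.posSemidef_sum _ fun a _ => (hYp a).smul (by exact_mod_cast hq a)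
    have hΨσ : ∀ x : Fin m × Bool, Ψ (block (ρ x.1) x.2 x.2) = (w x : ℂ) • Ψ (σ x) := by
      intro x
      rw [← hlin.map_smul, ← hσe x]
    have hsumblock : block Y false false + block Y true true =
        ∑ x : Fin m × Bool, ((q x.1 * w x : ℝ) : ℂ) • Ψ (σ x) := by
      have h0 : ∀ s, block Y s s = ∑ a, (q a : ℂ) • block (qubitTensor (gadMap γ ν) Ψ (ρ a)) s s := by
        intro s
        ext i j
        simp [hY, block, Matrix.sum_apply]
      rw [h0, h0, ← Finset.sum_add_distrib, Fintype.sum_prod_type]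
      refine Finset.sum_congr rfl fun a _ => ?_
      rw [block_gad_false, block_gad_true, Fintype.sum_bool]
      have e1 := hΨσ (a, true)
      have e2 := hΨσ (a, false)
      simp only at e1 e2
      rw [e1, e2]
      ext i j
      simp only [Matrix.smul_apply, Matrix.add_apply, smul_eq_mul]
      push_cast
      ring
    have htr : ∀ s, (block Y s s).trace = ∑ a, (q a : ℂ) * (block (qubitTensor (gadMap γ ν) Ψ (ρ a)) s s).trace := by
      intro s
      have h0 : block Y s s = ∑ a, (q a : ℂ) • block (qubitTensor (gadMap γ ν) Ψ (ρ a)) s s := by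
        ext i j
        simp [hY, block, Matrix.sum_apply]
      rw [h0, Matrix.trace_sum]
      simp_rw [Matrix.trace_smul, smul_eq_mul]
    have hbt : ∀ a s, (block (ρ a) s s).trace = (w (a, s) : ℂ) := fun a s => trace_eq_re (hbp a s)
    have htr1 : (block Y true true).trace.re = outPop γ ν (∑ a, q a * pt (ρ a)) := by
      rw [htr]
      have : ∀ a, (q a : ℂ) * (block (qubitTensor (gadMap γ ν) Ψ (ρ a)) true true).trace =
          ((q a * (γ * ν * (1 - pt (ρ a)) + (1 - γ + γ * ν) * pt (ρ a)) : ℝ) : ℂ) := by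
        intro a
        rw [block_gad_true, Matrix.trace_add, Matrix.trace_smul, Matrix.trace_smul, htp', htp',
          hbt, hbt, hw1, hwf]
        simp only [smul_eq_mul]
        push_cast
        ring
      simp_rw [this]
      rw [← Complex.ofReal_sum, Complex.ofReal_re]
      have h2 : ∀ a, q a * (γ * ν * (1 - pt (ρ a)) + (1 - γ + γ * ν) * pt (ρ a)) =
          (1 - γ) * (q a * pt (ρ a)) + γ * ν * q a := by intro a; ring
      simp only [h2, Finset.sum_add_distrib, ← Finset.mul_sum, hq1, outPop]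
      ring
    have htr0 : (block Y false false).trace.re = 1 - outPop γ ν (∑ a, q a * pt (ρ a)) := by
      rw [htr]
      have : ∀ a, (q a : ℂ) * (block (qubitTensor (gadMap γ ν) Ψ (ρ a)) false false).trace =
          ((q a * ((1 - γ * ν) * (1 - pt (ρ a)) + γ * (1 - ν) * pt (ρ a)) : ℝ) : ℂ) := by
        intro a
        rw [block_gad_false, Matrix.trace_add, Matrix.trace_smul, Matrix.trace_smul, htp', htp',
          hbt, hbt, hw1, hwf]
        simp only [smul_eq_mul]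
        push_cast
        ring
      simp_rw [this]
      rw [← Complex.ofReal_sum, Complex.ofReal_re]
      have h2 : ∀ a, q a * ((1 - γ * ν) * (1 - pt (ρ a)) + γ * (1 - ν) * pt (ρ a)) =
          (1 - γ * ν) * q a - (1 - γ) * (q a * pt (ρ a)) := by intro a; ring
      simp only [h2, Finset.sum_sub_distrib, ← Finset.mul_sum, hq1, outPop]
      ring
    have hup : vnEntropy Y ≤ vnEntropy (∑ x : Fin m × Bool, ((q x.1 * w x : ℝ) : ℂ) • Ψ (σ x)) +
        Real.binEntropy (outPop γ ν (∑ a, q a * pt (ρ a))) := by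
      have h1 := vnEntropy_le_block hYpsd
      have h2 := Sh_add_le (block_posSemidef hYpsd false) (block_posSemidef hYpsd true)
      have h3 : (block Y false false + block Y true true).trace.re = 1 := by
        rw [Matrix.trace_add, Complex.add_re, htr0, htr1]; ring
      rw [← hsumblock]
      unfold Sh at h2
      rw [h3, htr0, htr1] at h2
      rw [Real.binEntropy_eq_negMulLog_add_negMulLog_one_sub]
      simp only [Real.negMulLog_one, sub_zero] at h2
      linarith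
    have hlow : ∑ a, q a * gOut γ ν (1 - pt (ρ a)) (pt (ρ a)) +
        ∑ x : Fin m × Bool, q x.1 * w x * vnEntropy (Ψ (σ x)) ≤
        ∑ a, q a * vnEntropy (qubitTensor (gadMap γ ν) Ψ (ρ a)) := by
      rw [Fintype.sum_prod_type, ← Finset.sum_add_distrib]
      refine Finset.sum_le_sum fun a _ => ?_
      rw [Fintype.sum_bool]
      have h1 := entropy_lower γ ν hγ hν Ψ htp (ρ a) (hρ a) (hpos _ (hρ a).1)
      have e1 : Sh (Ψ (block (ρ a) true true)) = w (a, true) * vnEntropy (Ψ (σ (a, true))) := by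
        rw [← Sh_block Ψ hlin hΨp htp _ (hσ (a, true)), ← hσe (a, true)]
      have e2 : Sh (Ψ (block (ρ a) false false)) = w (a, false) * vnEntropy (Ψ (σ (a, false))) := by
        rw [← Sh_block Ψ hlin hΨp htp _ (hσ (a, false)), ← hσe (a, false)]
      rw [e1, e2] at h1
      have h2 := mul_le_mul_of_nonneg_left h1 (hq a)
      simp only
      linarith
    linarith

/-- Statement S0535. -/
theorem s0535 (γ ν : ℝ)
    (hγ : γ ∈ Set.Icc (0 : ℝ) 1) (hν : ν ∈ Set.Icc (0 : ℝ) 1)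
    (d e : Type) [Fintype d] [Fintype e] [DecidableEq d] [DecidableEq e] [Nonempty d] [Nonempty e]
    (Ψ : Matrix d d ℂ → Matrix e e ℂ) (hΨ : IsChannel Ψ) :
    (∀ (m : ℕ) (q : Fin m → ℝ) (ρ : Fin m → Matrix (Bool × d) (Bool × d) ℂ), IsEnsemble q ρ →
      ∀ ε > (0 : ℝ), ∃ (m₁ : ℕ) (q₁ : Fin m₁ → ℝ) (ρ₁ : Fin m₁ → Matrix Bool Bool ℂ)
        (m₂ : ℕ) (q₂ : Fin m₂ → ℝ) (ρ₂ : Fin m₂ → Matrix d d ℂ),
        IsEnsemble q₁ ρ₁ ∧ IsEnsemble q₂ ρ₂ ∧
          holevoInfo (qubitTensor (gadMap γ ν) Ψ) q ρ ≤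
            holevoInfo (gadMap γ ν) q₁ ρ₁ + holevoInfo Ψ q₂ ρ₂ + ε) ∧
    (∀ (m₁ : ℕ) (q₁ : Fin m₁ → ℝ) (ρ₁ : Fin m₁ → Matrix Bool Bool ℂ)
      (m₂ : ℕ) (q₂ : Fin m₂ → ℝ) (ρ₂ : Fin m₂ → Matrix d d ℂ), IsEnsemble q₁ ρ₁ → IsEnsemble q₂ ρ₂ →
      ∃ (m : ℕ) (q : Fin m → ℝ) (ρ : Fin m → Matrix (Bool × d) (Bool × d) ℂ), IsEnsemble q ρ ∧
        holevoInfo (gadMap γ ν) q₁ ρ₁ + holevoInfo Ψ q₂ ρ₂ ≤
          holevoInfo (qubitTensor (gadMap γ ν) Ψ) q ρ) ∧
    (∀ ρ : Matrix (Bool × d) (Bool × d) ℂ, IsDensity ρ → ∀ ε > (0 : ℝ),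
      ∃ (ρ₁ : Matrix Bool Bool ℂ) (ρ₂ : Matrix d d ℂ), IsDensity ρ₁ ∧ IsDensity ρ₂ ∧
        vnEntropy (gadMap γ ν ρ₁) + vnEntropy (Ψ ρ₂) ≤ vnEntropy (qubitTensor (gadMap γ ν) Ψ ρ) + ε) ∧
    (∀ (ρ₁ : Matrix Bool Bool ℂ) (ρ₂ : Matrix d d ℂ), IsDensity ρ₁ → IsDensity ρ₂ →
      ∃ ρ : Matrix (Bool × d) (Bool × d) ℂ, IsDensity ρ ∧
        vnEntropy (qubitTensor (gadMap γ ν) Ψ ρ) ≤ vnEntropy (gadMap γ ν ρ₁) + vnEntropy (Ψ ρ₂)) := by
  obtain ⟨hlin, hcp, htp⟩ := hΨ
  have htp' : ∀ M, (Ψ M).trace = M.trace := htp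
  have hpos : ∀ M : Matrix (Bool × d) (Bool × d) ℂ, M.PosSemidef →
      (blockwise (k := Bool) Ψ M).PosSemidef := fun M hM => blockwise_bool_posSemidef Ψ hcp M hM
  have hΨp := psd_of_bool Ψ hpos
  have hgad := gadMap_isChannel γ ν hγ hν
  have hptI : ∀ ρ : Matrix (Bool × d) (Bool × d) ℂ, IsDensity ρ →
      pt ρ ∈ Set.Icc (0 : ℝ) 1 ∧ (block ρ false false).trace.re = 1 - pt ρ := by
    intro ρ hρ
    have h0 : ∀ s, 0 ≤ (block ρ s s).trace.re := by
      intro s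
      have h := (block_posSemidef hρ.1 s).trace_nonneg
      rw [Complex.le_def] at h
      simpa using h.1
    have h1 := congrArg Complex.re (trace_block_add ρ)
    rw [hρ.2] at h1
    simp only [Complex.add_re, Complex.one_re] at h1
    refine ⟨⟨h0 true, ?_⟩, ?_⟩
    · unfold pt; linarith [h0 false]
    · unfold pt; linarith
  refine ⟨?_, ?_, ?_, ?_⟩
  · intro m q ρ hE ε hε
    obtain ⟨m₂, q₂, ρ₂, hE₂, h2⟩ := holevo_step γ ν hγ hν Ψ hlin hpos htp q ρ hE
    obtain ⟨m₁, q₁, ρ₁, hE₁, h1⟩ := single_ensemble γ ν hγ hν q (fun a => pt (ρ a)) hE.1 hE.2.1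
      (fun a => (hptI _ (hE.2.2 a)).1)
    refine ⟨m₁, q₁, ρ₁, m₂, q₂, ρ₂, hE₁, hE₂, ?_⟩
    rw [h1]
    linarith
  · intro m₁ q₁ ρ₁ m₂ q₂ ρ₂ h₁ h₂
    obtain ⟨m, q, ρ, hE, h⟩ := product_ensemble (gadMap γ ν) hgad Ψ hlin hΨp htp q₁ ρ₁ q₂ ρ₂ h₁ h₂
    exact ⟨m, q, ρ, hE, h.ge⟩
  · intro ρ hρ ε hε
    obtain ⟨hI, hf⟩ := hptI ρ hρ
    have hlow := entropy_lower γ ν hγ hν Ψ htp ρ hρ (hpos _ hρ.1)
    obtain ⟨σ0, hσ0, he0⟩ := exists_density (block_posSemidef hρ.1 false)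
    obtain ⟨σ1, hσ1, he1⟩ := exists_density (block_posSemidef hρ.1 true)
    have e0 : Sh (Ψ (block ρ false false)) = (1 - pt ρ) * vnEntropy (Ψ σ0) := by
      rw [← Sh_block Ψ hlin hΨp htp _ hσ0, ← hf, ← he0]
    have e1 : Sh (Ψ (block ρ true true)) = pt ρ * vnEntropy (Ψ σ1) := by
      rw [← Sh_block Ψ hlin hΨp htp _ hσ1]
      congr 2
    rw [e0, e1] at hlow
    have hpure := vnEntropy_gadMap_pure γ ν (pt ρ) hI 1 (Or.inl rfl)
    have hpd : IsDensity (mat2 ((√(1 - pt ρ)) ^ 2) ((1 * √(pt ρ)) ^ 2)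
        (√(1 - pt ρ) * (1 * √(pt ρ)))) := by
      apply pure_density
      rw [mul_pow, Real.sq_sqrt (by linarith [hI.2]), Real.sq_sqrt hI.1]
      ring
    rcases le_total (vnEntropy (Ψ σ0)) (vnEntropy (Ψ σ1)) with hle | hle
    · refine ⟨_, σ0, hpd, hσ0, ?_⟩
      rw [hpure]
      nlinarith [hI.1, hI.2, mul_le_mul_of_nonneg_left hle hI.1]
    · refine ⟨_, σ1, hpd, hσ1, ?_⟩
      rw [hpure]
      nlinarith [hI.1, hI.2, mul_le_mul_of_nonneg_left hle (sub_nonneg.mpr hI.2)]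
  · intro ρ₁ ρ₂ h₁ h₂
    refine ⟨ρ₁ ⊗ₖ ρ₂, ⟨h₁.1.kronecker h₂.1, ?_⟩, ?_⟩
    · rw [Matrix.trace_kronecker, h₁.2, h₂.2, one_mul]
    · have hg := posSemidef_of_cp _ hgad.2.1 _ h₁.1
      rw [qubitTensor_kronecker _ hgad.1 _ hlin, vnEntropy_kronecker hg.1 (hΨp _ h₂.1).1,
        hgad.2.2, htp', h₁.2, h₂.2]
      simp

end Crest.Agent.H29
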