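import Mathlib
import Crest.Agent.H29.Defs

set_option autoImplicit false

open Crest.Quantum Crest.MathPhysics.AmpDamp Matrix Filter Topology
open scoped ComplexOrder Kronecker

namespace Crest.Agent.H29

/-- splitting off the first qubit -/
theorem qubitPower_succ (n : ℕ) (Φ : Matrix Bool Bool ℂ → Matrix Bool Bool ℂ)
    (M : Matrix (Fin (n + 1) → Bool) (Fin (n + 1) → Bool) ℂ) :
    (qubitPower (n + 1) Φ M).submatrix (Fin.consEquiv (fun _ => Bool)) (Fin.consEquiv (fun _ => Bool))
      = qubitTensor Φ (qubitPower n Φ)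
          (M.submatrix (Fin.consEquiv (fun _ => Bool)) (Fin.consEquiv (fun _ => Bool))) := by
  ext ⟨s, σ⟩ ⟨t, τ⟩
  simp only [Matrix.submatrix_apply, qubitPower, qubitTensor, Matrix.of_apply, block]
  rw [← (Fin.consEquiv (fun _ : Fin (n + 1) => Bool)).sum_comp, Fintype.sum_prod_type]
  refine Finset.sum_congr rfl fun s' _ => ?_
  simp_rw [← (Fin.consEquiv (fun _ : Fin (n + 1) => Bool)).sum_comp (fun τ' =>
    (∏ i, qubitCoeff Φ _ _ _ (τ' i)) * M _ τ'), Fintype.sum_prod_type]
  rw [Finset.sum_comm]
  refine Finset.sum_congr rfl fun t' _ => ?_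
  rw [Finset.mul_sum]
  refine Finset.sum_congr rfl fun σ' _ => ?_
  rw [Finset.mul_sum]
  refine Finset.sum_congr rfl fun τ' _ => ?_
  rw [Fin.prod_univ_succ]
  simp [Fin.consEquiv, mul_assoc]

theorem qubitPower_isLinear (n : ℕ) (Φ : Matrix Bool Bool ℂ → Matrix Bool Bool ℂ) :
    IsLinearMap ℂ (qubitPower n Φ) := by
  constructor
  · intro x y
    ext σ τ
    simp [qubitPower, mul_add, Finset.sum_add_distrib]
  · intro c x
    ext σ τ
    simp only [qubitPower, Matrix.of_apply, Matrix.smul_apply, smul_eq_mul, Finset.mul_sum]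
    refine Finset.sum_congr rfl fun σ' _ => Finset.sum_congr rfl fun τ' _ => ?_
    ring

section chan

set_option linter.unusedSectionVars false

variable {d e : Type*} [Fintype d] [Fintype e] [DecidableEq d] [DecidableEq e]

/-- complete positivity for an arbitrary finite auxiliary system. -/
theorem cp_fintype {κ : Type*} [Fintype κ] [DecidableEq κ] {Ψ : Matrix d d ℂ → Matrix e e ℂ}
    (h : IsCompletelyPositive Ψ) (M : Matrix (κ × d) (κ × d) ℂ) (hM : M.PosSemidef) :
    (blockwise (k := κ) Ψ M).PosSemidef := by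
  set f := Fintype.equivFin κ with hf
  set g : Fin (Fintype.card κ) × d → κ × d := fun p => (f.symm p.1, p.2) with hg
  have h1 := h (Fintype.card κ) (M.submatrix g g) (hM.submatrix g)
  have e1 : blockwise (k := κ) Ψ M = (blockwise (k := Fin (Fintype.card κ)) Ψ
      (M.submatrix g g)).submatrix (fun p : κ × e => (f p.1, p.2)) (fun p => (f p.1, p.2)) := by
    ext p q
    simp only [blockwise, Matrix.of_apply, Matrix.submatrix_apply]
    have : block (M.submatrix g g) (f p.1) (f q.1) = block M p.1 q.1 := by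
      ext i j
      simp [block, hg]
    rw [this]
  rw [e1]
  exact h1.submatrix _

/-- Kraus-like decomposition of the transfer coefficients. -/
theorem coeff_kraus {Φ : Matrix Bool Bool ℂ → Matrix Bool Bool ℂ} (h : IsCompletelyPositive Φ) :
    ∃ (N : ℕ) (R : Fin N → (Bool × Bool) → ℂ), ∀ s t s' t',
      qubitCoeff Φ s t s' t' = ∑ k, star (R k (s', s)) * R k (t', t) := by
  set v : Bool × Bool → ℂ := fun p => if p.1 = p.2 then 1 else 0 with hv
  have hE : (Matrix.vecMulVec v (star v)).PosSemidef := Matrix.posSemidef_vecMulVec_self_star v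
  have h1 := cp_fintype h _ hE
  obtain ⟨N, w, hR⟩ := Matrix.posSemidef_iff_eq_sum_vecMulVec.mp h1
  refine ⟨N, fun k p => star (w k p), fun s t s' t' => ?_⟩
  have h2 := congrFun (congrFun hR (s', s)) (t', t)
  rw [Matrix.sum_apply] at h2
  simp only [Matrix.vecMulVec_apply, Pi.star_apply] at h2
  simp only [star_star]
  rw [← h2]
  simp only [blockwise, Matrix.of_apply, qubitCoeff]
  congr 2
  ext i j
  simp only [block, Matrix.of_apply, Matrix.vecMulVec_apply, hv, Pi.star_apply, Matrix.single_apply]
  by_cases h3 : s' = i <;> by_cases h4 : t' = j <;> simp [h3, h4]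

theorem qubitTensor_isLinear (Φ : Matrix Bool Bool ℂ → Matrix Bool Bool ℂ)
    {Ψ : Matrix d d ℂ → Matrix e e ℂ} (hΨ : IsLinearMap ℂ Ψ) :
    IsLinearMap ℂ (qubitTensor Φ Ψ) := by
  have hb : ∀ (x y : Matrix (Bool × d) (Bool × d) ℂ) s t,
      block (x + y) s t = block x s t + block y s t := fun x y s t => rfl
  have hs : ∀ (c : ℂ) (x : Matrix (Bool × d) (Bool × d) ℂ) s t,
      block (c • x) s t = c • block x s t := fun c x s t => rfl
  constructor
  · intro x y
    ext p q
    simp only [qubitTensor, Matrix.of_apply, Matrix.add_apply, hb, hΨ.map_add, mul_add,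
      Finset.sum_add_distrib]
  · intro c x
    ext p q
    simp only [qubitTensor, Matrix.of_apply, Matrix.smul_apply, hs, hΨ.map_smul, smul_eq_mul,
      Finset.mul_sum]
    refine Finset.sum_congr rfl fun σ' _ => Finset.sum_congr rfl fun τ' _ => ?_
    ring

theorem qubitTensor_tp {Φ : Matrix Bool Bool ℂ → Matrix Bool Bool ℂ}
    (hΦ : IsTracePreserving Φ)
    {Ψ : Matrix d d ℂ → Matrix e e ℂ} (hΨ : IsTracePreserving Ψ) :
    IsTracePreserving (qubitTensor Φ Ψ) := by
  intro M
  have hc : ∀ s' t', ∑ s, qubitCoeff Φ s s s' t' = if s' = t' then 1 else 0 := by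
    intro s' t'
    have h := hΦ (Matrix.single s' t' 1)
    rw [Matrix.trace] at h
    simp only [Matrix.diag_apply] at h
    unfold qubitCoeff
    rw [h]
    by_cases h2 : s' = t'
    · subst h2; simp
    · rw [if_neg h2, Matrix.trace_single_eq_of_ne _ _ _ h2]
  have h1 : (qubitTensor Φ Ψ M).trace = ∑ s' : Bool, ∑ t' : Bool,
      (∑ s, qubitCoeff Φ s s s' t') * (Ψ (block M s' t')).trace := by
    simp only [Matrix.trace, Matrix.diag_apply, qubitTensor, Matrix.of_apply,
      Fintype.sum_prod_type, Fintype.sum_bool, Finset.sum_add_distrib, Finset.mul_sum, add_mul]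
    ring
  rw [h1]
  simp_rw [hc, hΨ (block M _ _)]
  simp only [Matrix.trace, Matrix.diag_apply, block, Matrix.of_apply, Fintype.sum_prod_type,
    ite_mul, one_mul, zero_mul]
  simp

theorem qubitTensor_cp {Φ : Matrix Bool Bool ℂ → Matrix Bool Bool ℂ}
    (hΦ : IsCompletelyPositive Φ)
    {Ψ : Matrix d d ℂ → Matrix e e ℂ} (hΨ : IsCompletelyPositive Ψ) :
    IsCompletelyPositive (qubitTensor Φ Ψ) := by
  intro k M hM
  obtain ⟨N, R, hR⟩ := coeff_kraus hΦ
  set g : (Fin k × Bool) × d → Fin k × (Bool × d) := fun p => (p.1.1, (p.1.2, p.2)) with hg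
  have hB := cp_fintype hΨ (M.submatrix g g) (hM.submatrix g)
  set B := blockwise (k := Fin k × Bool) Ψ (M.submatrix g g) with hBd
  set L : Fin N → Matrix (Fin k × (Bool × e)) ((Fin k × Bool) × e) ℂ := fun r =>
    Matrix.of fun p q => if p.1 = q.1.1 ∧ p.2.2 = q.2 then star (R r (q.1.2, p.2.1)) else 0 with hL
  have e1 : blockwise (k := Fin k) (qubitTensor Φ Ψ) M = ∑ r, L r * B * (L r)ᴴ := by
    ext ⟨a, s, i⟩ ⟨b, t, j⟩
    rw [Matrix.sum_apply]
    have hterm : ∀ r, (L r * B * (L r)ᴴ) (a, s, i) (b, t, j) =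
        ∑ s', ∑ t', star (R r (s', s)) * R r (t', t) *
          Ψ (block (block M a b) s' t') i j := by
      intro r
      rw [Matrix.mul_apply]
      simp only [Matrix.mul_apply, Matrix.conjTranspose_apply, hL, Matrix.of_apply,
        Fintype.sum_prod_type]
      have hin : ∀ (b' : Fin k) (t' : Bool) (j' : e),
          (∑ a' : Fin k, ∑ s' : Bool, ∑ i' : e,
            (if a = a' ∧ i = i' then star (R r (s', s)) else 0) * B ((a', s'), i') ((b', t'), j')) =
          ∑ s' : Bool, star (R r (s', s)) * B ((a, s'), i) ((b', t'), j') := by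
        intro b' t' j'
        rw [Finset.sum_eq_single a]
        · refine Finset.sum_congr rfl fun s' _ => ?_
          rw [Finset.sum_eq_single i]
          · simp
          · intro i' _ hi'
            rw [if_neg (fun h => hi' h.2.symm), zero_mul]
          · simp
        · intro a' _ ha'
          refine Finset.sum_eq_zero fun s' _ => Finset.sum_eq_zero fun i' _ => ?_
          rw [if_neg (fun h => ha' h.1.symm), zero_mul]
        · simp
      simp_rw [hin]
      rw [Finset.sum_eq_single b]
      · refine (Finset.sum_congr rfl fun t' _ => Finset.sum_eq_single j ?_ ?_).trans ?_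
        · intro j' _ hj'
          rw [if_neg (fun h => hj' h.2.symm), star_zero, mul_zero]
        · simp
        · simp_rw [Finset.sum_mul]
          rw [Finset.sum_comm]
          refine Finset.sum_congr rfl fun s' _ => Finset.sum_congr rfl fun t' _ => ?_
          have hBe : B ((a, s'), i) ((b, t'), j) = Ψ (block (block M a b) s' t') i j := by
            rw [hBd]
            simp only [blockwise, Matrix.of_apply]
            rfl
          rw [hBe]
          simp only [and_self, if_true, star_star]
          ring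
      · intro b' _ hb'
        refine Finset.sum_eq_zero fun t' _ => Finset.sum_eq_zero fun j' _ => ?_
        rw [if_neg (fun h => hb' h.1.symm), star_zero, mul_zero]
      · simp
    simp_rw [hterm]
    simp only [blockwise, qubitTensor, Matrix.of_apply]
    symm
    rw [Finset.sum_comm]
    refine Finset.sum_congr rfl fun s' _ => ?_
    rw [Finset.sum_comm]
    refine Finset.sum_congr rfl fun t' _ => ?_
    rw [hR, Finset.sum_mul]
  rw [e1]
  exact Matrix.posSemidef_sum _ fun r _ => hB.mul_mul_conjTranspose_same (L r)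

theorem qubitTensor_isChannel {Φ : Matrix Bool Bool ℂ → Matrix Bool Bool ℂ}
    (hΦ : IsChannel Φ) {Ψ : Matrix d d ℂ → Matrix e e ℂ} (hΨ : IsChannel Ψ) :
    IsChannel (qubitTensor Φ Ψ) :=
  ⟨qubitTensor_isLinear Φ hΨ.1, qubitTensor_cp hΦ.2.1 hΨ.2.1, qubitTensor_tp hΦ.2.2 hΨ.2.2⟩

end chan

theorem qubitPower_zero (Φ : Matrix Bool Bool ℂ → Matrix Bool Bool ℂ)
    (M : Matrix (Fin 0 → Bool) (Fin 0 → Bool) ℂ) : qubitPower 0 Φ M = M := by
  ext σ τ
  simp only [qubitPower, Matrix.of_apply, Finset.univ_eq_empty, Finset.prod_empty, one_mul]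
  rw [Fintype.sum_unique, Fintype.sum_unique]
  congr 1 <;> exact Subsingleton.elim _ _

theorem qubitPower_succ' (n : ℕ) (Φ : Matrix Bool Bool ℂ → Matrix Bool Bool ℂ)
    (M : Matrix (Fin (n + 1) → Bool) (Fin (n + 1) → Bool) ℂ) :
    qubitPower (n + 1) Φ M = (qubitTensor Φ (qubitPower n Φ)
          (M.submatrix (Fin.consEquiv (fun _ => Bool)) (Fin.consEquiv (fun _ => Bool)))).submatrix
        (Fin.consEquiv (fun _ => Bool)).symm (Fin.consEquiv (fun _ => Bool)).symm := by
  rw [← qubitPower_succ]
  ext σ τ
  simp only [Matrix.submatrix_apply, Equiv.apply_symm_apply]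

theorem qubitPower_isChannel (n : ℕ) (Φ : Matrix Bool Bool ℂ → Matrix Bool Bool ℂ)
    (hΦ : IsChannel Φ) : IsChannel (qubitPower n Φ) := by
  refine ⟨qubitPower_isLinear n Φ, ?_, ?_⟩
  · induction n with
    | zero =>
      intro k M hM
      have : blockwise (k := Fin k) (qubitPower 0 Φ) M = M := by
        ext p q
        simp only [blockwise, Matrix.of_apply, qubitPower_zero]
        rfl
      rw [this]; exact hM
    | succ n ih =>
      intro k M hM
      set c := Fin.consEquiv (fun _ : Fin (n + 1) => Bool) with hc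
      set g : Fin k × (Bool × (Fin n → Bool)) → Fin k × (Fin (n + 1) → Bool) :=
        fun p => (p.1, c p.2) with hg
      have h1 := qubitTensor_cp hΦ.2.1 ih k (M.submatrix g g) (hM.submatrix g)
      have e1 : blockwise (k := Fin k) (qubitPower (n + 1) Φ) M =
          (blockwise (k := Fin k) (qubitTensor Φ (qubitPower n Φ)) (M.submatrix g g)).submatrix
            (fun p => (p.1, c.symm p.2)) (fun p => (p.1, c.symm p.2)) := by
        ext p q
        simp only [blockwise, Matrix.of_apply, Matrix.submatrix_apply]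
        rw [qubitPower_succ']
        rfl
      rw [e1]
      exact h1.submatrix _
  · induction n with
    | zero => intro M; rw [qubitPower_zero]
    | succ n ih =>
      intro M
      have h1 := qubitTensor_tp hΦ.2.2 ih
        (M.submatrix (Fin.consEquiv (fun _ => Bool)) (Fin.consEquiv (fun _ => Bool)))
      rw [qubitPower_succ']
      have tr : ∀ {x y : Type} [Fintype x] [Fintype y] (f : x ≃ y) (A : Matrix y y ℂ),
          (A.submatrix f f).trace = A.trace := by
        intro x y _ _ f A
        simp only [Matrix.trace, Matrix.diag_apply, Matrix.submatrix_apply]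
        exact f.sum_comp (fun i => A i i)
      rw [tr, h1, tr]

end Crest.Agent.H29
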