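import Mathlib
import Crest.Agent.H29.Defs
import Crest.Agent.H29.Ent
import Crest.Agent.H29.QP
import Crest.Agent.H29.Hol
import Crest.Agent.H29.GSc

set_option autoImplicit false

open Crest.Quantum Crest.MathPhysics.AmpDamp Matrix Filter Topology
open scoped ComplexOrder Kronecker

namespace Crest.Agent.H29

/-- reindexing an ensemble -/
theorem isEnsemble_reindex {x y : Type*} [Fintype x] [Fintype y] (f : x ≃ y) {m : ℕ}
    {q : Fin m → ℝ} {ρ : Fin m → Matrix y y ℂ} (h : IsEnsemble q ρ) :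
    IsEnsemble q (fun a => (ρ a).submatrix f f) := by
  refine ⟨h.1, h.2.1, fun a => ⟨(h.2.2 a).1.submatrix f, ?_⟩⟩
  rw [← (h.2.2 a).2]
  simp only [Matrix.trace, Matrix.diag_apply, Matrix.submatrix_apply]
  exact f.sum_comp (fun i => ρ a i i)

theorem psd_of_cp {d e : Type*} [Fintype d] [Fintype e] [DecidableEq d] [DecidableEq e]
    {Ψ : Matrix d d ℂ → Matrix e e ℂ} (h : IsCompletelyPositive Ψ) {M : Matrix d d ℂ}
    (hM : M.PosSemidef) : (Ψ M).PosSemidef := by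
  have h1 := cp_fintype (κ := Unit) h (M.submatrix Prod.snd Prod.snd) (hM.submatrix _)
  have h2 := h1.submatrix (fun i : e => ((), i))
  exact h2

theorem avg_psd {d e : Type*} [Fintype d] [Fintype e] [DecidableEq d] [DecidableEq e]
    {Ψ : Matrix d d ℂ → Matrix e e ℂ} (h : IsCompletelyPositive Ψ) {m : ℕ} {q : Fin m → ℝ}
    {ρ : Fin m → Matrix d d ℂ} (hE : IsEnsemble q ρ) :
    (∑ a, (q a : ℂ) • Ψ (ρ a)).PosSemidef := by
  refine Matrix.posSemidef_sum _ fun a _ => ?_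
  exact (psd_of_cp h (hE.2.2 a).1).smul (by exact_mod_cast hE.1 a : (0 : ℂ) ≤ ((q a : ℝ) : ℂ))

theorem holevo_reindex (n : ℕ) {Φ : Matrix Bool Bool ℂ → Matrix Bool Bool ℂ} (hΦ : IsChannel Φ)
    {m : ℕ} {q : Fin m → ℝ} {ρ : Fin m → Matrix (Fin (n + 1) → Bool) (Fin (n + 1) → Bool) ℂ}
    (hE : IsEnsemble q ρ) :
    holevoInfo (qubitPower (n + 1) Φ) q ρ =
      holevoInfo (qubitTensor Φ (qubitPower n Φ)) q (fun a => (ρ a).submatrix
        (Fin.consEquiv (fun _ => Bool)) (Fin.consEquiv (fun _ => Bool))) := by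
  set c := Fin.consEquiv (fun _ : Fin (n + 1) => Bool) with hc
  have hT : IsChannel (qubitTensor Φ (qubitPower n Φ)) :=
    qubitTensor_isChannel hΦ (qubitPower_isChannel n Φ hΦ)
  have hE' := isEnsemble_reindex c hE
  unfold holevoInfo
  congr 1
  · rw [← vnEntropy_reindex c (avg_psd hT.2.1 hE').1]
    congr 1
    ext σ τ
    simp only [Matrix.sum_apply, Matrix.smul_apply, Matrix.submatrix_apply]
    refine Finset.sum_congr rfl fun a _ => ?_
    rw [qubitPower_succ']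
    rfl
  · refine Finset.sum_congr rfl fun a _ => ?_
    rw [qubitPower_succ', vnEntropy_reindex c (psd_of_cp hT.2.1 (hE'.2.2 a).1).1]

theorem pt_mem {d : Type*} [Fintype d] {ρ : Matrix (Bool × d) (Bool × d) ℂ} (h : IsDensity ρ) :
    pt ρ ∈ Set.Icc (0 : ℝ) 1 := by
  have h0 : ∀ s, 0 ≤ (block ρ s s).trace.re := by
    intro s
    have : (block ρ s s).PosSemidef := h.1.submatrix (fun i => (s, i))
    exact (RCLike.nonneg_iff.mp this.trace_nonneg).1
  have h1 : (block ρ false false).trace.re + (block ρ true true).trace.re = 1 := by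
    have := congrArg Complex.re h.2
    rw [Matrix.trace, Fintype.sum_prod_type, Fintype.sum_bool, Complex.add_re] at this
    simp only [Complex.one_re] at this
    rw [← this, add_comm]
    rfl
  exact ⟨h0 true, by have := h0 false; unfold pt; linarith⟩

theorem holevo_zero {Φ : Matrix Bool Bool ℂ → Matrix Bool Bool ℂ}
    {m : ℕ} {q : Fin m → ℝ} {ρ : Fin m → Matrix (Fin 0 → Bool) (Fin 0 → Bool) ℂ}
    (hE : IsEnsemble q ρ) : holevoInfo (qubitPower 0 Φ) q ρ = 0 := by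
  have hone : ∀ a, ρ a = 1 := by
    intro a
    have h := (hE.2.2 a).2
    rw [Matrix.trace, Fintype.sum_unique, Matrix.diag_apply] at h
    ext i j
    have hi : i = default := Subsingleton.elim _ _
    have hj : j = default := Subsingleton.elim _ _
    subst hi; subst hj
    rw [Matrix.one_apply_eq]
    have hd : (@default (Fin 0 → Bool) Unique.instInhabited) = default := Subsingleton.elim _ _
    rw [hd] at h
    exact h
  have hv : vnEntropy (1 : Matrix (Fin 0 → Bool) (Fin 0 → Bool) ℂ) = 0 := by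
    have := vnEntropy_diag (fun _ : Fin 0 → Bool => (1 : ℝ))
    simp at this
    simpa using this
  unfold holevoInfo
  simp_rw [qubitPower_zero, hone, hv]
  rw [← Finset.sum_smul]
  have : ∑ a, (q a : ℂ) = 1 := by
    rw [← Complex.ofReal_sum, hE.2.1]; simp
  rw [this, one_smul, hv]
  simp

theorem rate_eq (γ ν : ℝ) (hγ : γ ∈ Set.Icc (0 : ℝ) 1)
    (hν : ν ∈ Set.Icc (0 : ℝ) 1) {p : ℝ} (hp : p ∈ Set.Icc (0 : ℝ) 1) :
    Real.binEntropy (outPop γ ν p) - gOut γ ν (1 - p) p = gadRate γ ν p := by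
  rw [gOut_eq γ ν hγ hν p hp, gadRate, outPop]

theorem jensen_rate (γ ν : ℝ) (hγ : γ ∈ Set.Icc (0 : ℝ) 1)
    (hν : ν ∈ Set.Icc (0 : ℝ) 1) {m : ℕ} {q p : Fin m → ℝ} (hq : ∀ a, 0 ≤ q a)
    (hq1 : ∑ a, q a = 1) (hp : ∀ a, p a ∈ Set.Icc (0 : ℝ) 1) :
    ∃ P ∈ Set.Icc (0 : ℝ) 1, Real.binEntropy (outPop γ ν (∑ a, q a * p a))
      - ∑ a, q a * gOut γ ν (1 - p a) (p a) ≤ gadRate γ ν P := by
  have hP : ∑ a, q a * p a ∈ Set.Icc (0 : ℝ) 1 := by
    constructor
    · exact Finset.sum_nonneg fun a _ => mul_nonneg (hq a) (hp a).1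
    · calc ∑ a, q a * p a ≤ ∑ a, q a * 1 :=
          Finset.sum_le_sum fun a _ => mul_le_mul_of_nonneg_left (hp a).2 (hq a)
        _ = 1 := by simp [hq1]
  refine ⟨_, hP, ?_⟩
  rw [← rate_eq γ ν hγ hν hP]
  have h := (gOut_convex γ ν hγ hν).map_sum_le (t := Finset.univ) (w := q) (p := p)
    (fun a _ => hq a) hq1 (fun a _ => hp a)
  simp only [smul_eq_mul] at h
  linarith

theorem s0534_upper (γ ν : ℝ) (hγ : γ ∈ Set.Icc (0 : ℝ) 1)
    (hν : ν ∈ Set.Icc (0 : ℝ) 1) (n : ℕ) :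
    ∀ (m : ℕ) (q : Fin m → ℝ) (ρ : Fin m → Matrix (Fin n → Bool) (Fin n → Bool) ℂ),
        IsEnsemble q ρ → ∃ p ∈ Set.Icc (0 : ℝ) 1,
          holevoInfo (qubitPower n (gadMap γ ν)) q ρ ≤ n * gadRate γ ν p := by
  have hch := gadMap_isChannel γ ν hγ hν
  induction n with
  | zero =>
    intro m q ρ hE
    refine ⟨0, ⟨le_rfl, zero_le_one⟩, ?_⟩
    rw [holevo_zero hE]; simp
  | succ n ih =>
    intro m q ρ hE
    have hpow := qubitPower_isChannel n (gadMap γ ν) hch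
    rw [holevo_reindex n hch hE]
    have hE' := isEnsemble_reindex (Fin.consEquiv (fun _ : Fin (n + 1) => Bool)) hE
    obtain ⟨m', q', ρ', hE2, hle⟩ := holevo_step γ ν hγ hν (qubitPower n (gadMap γ ν)) hpow.1
      (fun M hM => cp_fintype hpow.2.1 M hM) hpow.2.2 q _ hE'
    obtain ⟨p1, hp1, h1⟩ := ih m' q' ρ' hE2
    obtain ⟨p2, hp2, h2⟩ := jensen_rate γ ν hγ hν hE'.1 hE'.2.1
      (fun a => pt_mem (hE'.2.2 a))
    rcases le_total (gadRate γ ν p1) (gadRate γ ν p2) with hc | hc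
    · refine ⟨p2, hp2, ?_⟩
      have : (n : ℝ) * gadRate γ ν p1 ≤ n * gadRate γ ν p2 :=
        mul_le_mul_of_nonneg_left hc (Nat.cast_nonneg n)
      push_cast
      linarith
    · refine ⟨p1, hp1, ?_⟩
      push_cast
      linarith

theorem s0534_lower (γ ν : ℝ) (hγ : γ ∈ Set.Icc (0 : ℝ) 1)
    (hν : ν ∈ Set.Icc (0 : ℝ) 1) (n : ℕ) (p : ℝ) (hp : p ∈ Set.Icc (0 : ℝ) 1) :
    ∃ (m : ℕ) (q : Fin m → ℝ)
        (ρ : Fin m → Matrix (Fin n → Bool) (Fin n → Bool) ℂ),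
        IsEnsemble q ρ ∧ n * gadRate γ ν p ≤ holevoInfo (qubitPower n (gadMap γ ν)) q ρ := by
  have hch := gadMap_isChannel γ ν hγ hν
  induction n with
  | zero =>
    have hE : IsEnsemble (fun _ : Fin 1 => (1 : ℝ))
        (fun _ => (1 : Matrix (Fin 0 → Bool) (Fin 0 → Bool) ℂ)) := by
      refine ⟨fun _ => zero_le_one, by simp, fun _ => ⟨Matrix.PosSemidef.one, ?_⟩⟩
      simp
    refine ⟨1, _, _, hE, ?_⟩
    rw [holevo_zero hE]; simp
  | succ n ih =>
    obtain ⟨m₂, q₂, ρ₂, hE₂, h₂⟩ := ih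
    obtain ⟨m₁, q₁, ρ₁, hE₁, h₁⟩ := single_ensemble γ ν hγ hν (m := 1) (fun _ => 1) (fun _ => p)
      (fun _ => zero_le_one) (by simp) (fun _ => hp)
    have hpow := qubitPower_isChannel n (gadMap γ ν) hch
    obtain ⟨m, q, ρ, hE, h⟩ := product_ensemble (gadMap γ ν) hch (qubitPower n (gadMap γ ν))
      hpow.1 (fun M hM => psd_of_cp hpow.2.1 hM) hpow.2.2 q₁ ρ₁ q₂ ρ₂ hE₁ hE₂
    set c := Fin.consEquiv (fun _ : Fin (n + 1) => Bool) with hc
    have hE' := isEnsemble_reindex c.symm hE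
    refine ⟨m, q, _, hE', ?_⟩
    rw [holevo_reindex n hch hE']
    have e : (fun a => ((ρ a).submatrix c.symm c.symm).submatrix c c) = ρ := by
      funext a
      ext i j
      simp
    rw [← hc, e, h, h₁]
    simp only [Finset.univ_unique, one_mul, Finset.sum_singleton]
    rw [rate_eq γ ν hγ hν hp]
    push_cast
    linarith

theorem s0534 (γ ν : ℝ) (hγ : γ ∈ Set.Icc (0 : ℝ) 1)
    (hν : ν ∈ Set.Icc (0 : ℝ) 1) (n : ℕ) :
    (∀ (m : ℕ) (q : Fin m → ℝ) (ρ : Fin m → Matrix (Fin n → Bool) (Fin n → Bool) ℂ),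
        IsEnsemble q ρ → ∃ p ∈ Set.Icc (0 : ℝ) 1,
          holevoInfo (qubitPower n (gadMap γ ν)) q ρ ≤ n * gadRate γ ν p) ∧
    (∀ p ∈ Set.Icc (0 : ℝ) 1, ∃ (m : ℕ) (q : Fin m → ℝ)
        (ρ : Fin m → Matrix (Fin n → Bool) (Fin n → Bool) ℂ),
        IsEnsemble q ρ ∧ n * gadRate γ ν p ≤ holevoInfo (qubitPower n (gadMap γ ν)) q ρ) :=
  ⟨s0534_upper γ ν hγ hν n, s0534_lower γ ν hγ hν n⟩

end Crest.Agent.H29
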